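import Mathlib

/-!
Finite partial sums of the Mittag-Leffler expansion of the cotangent.

`cm m u = ∑_{|k| ≤ m} 1 / (u + k π)`, `em m p q = ∑_{|k| ≤ m} 1 / ((p + k π) (q + k π))`.
Main result: `1 + cm m p * cm m q - em m p q ≤ δ` uniformly on `[ε, π - ε]²` for large `m`,
because in the limit the left side is `(cos d - sin d / d) / (sin p sin q) ≤ 0`, `d = p - q`.
-/

open Real Filter Topology

namespace Vale.Agent.Lib.P371.Sharp

/-- The symmetric set of integer shifts. -/
noncomputable def shifts (m : ℕ) : Finset ℤ := Finset.Icc (-(m : ℤ)) (m : ℤ)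

/-- Partial sum of the cotangent series. -/
noncomputable def cm (m : ℕ) (u : ℝ) : ℝ := ∑ k ∈ shifts m, 1 / (u + k * π)

/-- Partial sum of the cosecant square type series. -/
noncomputable def em (m : ℕ) (p q : ℝ) : ℝ := ∑ k ∈ shifts m, 1 / ((p + k * π) * (q + k * π))

lemma sum_shifts_succ (f : ℤ → ℝ) (m : ℕ) :
    ∑ k ∈ shifts (m + 1), f k = ∑ k ∈ shifts m, f k + f ((m : ℤ) + 1) + f (-((m : ℤ) + 1)) := by
  have h : shifts (m + 1) = insert ((m : ℤ) + 1) (insert (-((m : ℤ) + 1)) (shifts m)) := by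
    ext k
    simp only [shifts, Finset.mem_Icc, Finset.mem_insert]
    push_cast
    omega
  rw [h, Finset.sum_insert, Finset.sum_insert]
  · ring
  · simp only [shifts, Finset.mem_Icc]
    omega
  · simp only [shifts, Finset.mem_Icc, Finset.mem_insert]
    omega

lemma cm_zero (u : ℝ) : cm 0 u = 1 / u := by
  simp [cm, shifts]

/-- One step of the cotangent sum. -/
noncomputable def rterm (u : ℝ) (j : ℕ) : ℝ :=
  1 / (u - ((j : ℝ) + 1) * π) + 1 / (u + ((j : ℝ) + 1) * π)

lemma cm_succ (m : ℕ) (u : ℝ) : cm (m + 1) u = cm m u + rterm u m := by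
  unfold cm rterm
  rw [sum_shifts_succ]
  push_cast
  have e1 : u + -((m : ℝ) + 1) * π = u - ((m : ℝ) + 1) * π := by ring
  rw [e1]
  ring

lemma cm_eq_sum (n : ℕ) (u : ℝ) : cm n u = 1 / u + ∑ j ∈ Finset.range n, rterm u j := by
  induction n with
  | zero => simp [cm_zero]
  | succ n ih =>
    rw [cm_succ, ih, Finset.sum_range_succ]
    ring

lemma tendsto_sum_rterm {u : ℝ} (h0 : 0 < u) (h1 : u < π) :
    Tendsto (fun n : ℕ => ∑ j ∈ Finset.range n, rterm u j) atTop (𝓝 (Real.cot u - 1 / u)) := by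
  have hpi := Real.pi_pos
  set x : ℂ := ((u / π : ℝ) : ℂ) with hx
  have hxmem : x ∈ Complex.integerComplement := by
    rw [Complex.mem_integerComplement_iff]
    rintro ⟨n, hn⟩
    have hn' : (n : ℝ) = u / π := by
      have : ((n : ℝ) : ℂ) = ((u / π : ℝ) : ℂ) := by
        rw [← hx, ← hn]
        simp
      exact_mod_cast this
    have h2 : 0 < u / π := div_pos h0 hpi
    have h3 : u / π < 1 := (div_lt_one hpi).2 h1
    rw [← hn'] at h2 h3
    have h4 : 0 < n := by exact_mod_cast h2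
    have h5 : n < 1 := by exact_mod_cast h3
    omega
  have h := tendsto_logDeriv_euler_cot_sub hxmem
  have hre := Complex.continuous_re.tendsto _ |>.comp h
  have e1 : ∀ n : ℕ, (Complex.re ∘ fun n : ℕ => ∑ j ∈ Finset.range n, cotTerm x j) n
      = π * ∑ j ∈ Finset.range n, rterm u j := by
    intro n
    simp only [Function.comp, Complex.re_sum, Finset.mul_sum]
    refine Finset.sum_congr rfl fun j _ => ?_
    have e2 : cotTerm x j = ((π * rterm u j : ℝ) : ℂ) := by
      simp only [cotTerm, hx, rterm]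
      push_cast
      have hpc : (π : ℂ) ≠ 0 := by exact_mod_cast hpi.ne'
      have n1 : (u : ℂ) - ((j : ℂ) + 1) * π ≠ 0 := by
        intro h'
        have : (u : ℝ) - ((j : ℝ) + 1) * π = 0 := by exact_mod_cast h'
        have hj : (0 : ℝ) ≤ j := Nat.cast_nonneg j
        nlinarith
      have n2 : (u : ℂ) + ((j : ℂ) + 1) * π ≠ 0 := by
        intro h'
        have : (u : ℝ) + ((j : ℝ) + 1) * π = 0 := by exact_mod_cast h'
        have hj : (0 : ℝ) ≤ j := Nat.cast_nonneg j
        nlinarith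
      have n3 : (u : ℂ) / π - ((j : ℂ) + 1) ≠ 0 := by
        intro h'
        apply n1
        have : (u : ℂ) - ((j : ℂ) + 1) * π = ((u : ℂ) / π - ((j : ℂ) + 1)) * π := by
          field_simp
        rw [this, h', zero_mul]
      have n4 : (u : ℂ) / π + ((j : ℂ) + 1) ≠ 0 := by
        intro h'
        apply n2
        have : (u : ℂ) + ((j : ℂ) + 1) * π = ((u : ℂ) / π + ((j : ℂ) + 1)) * π := by
          field_simp
        rw [this, h', zero_mul]
      field_simp
    rw [e2, Complex.ofReal_re]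
  have e3 : (π * Complex.cot (π * x) - 1 / x).re = π * (Real.cot u - 1 / u) := by
    have e4 : (π : ℂ) * x = (u : ℂ) := by
      rw [hx]
      push_cast
      have hpc : (π : ℂ) ≠ 0 := by exact_mod_cast hpi.ne'
      field_simp
    rw [e4, ← Complex.ofReal_cot]
    have e5 : (1 : ℂ) / x = ((π / u : ℝ) : ℂ) := by
      rw [hx]
      push_cast
      have hpc : (π : ℂ) ≠ 0 := by exact_mod_cast hpi.ne'
      have huc : (u : ℂ) ≠ 0 := by exact_mod_cast h0.ne'
      field_simp
    rw [e5]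
    have e6 : (π : ℂ) * ((Real.cot u : ℝ) : ℂ) - ((π / u : ℝ) : ℂ) = ((π * Real.cot u - π / u : ℝ) : ℂ) := by
      push_cast
      ring
    rw [e6, Complex.ofReal_re]
    field_simp
  rw [e3] at hre
  have hre2 : Tendsto (fun n : ℕ => π * ∑ j ∈ Finset.range n, rterm u j) atTop
      (𝓝 (π * (Real.cot u - 1 / u))) := by
    refine hre.congr e1
  have := hre2.const_mul (1 / π)
  simp only [← mul_assoc] at this
  have e7 : 1 / π * π = 1 := by field_simp
  simp only [e7, one_mul] at this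
  exact this

lemma tendsto_cm {u : ℝ} (h0 : 0 < u) (h1 : u < π) :
    Tendsto (fun n : ℕ => cm n u) atTop (𝓝 (Real.cot u)) := by
  have := (tendsto_sum_rterm h0 h1).const_add (1 / u)
  simp only [add_sub_cancel] at this
  refine this.congr fun n => ?_
  rw [cm_eq_sum]

/-- size of one step of the cotangent sum -/
lemma abs_rterm_le {u : ℝ} (h0 : 0 ≤ u) (h1 : u ≤ π) {j : ℕ} (hj : 1 ≤ j) :
    |rterm u j| ≤ 1 / (j : ℝ) - 1 / ((j : ℝ) + 1) := by
  have hpi := Real.pi_pos
  have hj' : (1 : ℝ) ≤ j := by exact_mod_cast hj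
  have hJ : (0 : ℝ) < j := by linarith
  set a : ℝ := ((j : ℝ) + 1) * π with ha
  have ha1 : u < a := by nlinarith
  have e1 : rterm u j = -(2 * u) / ((a - u) * (a + u)) := by
    have n1 : u - a ≠ 0 := by
      intro h2
      linarith
    have n2 : u + a ≠ 0 := by
      have : 0 < a := by positivity
      intro h2
      linarith
    have n3 : a - u ≠ 0 := by
      intro h2
      linarith
    simp only [rterm, ← ha]
    rw [div_add_div _ _ n1 n2, div_eq_div_iff (mul_ne_zero n1 n2) (mul_ne_zero n3 (by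
      have : 0 < a := by positivity
      intro h2
      linarith))]
    ring
  have hd : 0 < (a - u) * (a + u) := by
    apply mul_pos <;> nlinarith
  rw [e1, abs_div, abs_of_pos hd, abs_neg, abs_of_nonneg (by linarith : (0 : ℝ) ≤ 2 * u)]
  have e2 : 1 / (j : ℝ) - 1 / ((j : ℝ) + 1) = 1 / ((j : ℝ) * ((j : ℝ) + 1)) := by
    field_simp
    ring
  rw [e2, div_le_div_iff₀ hd (by positivity)]
  -- 2 u j (j + 1) ≤ (a - u)(a + u) = a² - u²
  have h3 : (3 : ℝ) < π := Real.pi_gt_three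
  have h5 : (a - u) * (a + u) = a ^ 2 - u ^ 2 := by ring
  have hu2 : u ^ 2 ≤ π ^ 2 := by nlinarith
  have h6 : a ^ 2 = ((j : ℝ) + 1) ^ 2 * π ^ 2 := by rw [ha]; ring
  have h7 : 2 * u * ((j : ℝ) * ((j : ℝ) + 1)) ≤ 2 * π * ((j : ℝ) * ((j : ℝ) + 1)) := by
    have : 0 ≤ (j : ℝ) * ((j : ℝ) + 1) := by positivity
    nlinarith
  have h8 : 2 * π * ((j : ℝ) * ((j : ℝ) + 1)) ≤ ((j : ℝ) + 1) ^ 2 * π ^ 2 - π ^ 2 := by
    have : ((j : ℝ) + 1) ^ 2 * π ^ 2 - π ^ 2 = π * (π * ((j : ℝ) * ((j : ℝ) + 2))) := by ring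
    rw [this]
    have h9 : (j : ℝ) * ((j : ℝ) + 1) ≤ (j : ℝ) * ((j : ℝ) + 2) := by nlinarith
    have h10 : 2 * ((j : ℝ) * ((j : ℝ) + 1)) ≤ π * ((j : ℝ) * ((j : ℝ) + 2)) := by nlinarith
    nlinarith
  rw [h5, h6, one_mul]
  linarith

lemma abs_cm_sub_le {u : ℝ} (h0 : 0 ≤ u) (h1 : u ≤ π) {m : ℕ} (hm : 1 ≤ m) (n : ℕ) :
    |cm (m + n) u - cm m u| ≤ 1 / (m : ℝ) - 1 / ((m + n : ℕ) : ℝ) := by
  induction n with
  | zero => simp
  | succ n ih =>
    have h2 : cm (m + (n + 1)) u = cm (m + n) u + rterm u (m + n) := by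
      rw [← add_assoc, cm_succ]
    have h3 := abs_rterm_le h0 h1 (j := m + n) (by omega)
    rw [h2]
    have h4 : |cm (m + n) u + rterm u (m + n) - cm m u| ≤
        |cm (m + n) u - cm m u| + |rterm u (m + n)| := by
      have : cm (m + n) u + rterm u (m + n) - cm m u =
          (cm (m + n) u - cm m u) + rterm u (m + n) := by ring
      rw [this]
      exact abs_add_le _ _
    have e : ((m + (n + 1) : ℕ) : ℝ) = ((m + n : ℕ) : ℝ) + 1 := by
      push_cast
      ring
    rw [e]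
    linarith

/-- Rate of convergence of the cotangent sum. -/
lemma abs_cot_sub_cm_le {u : ℝ} (h0 : 0 < u) (h1 : u < π) {m : ℕ} (hm : 1 ≤ m) :
    |Real.cot u - cm m u| ≤ 1 / (m : ℝ) := by
  have hm0 : (0 : ℝ) < m := by exact_mod_cast hm
  have h2 : Tendsto (fun n : ℕ => |cm (m + n) u - cm m u|) atTop
      (𝓝 |Real.cot u - cm m u|) := by
    have h3 := (tendsto_cm h0 h1).comp (tendsto_add_atTop_nat m)
    have h3' : Tendsto (fun n : ℕ => cm (m + n) u) atTop (𝓝 (Real.cot u)) :=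
      h3.congr fun n => by simp only [Function.comp, Nat.add_comm]
    exact (h3'.sub_const _).abs
  refine le_of_tendsto h2 (Eventually.of_forall fun n => ?_)
  have h4 := abs_cm_sub_le h0.le h1.le hm n
  have h5 : 0 ≤ 1 / ((m + n : ℕ) : ℝ) := by positivity
  linarith

/-! ### the second sum -/

lemma em_succ (m : ℕ) (p q : ℝ) : em (m + 1) p q = em m p q +
    (1 / ((p + ((m : ℝ) + 1) * π) * (q + ((m : ℝ) + 1) * π)) +
      1 / ((p - ((m : ℝ) + 1) * π) * (q - ((m : ℝ) + 1) * π))) := by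
  unfold em
  rw [sum_shifts_succ]
  push_cast
  have e1 : p + -((m : ℝ) + 1) * π = p - ((m : ℝ) + 1) * π := by ring
  have e2 : q + -((m : ℝ) + 1) * π = q - ((m : ℝ) + 1) * π := by ring
  rw [e1, e2]
  ring

/-- a denominator of the sums does not vanish -/
lemma shift_ne_zero {u : ℝ} (h0 : 0 < u) (h1 : u < π) (k : ℤ) : u + k * π ≠ 0 := by
  have hpi := Real.pi_pos
  intro h
  rcases lt_trichotomy k 0 with hk | hk | hk
  · have h2 : (k : ℝ) ≤ -1 := by exact_mod_cast (by omega : k ≤ -1)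
    nlinarith
  · rw [hk] at h
    simp only [Int.cast_zero, zero_mul, add_zero] at h
    linarith
  · have h2 : (1 : ℝ) ≤ k := by exact_mod_cast hk
    nlinarith

/-- partial fractions -/
lemma em_eq_div {p q : ℝ} (hp0 : 0 < p) (hp1 : p < π) (hq0 : 0 < q) (hq1 : q < π) (hpq : p ≠ q)
    (m : ℕ) : em m p q = (cm m p - cm m q) / (q - p) := by
  have h : q - p ≠ 0 := sub_ne_zero.2 hpq.symm
  unfold em cm
  rw [← Finset.sum_sub_distrib, Finset.sum_div]
  refine Finset.sum_congr rfl fun k _ => ?_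
  have n1 := shift_ne_zero hp0 hp1 k
  have n2 := shift_ne_zero hq0 hq1 k
  field_simp
  ring

/-- increments of `em` -/
lemma em_succ_sub_le {p q : ℝ} (hp0 : 0 ≤ p) (hp1 : p ≤ π) (hq0 : 0 ≤ q) (hq1 : q ≤ π) {m : ℕ}
    (hm : 1 ≤ m) : em (m + 1) p q - em m p q ≤ 1 / (m : ℝ) - 1 / ((m : ℝ) + 1) := by
  have hpi := Real.pi_pos
  have h3 : (3 : ℝ) < π := Real.pi_gt_three
  have hm' : (1 : ℝ) ≤ m := by exact_mod_cast hm
  have hM : (0 : ℝ) < m := by linarith
  rw [em_succ]
  have e2 : 1 / (m : ℝ) - 1 / ((m : ℝ) + 1) = 1 / ((m : ℝ) * ((m : ℝ) + 1)) := by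
    field_simp
    ring
  rw [e2]
  have a1 : (m : ℝ) * 3 ≤ (m : ℝ) * π := by nlinarith
  -- first term
  have t1 : 1 / ((p + ((m : ℝ) + 1) * π) * (q + ((m : ℝ) + 1) * π)) ≤ 1 / (9 * (m : ℝ) ^ 2) := by
    apply one_div_le_one_div_of_le (by positivity)
    have b1 : 3 * (m : ℝ) ≤ p + ((m : ℝ) + 1) * π := by nlinarith
    have b2 : 3 * (m : ℝ) ≤ q + ((m : ℝ) + 1) * π := by nlinarith
    nlinarith [mul_le_mul b1 b2 (by positivity) (by nlinarith)]
  have t2 : 1 / ((p - ((m : ℝ) + 1) * π) * (q - ((m : ℝ) + 1) * π)) ≤ 1 / (9 * (m : ℝ) ^ 2) := by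
    apply one_div_le_one_div_of_le (by positivity)
    have b1 : 3 * (m : ℝ) ≤ ((m : ℝ) + 1) * π - p := by nlinarith
    have b2 : 3 * (m : ℝ) ≤ ((m : ℝ) + 1) * π - q := by nlinarith
    have e : (p - ((m : ℝ) + 1) * π) * (q - ((m : ℝ) + 1) * π) =
        (((m : ℝ) + 1) * π - p) * (((m : ℝ) + 1) * π - q) := by ring
    rw [e]
    nlinarith [mul_le_mul b1 b2 (by positivity) (by nlinarith)]
  have t3 : 1 / (9 * (m : ℝ) ^ 2) + 1 / (9 * (m : ℝ) ^ 2) ≤ 1 / ((m : ℝ) * ((m : ℝ) + 1)) := by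
    have e : 1 / (9 * (m : ℝ) ^ 2) + 1 / (9 * (m : ℝ) ^ 2) = 2 / (9 * (m : ℝ) ^ 2) := by ring
    rw [e, div_le_div_iff₀ (by positivity) (by positivity)]
    nlinarith
  linarith

lemma em_add_sub_le {p q : ℝ} (hp0 : 0 ≤ p) (hp1 : p ≤ π) (hq0 : 0 ≤ q) (hq1 : q ≤ π) {m : ℕ}
    (hm : 1 ≤ m) (n : ℕ) : em (m + n) p q - em m p q ≤ 1 / (m : ℝ) - 1 / ((m + n : ℕ) : ℝ) := by
  induction n with
  | zero => simp
  | succ n ih =>
    have h3 := em_succ_sub_le hp0 hp1 hq0 hq1 (m := m + n) (by omega)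
    have e : ((m + (n + 1) : ℕ) : ℝ) = ((m + n : ℕ) : ℝ) + 1 := by
      push_cast
      ring
    rw [e]
    have e2 : m + (n + 1) = m + n + 1 := rfl
    rw [e2]
    linarith

/-- the limit of `em` from below, at distinct points -/
lemma div_cot_le_em {p q : ℝ} (hp0 : 0 < p) (hp1 : p < π) (hq0 : 0 < q) (hq1 : q < π) (hpq : p ≠ q)
    {m : ℕ} (hm : 1 ≤ m) : (Real.cot p - Real.cot q) / (q - p) ≤ em m p q + 1 / (m : ℝ) := by
  have hM : (0 : ℝ) < m := by exact_mod_cast hm
  have h1 : Tendsto (fun n : ℕ => (cm (n + m) p - cm (n + m) q) / (q - p)) atTop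
      (𝓝 ((Real.cot p - Real.cot q) / (q - p))) :=
    (((tendsto_cm hp0 hp1).comp (tendsto_add_atTop_nat m)).sub
      ((tendsto_cm hq0 hq1).comp (tendsto_add_atTop_nat m))).div_const _
  refine le_of_tendsto h1 (Eventually.of_forall fun n => ?_)
  have h2 := em_add_sub_le hp0.le hp1.le hq0.le hq1.le hm n
  have h3 := em_eq_div hp0 hp1 hq0 hq1 hpq (m + n)
  have h4 : 0 ≤ 1 / ((m + n : ℕ) : ℝ) := by positivity
  rw [Nat.add_comm n m, ← h3]
  linarith

/-! ### the sign -/

lemma mul_cos_le_sin {d : ℝ} (h0 : 0 ≤ d) (h1 : d < π) : d * Real.cos d ≤ Real.sin d := by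
  have hpi := Real.pi_pos
  rcases h0.eq_or_lt with rfl | hd
  · simp
  rcases lt_or_ge d (π / 2) with h2 | h2
  · have h3 := Real.lt_tan hd h2
    have hc : 0 < Real.cos d := Real.cos_pos_of_mem_Ioo ⟨by linarith, h2⟩
    rw [Real.tan_eq_sin_div_cos, lt_div_iff₀ hc] at h3
    exact h3.le
  · have hc : Real.cos d ≤ 0 := Real.cos_nonpos_of_pi_div_two_le_of_le h2 (by linarith)
    have hs : 0 ≤ Real.sin d := Real.sin_nonneg_of_nonneg_of_le_pi h0 h1.le
    nlinarith

/-- The limit inequality. -/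
lemma limit_le_zero {p q : ℝ} (hp0 : 0 < p) (hp1 : p < π) (hq0 : 0 < q) (hq1 : q < π)
    (hpq : p ≠ q) :
    1 + Real.cot p * Real.cot q - (Real.cot p - Real.cot q) / (q - p) ≤ 0 := by
  have sp : 0 < Real.sin p := Real.sin_pos_of_pos_of_lt_pi hp0 hp1
  have sq : 0 < Real.sin q := Real.sin_pos_of_pos_of_lt_pi hq0 hq1
  have hd : q - p ≠ 0 := sub_ne_zero.2 hpq.symm
  rw [Real.cot_eq_cos_div_sin, Real.cot_eq_cos_div_sin]
  have key : (q - p) * Real.cos (q - p) * (q - p) ≤ Real.sin (q - p) * (q - p) := by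
    rcases lt_or_gt_of_ne hd with h | h
    · have h1 := mul_cos_le_sin (d := p - q) (by linarith) (by linarith)
      have e1 : Real.cos (q - p) = Real.cos (p - q) := by
        rw [← Real.cos_neg]
        ring_nf
      have e2 : Real.sin (q - p) = -Real.sin (p - q) := by
        rw [← Real.sin_neg]
        ring_nf
      rw [e1, e2]
      nlinarith
    · have h1 := mul_cos_le_sin (d := q - p) h.le (by linarith)
      nlinarith
  have e : 1 + Real.cos p / Real.sin p * (Real.cos q / Real.sin q) -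
      (Real.cos p / Real.sin p - Real.cos q / Real.sin q) / (q - p) =
      ((q - p) * Real.cos (q - p) - Real.sin (q - p)) / ((q - p) * (Real.sin p * Real.sin q)) := by
    rw [Real.cos_sub, Real.sin_sub]
    have := Real.sin_sq_add_cos_sq p
    have := Real.sin_sq_add_cos_sq q
    field_simp
    ring
  rw [e]
  rcases lt_or_gt_of_ne hd with h | h
  · have hpos : (q - p) * (Real.sin p * Real.sin q) < 0 :=
      mul_neg_of_neg_of_pos h (mul_pos sp sq)
    apply div_nonpos_of_nonneg_of_nonpos _ hpos.le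
    nlinarith
  · have hpos : 0 < (q - p) * (Real.sin p * Real.sin q) := mul_pos h (mul_pos sp sq)
    apply div_nonpos_of_nonpos_of_nonneg _ hpos.le
    have h1 := mul_cos_le_sin (d := q - p) h.le (by linarith)
    linarith

/-! ### uniform statements -/

lemma sin_ge_of_mem {ε u : ℝ} (h0 : 0 ≤ ε) (hε : ε ≤ π / 2) (h1 : ε ≤ u) (h2 : u ≤ π - ε) :
    Real.sin ε ≤ Real.sin u := by
  rcases le_total u (π / 2) with h | h
  · exact Real.sin_le_sin_of_le_of_le_pi_div_two (by linarith) h h1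
  · have e : Real.sin u = Real.sin (π - u) := (Real.sin_pi_sub u).symm
    rw [e]
    exact Real.sin_le_sin_of_le_of_le_pi_div_two (by linarith) (by linarith) (by linarith)

lemma abs_cot_le {ε u : ℝ} (h0 : 0 < ε) (hε : ε ≤ π / 2) (h1 : ε ≤ u) (h2 : u ≤ π - ε) :
    |Real.cot u| ≤ 1 / Real.sin ε := by
  have hs : 0 < Real.sin ε := Real.sin_pos_of_pos_of_lt_pi h0 (by linarith [Real.pi_pos])
  have hs2 := sin_ge_of_mem h0.le hε h1 h2
  rw [Real.cot_eq_cos_div_sin, abs_div, abs_of_pos (lt_of_lt_of_le hs hs2)]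
  apply div_le_div₀ zero_le_one (Real.abs_cos_le_one u) hs hs2

/-- The partial sums are bounded. -/
lemma abs_cm_le {ε u : ℝ} (h0 : 0 < ε) (hε : ε ≤ π / 2) (h1 : ε ≤ u) (h2 : u ≤ π - ε) (m : ℕ) :
    |cm m u| ≤ 4 / ε := by
  have hpi := Real.pi_pos
  have hpi4 : π ≤ 4 := Real.pi_le_four
  have hu : 0 < u := by linarith
  rcases Nat.eq_zero_or_pos m with rfl | hm
  · rw [cm_zero, abs_of_pos (by positivity)]
    have : 1 / u ≤ 1 / ε := one_div_le_one_div_of_le h0 h1
    have : 1 / ε ≤ 4 / ε := by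
      apply div_le_div_of_nonneg_right (by norm_num) h0.le
    linarith
  · have h3 := abs_cot_sub_cm_le hu (by linarith) hm
    have h4 := abs_cot_le h0 hε h1 h2
    have hm1 : (1 : ℝ) ≤ m := by exact_mod_cast hm
    have h5 : 1 / (m : ℝ) ≤ 1 := by
      rw [div_le_one (by linarith)]
      exact hm1
    have h6 : 2 / π * ε ≤ Real.sin ε := Real.mul_le_sin h0.le hε
    have h7 : 1 / Real.sin ε ≤ π / 2 / ε := by
      rw [div_le_div_iff₀ (lt_of_lt_of_le (by positivity) h6) h0]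
      have : π / 2 * (2 / π * ε) = ε := by field_simp
      nlinarith
    have h8 : 1 ≤ π / 2 / ε := by
      rw [le_div_iff₀ h0]
      linarith
    have h9 : |cm m u| ≤ |Real.cot u| + |Real.cot u - cm m u| := by
      have : cm m u = Real.cot u - (Real.cot u - cm m u) := by ring
      calc |cm m u| = |Real.cot u - (Real.cot u - cm m u)| := by rw [← this]
        _ ≤ _ := abs_sub _ _
    have h10 : π / 2 / ε + π / 2 / ε ≤ 4 / ε := by
      rw [← add_div]
      apply div_le_div_of_nonneg_right (by linarith) h0.le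
    linarith

/-- The bound at distinct points. -/
lemma D_le_of_ne {ε p q : ℝ} (h0 : 0 < ε) (hε : ε ≤ π / 2) (hp1 : ε ≤ p) (hp2 : p ≤ π - ε)
    (hq1 : ε ≤ q) (hq2 : q ≤ π - ε) (hpq : p ≠ q) {m : ℕ} (hm : 1 ≤ m) :
    1 + cm m p * cm m q - em m p q ≤ (2 * (1 / Real.sin ε) + 2) / (m : ℝ) := by
  have hM : (0 : ℝ) < m := by exact_mod_cast hm
  have hm1 : (1 : ℝ) ≤ m := by exact_mod_cast hm
  have hp0 : 0 < p := by linarith
  have hq0 : 0 < q := by linarith
  have hp3 : p < π := by linarith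
  have hq3 : q < π := by linarith
  have h1 := limit_le_zero hp0 hp3 hq0 hq3 hpq
  have h2 := div_cot_le_em hp0 hp3 hq0 hq3 hpq hm
  have ap := abs_cot_sub_cm_le hp0 hp3 hm
  have aq := abs_cot_sub_cm_le hq0 hq3 hm
  have kp := abs_cot_le h0 hε hp1 hp2
  have kq := abs_cot_le h0 hε hq1 hq2
  set K := 1 / Real.sin ε with hK
  set e := 1 / (m : ℝ) with he
  have he0 : 0 < e := by positivity
  have he1 : e ≤ 1 := by
    rw [he, div_le_one hM]
    exact hm1
  set rp := cm m p - Real.cot p with hrp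
  set rq := cm m q - Real.cot q with hrq
  have arp : |rp| ≤ e := by rw [hrp, abs_sub_comm]; exact ap
  have arq : |rq| ≤ e := by rw [hrq, abs_sub_comm]; exact aq
  have e1 : cm m p * cm m q = Real.cot p * Real.cot q + Real.cot p * rq + Real.cot q * rp + rp * rq := by
    rw [hrp, hrq]
    ring
  have b1 : Real.cot p * rq ≤ K * e := by
    calc Real.cot p * rq ≤ |Real.cot p * rq| := le_abs_self _
      _ = |Real.cot p| * |rq| := abs_mul _ _
      _ ≤ K * e := mul_le_mul kp arq (abs_nonneg _) (le_trans (abs_nonneg _) kp)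
  have b2 : Real.cot q * rp ≤ K * e := by
    calc Real.cot q * rp ≤ |Real.cot q * rp| := le_abs_self _
      _ = |Real.cot q| * |rp| := abs_mul _ _
      _ ≤ K * e := mul_le_mul kq arp (abs_nonneg _) (le_trans (abs_nonneg _) kq)
  have b3 : rp * rq ≤ e := by
    calc rp * rq ≤ |rp * rq| := le_abs_self _
      _ = |rp| * |rq| := abs_mul _ _
      _ ≤ e * 1 := mul_le_mul arp (arq.trans he1) (abs_nonneg _) he0.le
      _ = e := mul_one _
  have e2 : (2 * K + 2) / (m : ℝ) = 2 * K * e + 2 * e := by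
    rw [he]
    ring
  rw [e2, e1]
  linarith

lemma continuousAt_cm {p : ℝ} (hp0 : 0 < p) (hp1 : p < π) (m : ℕ) : ContinuousAt (cm m) p := by
  unfold cm
  refine tendsto_finsetSum _ fun k _ => ?_
  exact (continuousAt_const.div (continuousAt_id.add continuousAt_const)
    (shift_ne_zero hp0 hp1 k))

lemma continuousAt_em {p q : ℝ} (hp0 : 0 < p) (hp1 : p < π) (hq0 : 0 < q) (hq1 : q < π) (m : ℕ) :
    ContinuousAt (em m p) q := by
  have h : em m p = fun q => ∑ k ∈ shifts m, 1 / ((p + k * π) * (q + k * π)) := rfl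
  rw [h]
  refine tendsto_finsetSum _ fun k _ => ?_
  exact (continuousAt_const.div (continuousAt_const.mul (continuousAt_id.add continuousAt_const))
    (mul_ne_zero (shift_ne_zero hp0 hp1 k) (shift_ne_zero hq0 hq1 k)))

/-- **The uniform limit inequality.** -/
theorem cot_sum_bound {ε δ : ℝ} (hε : 0 < ε) (hδ : 0 < δ) :
    ∃ M : ℕ, ∀ m, M ≤ m → ∀ p q, ε ≤ p → p ≤ π - ε → ε ≤ q → q ≤ π - ε →
      1 + cm m p * cm m q - em m p q ≤ δ := by
  have hpi := Real.pi_pos
  by_cases hε2 : ε ≤ π / 2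
  · set ε' := ε / 2 with hε'
    have h0' : 0 < ε' := by positivity
    have h1' : ε' ≤ π / 2 := by linarith
    set C := 2 * (1 / Real.sin ε') + 2 with hC
    have hs : 0 < Real.sin ε' := Real.sin_pos_of_pos_of_lt_pi h0' (by linarith)
    have hC0 : 0 < C := by positivity
    obtain ⟨M, hM⟩ := exists_nat_ge (C / δ)
    refine ⟨M + 1, fun m hm p q hp1 hp2 hq1 hq2 => ?_⟩
    have hm1 : 1 ≤ m := by omega
    have hmR : (0 : ℝ) < m := by exact_mod_cast hm1
    have hmM : (M : ℝ) ≤ m := by exact_mod_cast (by omega : M ≤ m)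
    have hb : C / (m : ℝ) ≤ δ := by
      rw [div_le_iff₀ hmR]
      have : C / δ ≤ m := hM.trans hmM
      rwa [div_le_iff₀ hδ, mul_comm] at this
    have hbound : ∀ q', ε' ≤ q' → q' ≤ π - ε' → q' ≠ p →
        1 + cm m p * cm m q' - em m p q' ≤ δ := by
      intro q' h1 h2 h3
      exact (D_le_of_ne h0' h1' (by linarith) (by linarith) h1 h2 h3.symm hm1).trans hb
    rcases eq_or_ne p q with rfl | hne
    · -- continuity in the second argument
      have hp0 : 0 < p := by linarith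
      have hp3 : p < π := by linarith
      have hc : ContinuousAt (fun q' => 1 + cm m p * cm m q' - em m p q') p :=
        (continuousAt_const.add (continuousAt_const.mul (continuousAt_cm hp0 hp3 m))).sub
          (continuousAt_em hp0 hp3 hp0 hp3 m)
      have ht := hc.tendsto.mono_left (nhdsWithin_le_nhds (s := {p}ᶜ))
      refine le_of_tendsto ht ?_
      have hI : Set.Ioo ε' (π - ε') ∈ 𝓝[{p}ᶜ] p :=
        mem_nhdsWithin_of_mem_nhds (Ioo_mem_nhds (by linarith) (by linarith))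
      filter_upwards [self_mem_nhdsWithin, hI] with q' h1 h2
      exact hbound q' h2.1.le h2.2.le h1
    · exact hbound q (by linarith) (by linarith) hne.symm
  · refine ⟨0, fun m _ p q hp1 hp2 _ _ => ?_⟩
    exfalso
    push Not at hε2
    linarith

end Vale.Agent.Lib.P371.Sharp
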