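import Vale.Agent.Lib.P371.Sharp.Defs
import Vale.Agent.Lib.P371.Sharp.CotSum

open Real

namespace Vale.Agent.Lib.P371.Sharp

lemma phi_eq_cm (m : ℕ) (x : ℝ) : phi m x = cm m x := rfl

lemma phi2_eq_em (m : ℕ) (p q : ℝ) : phi2 m p q = em m p q := rfl

/-- `|cot| ≤ 1 / η` on `[η, π - η]`. -/
lemma abs_cot_le_inv {η p : ℝ} (hη : 0 < η) (h1 : η ≤ p) (h2 : p ≤ π - η) :
    |Real.cot p| ≤ 1 / η := by
  have hpi := Real.pi_pos
  have aux : ∀ u : ℝ, 0 < u → u < π / 2 → |Real.cot u| ≤ 1 / u := by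
    intro u hu hu2
    have hs : 0 < Real.sin u := Real.sin_pos_of_pos_of_lt_pi hu (by linarith)
    have hc : 0 < Real.cos u := Real.cos_pos_of_mem_Ioo ⟨by linarith, hu2⟩
    have ht := Real.lt_tan hu hu2
    rw [Real.tan_eq_sin_div_cos, lt_div_iff₀ hc] at ht
    rw [Real.cot_eq_cos_div_sin, abs_of_pos (div_pos hc hs), div_le_div_iff₀ hs hu]
    nlinarith
  rcases lt_trichotomy p (π / 2) with h | h | h
  · exact (aux p (by linarith) h).trans (one_div_le_one_div_of_le hη h1)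
  · have : Real.cot p = 0 := by
      rw [h, Real.cot_eq_cos_div_sin, Real.cos_pi_div_two]
      simp
    rw [this, abs_zero]
    positivity
  · have e : Real.cot p = -Real.cot (π - p) := by
      rw [Real.cot_eq_cos_div_sin, Real.cot_eq_cos_div_sin, Real.cos_pi_sub, Real.sin_pi_sub]
      ring
    rw [e, abs_neg]
    exact (aux (π - p) (by linarith) (by linarith)).trans
      (one_div_le_one_div_of_le hη (by linarith))

/-- JOB C5. The scalar lemma. -/
theorem cot_lemma {η ε : ℝ} (hη : 0 < η) (hε : 0 < ε) :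
    ∃ m : ℕ, ∀ p q : ℝ, p ∈ Set.Icc η (π - η) → q ∈ Set.Icc η (π - η) →
      1 - ε ≤ phi2 m p q - phi m p * phi m q ∧ |phi m p| ≤ 1 / η + ε := by
  obtain ⟨M, hM⟩ := cot_sum_bound hη hε
  obtain ⟨L, hL⟩ := exists_nat_ge (1 / ε)
  refine ⟨max M (L + 1), fun p q hp hq => ?_⟩
  set m := max M (L + 1) with hm
  have hm1 : M ≤ m := le_max_left _ _
  have hm2 : L + 1 ≤ m := le_max_right _ _
  have h1 := hM m hm1 p q hp.1 hp.2 hq.1 hq.2
  constructor
  · rw [phi_eq_cm, phi_eq_cm, phi2_eq_em]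
    linarith
  · rw [phi_eq_cm]
    have hpi := Real.pi_pos
    have hp0 : 0 < p := by linarith [hp.1]
    have hp3 : p < π := by linarith [hp.2]
    have hmpos : 1 ≤ m := by omega
    have h2 := abs_cot_sub_cm_le hp0 hp3 hmpos
    have h3 := abs_cot_le_inv hη hp.1 hp.2
    have hmR : (L : ℝ) + 1 ≤ m := by exact_mod_cast hm2
    have hLpos : (0 : ℝ) < m := by exact_mod_cast hmpos
    have h4 : 1 / (m : ℝ) ≤ ε := by
      rw [div_le_iff₀ hLpos]
      have : 1 / ε ≤ m := by linarith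
      rwa [div_le_iff₀ hε, mul_comm] at this
    have h5 : |cm m p| ≤ |Real.cot p| + |Real.cot p - cm m p| := by
      have : cm m p = Real.cot p - (Real.cot p - cm m p) := by ring
      calc |cm m p| = |Real.cot p - (Real.cot p - cm m p)| := by rw [← this]
        _ ≤ _ := abs_sub _ _
    linarith

end Vale.Agent.Lib.P371.Sharp
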