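import Vale.Agent.Lib.P371.Sharp.Eigen
import Vale.Agent.Lib.P371.Sharp.Cot

open Real

namespace Vale.Agent.Lib.P371.Sharp

variable {ι : Type*} [Fintype ι] [DecidableEq ι]

omit [DecidableEq ι] in
/-- Rayleigh bounds for a non-normalized vector. -/
private lemma band_rayleigh {M : ι → ι → ℝ} {η : ℝ} (h : Band M η) (v : ι → ℝ) :
    η * ∑ i, v i ^ 2 ≤ ∑ a, ∑ b, v a * M a b * v b ∧
      ∑ a, ∑ b, v a * M a b * v b ≤ (π - η) * ∑ i, v i ^ 2 := by
  classical
  set s := ∑ i, v i ^ 2 with hs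
  have hs0 : 0 ≤ s := Finset.sum_nonneg fun i _ => sq_nonneg _
  rcases hs0.eq_or_lt with hs1 | hs1
  · have hv : ∀ i, v i = 0 := by
      intro i
      have := (Finset.sum_eq_zero_iff_of_nonneg (fun i _ => sq_nonneg (v i))).1 hs1.symm i
        (Finset.mem_univ i)
      exact pow_eq_zero_iff (two_ne_zero) |>.1 this
    simp [hv, ← hs1]
  · set r := Real.sqrt s with hr
    have hr0 : 0 < r := Real.sqrt_pos.2 hs1
    have hr2 : r ^ 2 = s := Real.sq_sqrt hs0
    set e : ι → ℝ := fun i => v i / r with he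
    have he1 : ∑ i, e i ^ 2 = 1 := by
      simp only [he, div_pow]
      rw [← Finset.sum_div, ← hs, hr2, div_self hs1.ne']
    have hq : ∑ a, ∑ b, v a * M a b * v b = s * ∑ a, ∑ b, e a * M a b * e b := by
      rw [Finset.mul_sum]
      apply Finset.sum_congr rfl
      intro a _
      rw [Finset.mul_sum]
      apply Finset.sum_congr rfl
      intro b _
      simp only [he]
      rw [← hr2]
      field_simp
    rw [hq]
    constructor
    · have := h.lower e he1
      nlinarith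
    · have := h.upper e he1
      nlinarith

omit [DecidableEq ι] in
/-- The quadratic form of `Jop`. -/
private lemma Jop_quad {M : ι → ι → ℝ} {η : ℝ} (h : Band M η) (t : ℝ) (X : ι → ι → ℝ) :
    (η + t) * ∑ a, ∑ b, X a b ^ 2 ≤ ∑ a, ∑ b, X a b * Jop M t X a b ∧
      ∑ a, ∑ b, X a b * Jop M t X a b ≤ (π - η + t) * ∑ a, ∑ b, X a b ^ 2 := by
  classical
  set N := ∑ a, ∑ b, X a b ^ 2 with hN
  set A := ∑ b, ∑ a, ∑ c, X a b * M a c * X c b with hA
  set B := ∑ a, ∑ b, ∑ c, X a b * M b c * X a c with hB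
  have hexp : ∑ a, ∑ b, X a b * Jop M t X a b = (1 / 2) * (A + B) + t * N := by
    have h1 : ∑ a, ∑ b, X a b * Jop M t X a b
        = ∑ a, ∑ b, ((1 / 2) * ((∑ c, X a b * M a c * X c b) + (∑ c, X a b * M b c * X a c))
            + t * X a b ^ 2) := by
      apply Finset.sum_congr rfl; intro a _
      apply Finset.sum_congr rfl; intro b _
      rw [Jop_apply, Finset.sum_add_distrib]
      have e1 : ∑ c, M a c * X c b = ∑ c, M a c * X c b := rfl
      have e2 : ∑ c, X a b * M a c * X c b = X a b * ∑ c, M a c * X c b := by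
        rw [Finset.mul_sum]; exact Finset.sum_congr rfl fun c _ => by ring
      have e3 : ∑ c, X a b * M b c * X a c = X a b * ∑ c, X a c * M c b := by
        rw [Finset.mul_sum]
        refine Finset.sum_congr rfl fun c _ => ?_
        rw [h.symm b c]; ring
      rw [e2, e3]; ring
    rw [h1]
    simp only [Finset.sum_add_distrib, ← Finset.mul_sum]
    rw [hN, hA, hB, Finset.sum_comm (s := Finset.univ) (t := Finset.univ)]
  have hcol : η * N ≤ A ∧ A ≤ (π - η) * N := by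
    have h2 : ∀ b, η * (∑ a, X a b ^ 2) ≤ ∑ a, ∑ c, X a b * M a c * X c b ∧
        ∑ a, ∑ c, X a b * M a c * X c b ≤ (π - η) * ∑ a, X a b ^ 2 :=
      fun b => band_rayleigh h (fun a => X a b)
    have hN' : N = ∑ b, ∑ a, X a b ^ 2 := by
      rw [hN, Finset.sum_comm]
    rw [hN', Finset.mul_sum, Finset.mul_sum]
    exact ⟨Finset.sum_le_sum fun b _ => (h2 b).1, Finset.sum_le_sum fun b _ => (h2 b).2⟩
  have hrow : η * N ≤ B ∧ B ≤ (π - η) * N := by
    have h2 : ∀ a, η * (∑ b, X a b ^ 2) ≤ ∑ b, ∑ c, X a b * M b c * X a c ∧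
        ∑ b, ∑ c, X a b * M b c * X a c ≤ (π - η) * ∑ b, X a b ^ 2 :=
      fun a => band_rayleigh h (fun b => X a b)
    rw [hN, Finset.mul_sum, Finset.mul_sum]
    exact ⟨Finset.sum_le_sum fun a _ => (h2 a).1, Finset.sum_le_sum fun a _ => (h2 a).2⟩
  rw [hexp]
  constructor <;> nlinarith [hcol.1, hcol.2, hrow.1, hrow.2]

omit [DecidableEq ι] in
/-- Injectivity of `Jop M (k π)`. -/
private lemma Jop_injective {M : ι → ι → ℝ} {η : ℝ} (hη : 0 < η) (h : Band M η) (k : ℤ) :
    Function.Injective (Jop M (k * π)) := by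
  classical
  have hker : ∀ X, Jop M (k * π) X = 0 → X = 0 := by
    intro X hX
    have hq := Jop_quad h (k * π) X
    have hz : ∑ a, ∑ b, X a b * Jop M (k * π) X a b = 0 := by
      simp [hX]
    rw [hz] at hq
    set N := ∑ a, ∑ b, X a b ^ 2 with hN
    have hN0 : 0 ≤ N := Finset.sum_nonneg fun a _ => Finset.sum_nonneg fun b _ => sq_nonneg _
    have hπ : 0 < π := Real.pi_pos
    have hNz : N = 0 := by
      rcases le_or_gt 0 k with hk | hk
      · have hk' : (0 : ℝ) ≤ k * π := by positivity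
        have : η * N ≤ 0 := by nlinarith [hq.1]
        nlinarith [mul_nonneg hη.le hN0, mul_pos hη hη, (le_antisymm this (mul_nonneg hη.le hN0)), (mul_eq_zero.1 (le_antisymm this (mul_nonneg hη.le hN0))).resolve_left hη.ne']
      · have hk1 : (k : ℝ) ≤ -1 := by
          have : k ≤ -1 := by omega
          exact_mod_cast this
        have hk' : (k : ℝ) * π ≤ -π := by nlinarith
        have : 0 ≤ (π - η + k * π) * N := hq.2
        have h3 : (π - η + k * π) * N ≤ (-η) * N :=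
          mul_le_mul_of_nonneg_right (by linarith) hN0
        have : η * N ≤ 0 := by nlinarith
        nlinarith [mul_nonneg hη.le hN0, mul_pos hη hη, (le_antisymm this (mul_nonneg hη.le hN0)), (mul_eq_zero.1 (le_antisymm this (mul_nonneg hη.le hN0))).resolve_left hη.ne']
    funext a b
    have h1 := (Finset.sum_eq_zero_iff_of_nonneg
      (fun a _ => Finset.sum_nonneg fun b _ => sq_nonneg (X a b))).1 hNz a (Finset.mem_univ a)
    have h2 := (Finset.sum_eq_zero_iff_of_nonneg (fun b _ => sq_nonneg (X a b))).1 h1 b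
      (Finset.mem_univ b)
    simpa using h2
  intro X Y hXY
  have : Jop M (k * π) (X - Y) = 0 := by
    rw [map_sub, hXY, sub_self]
  exact sub_eq_zero.1 (hker _ this)

omit [DecidableEq ι] in
/-- JOB A1. Invertibility. -/
theorem isUnit_Jop {M : ι → ι → ℝ} {η : ℝ} (hη : 0 < η) (h : Band M η) (k : ℤ) :
    IsUnit (Jop M (k * π)) := by
  classical
  have hinj := Jop_injective hη h k
  have hsurj : Function.Surjective (Jop M (k * π)) :=
    (LinearMap.injective_iff_surjective (f := (Jop M (k * π) : (ι → ι → ℝ) →ₗ[ℝ] (ι → ι → ℝ)))).1 hinj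
  exact ContinuousLinearMap.isUnit_iff_bijective.2 ⟨hinj, hsurj⟩

omit [DecidableEq ι] in
/-- JOB A2. The solution solves the equation and is symmetric. -/
theorem Ysol_spec {M : ι → ι → ℝ} {t : ℝ} (hu : IsUnit (Jop M t)) (hs : ∀ a b, M a b = M b a)
    (ψ : ι → ℝ) :
    Jop M t (Ysol M t ψ) = tens ψ ∧ ∀ a b, Ysol M t ψ a b = Ysol M t ψ b a := by
  classical
  have hright : Jop M t * Ring.inverse (Jop M t) = 1 := Ring.mul_inverse_cancel _ hu
  have hleft : Ring.inverse (Jop M t) * Jop M t = 1 := Ring.inverse_mul_cancel _ hu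
  have hsol : Jop M t (Ysol M t ψ) = tens ψ := by
    have := congrArg (fun L : (ι → ι → ℝ) →L[ℝ] (ι → ι → ℝ) => L (tens ψ)) hright
    simpa [Ysol] using this
  refine ⟨hsol, ?_⟩
  set Y := Ysol M t ψ with hY
  have hT : Jop M t (fun a b => Y b a) = tens ψ := by
    funext a b
    have h1 : Jop M t Y b a = tens ψ b a := by rw [hsol]
    have h2 : Jop M t (fun a b => Y b a) a b = Jop M t Y b a := by
      rw [Jop_apply, Jop_apply, ← sub_eq_zero]
      have : ∑ c, (M a c * Y b c + Y c a * M c b) = ∑ c, (M b c * Y c a + Y b c * M c a) := by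
        refine Finset.sum_congr rfl fun c _ => ?_
        rw [hs a c, hs c b]; ring
      rw [this]; ring
    rw [h2, h1]
    simp only [tens]; ring
  have hinj : Function.Injective (Jop M t) := by
    intro X X' hXX
    have := congrArg (fun V => (Ring.inverse (Jop M t) : (ι → ι → ℝ) →L[ℝ] (ι → ι → ℝ)) V) hXX
    have e : ∀ Z, Ring.inverse (Jop M t) (Jop M t Z) = Z := fun Z => by
      have := congrArg (fun L : (ι → ι → ℝ) →L[ℝ] (ι → ι → ℝ) => L Z) hleft
      simpa using this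
    rwa [e, e] at this
  have hfin : (fun a b => Y b a) = Y := hinj (hT.trans hsol.symm)
  intro a b
  exact (congrFun (congrFun hfin a) b).symm

/-- JOB A3. Diagonal computation (pure real numbers). `z k α = a α * ∑ β, a β ^ 2 / (m α β + k π)`,
`m α β = (lam α + lam β) / 2`. Expanding squares:
`∑ k z k α ^ 2 - (∑ k z k α) ^ 2 = a α ^ 2 ∑ β γ, a β ^ 2 a γ ^ 2 (phi2 (m α β) (m α γ) - phi (m α β) phi (m α γ))`,
then the hypothesis termwise and `(∑ a²)³ = ∑ α β γ a α² a β² a γ²`. Second part: `∑ k ∑ α a α z k α`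
`= ∑ α β, a α² a β² phi (m α β)`. -/
theorem diag_main {lam a : ι → ℝ} {η ε : ℝ} {m : ℕ} (hlam : ∀ β, lam β ∈ Set.Icc η (π - η))
    (hm : ∀ p q : ℝ, p ∈ Set.Icc η (π - η) → q ∈ Set.Icc η (π - η) →
      1 - ε ≤ phi2 m p q - phi m p * phi m q ∧ |phi m p| ≤ 1 / η + ε) (hε : -(1 / η) ≤ ε) :
    let z : ℤ → ι → ℝ := fun k α => a α * ∑ β, a β ^ 2 / ((lam α + lam β) / 2 + k * π)
    (1 - ε) * (∑ i, a i ^ 2) ^ 3 ≤
        ∑ k ∈ Finset.Icc (-(m : ℤ)) m, ∑ α, z k α ^ 2 -
          ∑ α, (∑ k ∈ Finset.Icc (-(m : ℤ)) m, z k α) ^ 2 ∧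
      |∑ k ∈ Finset.Icc (-(m : ℤ)) m, ∑ α, a α * z k α| ≤ (1 / η + ε) * (∑ i, a i ^ 2) ^ 2 := by
  intro z
  have hband : ∀ α β, (lam α + lam β) / 2 ∈ Set.Icc η (π - η) := by
    intro α β
    have h1 := hlam α
    have h2 := hlam β
    exact ⟨by linarith [h1.1, h2.1], by linarith [h1.2, h2.2]⟩
  have hsum1 : ∀ α, ∑ k ∈ Finset.Icc (-(m : ℤ)) m, z k α =
      a α * ∑ β, a β ^ 2 * phi m ((lam α + lam β) / 2) := by
    intro α
    simp only [z, phi]
    rw [← Finset.mul_sum, Finset.sum_comm]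
    congr 1
    refine Finset.sum_congr rfl fun β _ => ?_
    rw [Finset.mul_sum]
    refine Finset.sum_congr rfl fun k _ => ?_
    rw [mul_one_div]
  have hsq : ∀ k α, z k α ^ 2 = a α ^ 2 * ∑ β, ∑ γ, a β ^ 2 * a γ ^ 2 *
      (1 / (((lam α + lam β) / 2 + k * π) * ((lam α + lam γ) / 2 + k * π))) := by
    intro k α
    simp only [z]
    rw [mul_pow, sq (∑ β, _), Finset.sum_mul_sum]
    congr 1
    refine Finset.sum_congr rfl fun β _ => Finset.sum_congr rfl fun γ _ => ?_
    rw [div_mul_div_comm, mul_one_div]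
  have hsum2 : ∀ α, ∑ k ∈ Finset.Icc (-(m : ℤ)) m, z k α ^ 2 =
      a α ^ 2 * ∑ β, ∑ γ, a β ^ 2 * a γ ^ 2 *
        phi2 m ((lam α + lam β) / 2) ((lam α + lam γ) / 2) := by
    intro α
    simp only [hsq, phi2]
    rw [← Finset.mul_sum]
    congr 1
    rw [Finset.sum_comm]
    refine Finset.sum_congr rfl fun β _ => ?_
    rw [Finset.sum_comm]
    refine Finset.sum_congr rfl fun γ _ => ?_
    rw [Finset.mul_sum]
  have hb : ∀ i, 0 ≤ a i ^ 2 := fun i => sq_nonneg _
  have hkey : ∀ α, (1 - ε) * (a α ^ 2 * (∑ i, a i ^ 2) ^ 2) ≤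
      ∑ k ∈ Finset.Icc (-(m : ℤ)) m, z k α ^ 2 -
        (∑ k ∈ Finset.Icc (-(m : ℤ)) m, z k α) ^ 2 := by
    intro α
    rw [hsum1, hsum2, mul_pow, sq (∑ β, a β ^ 2 * phi m ((lam α + lam β) / 2)),
      Finset.sum_mul_sum, ← mul_sub, ← Finset.sum_sub_distrib, mul_left_comm]
    refine mul_le_mul_of_nonneg_left ?_ (sq_nonneg _)
    rw [sq (∑ i, a i ^ 2), Finset.sum_mul_sum, Finset.mul_sum]
    refine Finset.sum_le_sum fun β _ => ?_
    rw [← Finset.sum_sub_distrib, Finset.mul_sum]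
    refine Finset.sum_le_sum fun γ _ => ?_
    have h1 := (hm _ _ (hband α β) (hband α γ)).1
    have h2 : 0 ≤ a β ^ 2 * a γ ^ 2 := mul_nonneg (hb _) (hb _)
    have h3 := mul_le_mul_of_nonneg_left h1 h2
    nlinarith [h3]
  constructor
  · have e : ∑ k ∈ Finset.Icc (-(m : ℤ)) m, ∑ α, z k α ^ 2 -
        ∑ α, (∑ k ∈ Finset.Icc (-(m : ℤ)) m, z k α) ^ 2 =
        ∑ α, (∑ k ∈ Finset.Icc (-(m : ℤ)) m, z k α ^ 2 -
          (∑ k ∈ Finset.Icc (-(m : ℤ)) m, z k α) ^ 2) := by
      rw [Finset.sum_sub_distrib, Finset.sum_comm]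
    rw [e]
    have e2 : (1 - ε) * (∑ i, a i ^ 2) ^ 3 =
        ∑ α, (1 - ε) * (a α ^ 2 * (∑ i, a i ^ 2) ^ 2) := by
      rw [← Finset.mul_sum, ← Finset.sum_mul]
      ring
    rw [e2]
    exact Finset.sum_le_sum fun α _ => hkey α
  · have e : ∑ k ∈ Finset.Icc (-(m : ℤ)) m, ∑ α, a α * z k α =
        ∑ α, ∑ β, a α ^ 2 * a β ^ 2 * phi m ((lam α + lam β) / 2) := by
      rw [Finset.sum_comm]
      refine Finset.sum_congr rfl fun α _ => ?_
      rw [← Finset.mul_sum, hsum1, ← mul_assoc, ← sq, Finset.mul_sum]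
      refine Finset.sum_congr rfl fun β _ => ?_
      ring
    rw [e]
    have h0 : 0 ≤ 1 / η + ε := by linarith
    calc |∑ α, ∑ β, a α ^ 2 * a β ^ 2 * phi m ((lam α + lam β) / 2)|
        ≤ ∑ α, ∑ β, a α ^ 2 * a β ^ 2 * (1 / η + ε) := by
          refine (Finset.abs_sum_le_sum_abs _ _).trans (Finset.sum_le_sum fun α _ => ?_)
          refine (Finset.abs_sum_le_sum_abs _ _).trans (Finset.sum_le_sum fun β _ => ?_)
          rw [abs_mul, abs_of_nonneg (mul_nonneg (hb α) (hb β))]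
          exact mul_le_mul_of_nonneg_left (hm _ _ (hband α β) (hband α β)).2
            (mul_nonneg (hb α) (hb β))
      _ = (1 / η + ε) * (∑ i, a i ^ 2) ^ 2 := by
          rw [sq, Finset.sum_mul_sum, Finset.mul_sum]
          refine Finset.sum_congr rfl fun α _ => ?_
          rw [Finset.mul_sum]
          refine Finset.sum_congr rfl fun β _ => ?_
          ring

open Matrix in
/-- JOB A4. Transfer to the eigenbasis. `a α = ∑ i, U i α ψ i`. From `Jop M t Y = ψ ψᵀ`:
`Ŷ α β = a α a β / (m α β + t)` where `Ŷ α β = ∑ i j, U i α Y i j U j β`. So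
`∑ i, U i α * xi Y ψ i = a α ∑ β, a β² / (m α β + t)`, i.e. `z` of A3 is the vector `Uᵀ ξ`.
Hence for `w k := xi (Y k) ψ`, sums of squares agree by orthogonality of `U`. -/
theorem xi_hat {M : ι → ι → ℝ} {η : ℝ} (hη : 0 < η) (E : EigenData M η) (hs : ∀ a b, M a b = M b a)
    (ψ : ι → ℝ) (k : ℤ) (Y : ι → ι → ℝ) (hY : Jop M (k * π) Y = tens ψ) (α : ι) :
    ∑ i, E.U i α * xi Y ψ i =
      (∑ i, E.U i α * ψ i) *
        ∑ β, (∑ i, E.U i β * ψ i) ^ 2 / ((E.lam α + E.lam β) / 2 + k * π) := by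
  classical
  set t : ℝ := k * π with ht
  let Um : Matrix ι ι ℝ := Matrix.of E.U
  let Mm : Matrix ι ι ℝ := Matrix.of M
  let Ym : Matrix ι ι ℝ := Matrix.of Y
  let a : ι → ℝ := Um.transpose *ᵥ ψ
  have ha : ∀ α, a α = ∑ i, E.U i α * ψ i := by
    intro α; simp [a, Um, Matrix.mulVec, dotProduct]
  have hUUT : Um * Um.transpose = 1 := by
    ext a b
    simpa only [Um, Matrix.mul_apply, Matrix.one_apply, Matrix.transpose_apply, Matrix.of_apply]
      using E.orth_row a b
  have hUTU : Um.transpose * Um = 1 := mul_eq_one_comm.mp hUUT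
  have hMU : Mm * Um = Um * Matrix.diagonal E.lam := by
    ext a β
    rw [Matrix.mul_diagonal, Matrix.mul_apply]
    simp only [Mm, Um, Matrix.of_apply]
    rw [E.eig, mul_comm]
  have hMsymm : Mm.transpose = Mm := by
    ext a b
    simp [Mm, hs b a]
  have hUM : Um.transpose * Mm = Matrix.diagonal E.lam * Um.transpose := by
    have := congrArg Matrix.transpose hMU
    rw [Matrix.transpose_mul, Matrix.transpose_mul, hMsymm, Matrix.diagonal_transpose] at this
    exact this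
  have hYm : (1 / 2 : ℝ) • (Mm * Ym + Ym * Mm) + t • Ym = Matrix.vecMulVec ψ ψ := by
    ext a b
    have := congrFun (congrFun hY a) b
    rw [Jop_apply] at this
    simp only [Matrix.add_apply, Matrix.smul_apply, Matrix.mul_apply, smul_eq_mul,
      Matrix.vecMulVec_apply, Mm, Ym, Matrix.of_apply]
    rw [← Finset.sum_add_distrib]
    exact this
  let Yh : Matrix ι ι ℝ := Um.transpose * Ym * Um
  have key : (1 / 2 : ℝ) • (Matrix.diagonal E.lam * Yh + Yh * Matrix.diagonal E.lam) + t • Yh =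
      Matrix.vecMulVec a a := by
    have h1 : Um.transpose * ((1 / 2 : ℝ) • (Mm * Ym + Ym * Mm) + t • Ym) * Um =
        (1 / 2 : ℝ) • (Matrix.diagonal E.lam * Yh + Yh * Matrix.diagonal E.lam) + t • Yh := by
      have e1 : Um.transpose * (Mm * Ym) * Um = Matrix.diagonal E.lam * Yh := by
        calc Um.transpose * (Mm * Ym) * Um = (Um.transpose * Mm) * Ym * Um := by
              simp only [Matrix.mul_assoc]
          _ = Matrix.diagonal E.lam * Yh := by
              rw [hUM]; simp only [Yh, Matrix.mul_assoc]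
      have e2 : Um.transpose * (Ym * Mm) * Um = Yh * Matrix.diagonal E.lam := by
        calc Um.transpose * (Ym * Mm) * Um = Um.transpose * Ym * (Mm * Um) := by
              simp only [Matrix.mul_assoc]
          _ = Yh * Matrix.diagonal E.lam := by
              rw [hMU]; simp only [Yh, Matrix.mul_assoc]
      rw [Matrix.mul_add, Matrix.add_mul, Matrix.mul_smul, Matrix.smul_mul, Matrix.mul_smul,
        Matrix.smul_mul, Matrix.mul_add, Matrix.add_mul, e1, e2]
    rw [← h1, hYm, Matrix.mul_vecMulVec, Matrix.vecMulVec_mul]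
    simp only [a, Matrix.mulVec_transpose]
  have hYh : ∀ β, (((E.lam α + E.lam β) / 2 + t)) * Yh α β = a α * a β := by
    intro β
    have := congrFun (congrFun key α) β
    simp only [Matrix.add_apply, Matrix.smul_apply, Matrix.mul_apply, smul_eq_mul,
      Matrix.vecMulVec_apply, Matrix.diagonal_apply, ite_mul, mul_ite, zero_mul, mul_zero,
      Finset.sum_ite_eq, Finset.sum_ite_eq', Finset.mem_univ, if_true] at this
    rw [← this]
    ring
  have hne : ∀ β, ((E.lam α + E.lam β) / 2 + t) ≠ 0 := by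
    intro β h0
    have h1 := E.lam_mem α
    have h2 := E.lam_mem β
    have hp : 0 < (E.lam α + E.lam β) / 2 := by
      have := h1.1; have := h2.1; linarith
    have hq : (E.lam α + E.lam β) / 2 < π := by
      have := h1.2; have := h2.2; linarith
    have hk : (E.lam α + E.lam β) / 2 = (-(k : ℝ)) * π := by
      rw [ht] at h0; linarith
    have hk1 : 0 < -(k : ℝ) := by
      by_contra hcon
      push Not at hcon
      have := mul_nonpos_of_nonpos_of_nonneg hcon pi_pos.le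
      linarith
    have hk2 : -(k : ℝ) < 1 := by
      by_contra hcon
      push Not at hcon
      have := mul_le_mul_of_nonneg_right hcon pi_pos.le
      linarith
    have hk1' : (0 : ℤ) < -k := by exact_mod_cast hk1
    have hk2' : -k < (1 : ℤ) := by exact_mod_cast hk2
    omega
  have hψ : Um *ᵥ a = ψ := by
    simp only [a]
    rw [Matrix.mulVec_mulVec, hUUT, Matrix.one_mulVec]
  have hmain : ∑ i, E.U i α * xi Y ψ i = (Yh *ᵥ a) α := by
    have h1 : (Yh *ᵥ a) = Um.transpose *ᵥ (Ym *ᵥ ψ) := by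
      simp only [Yh]
      rw [← Matrix.mulVec_mulVec, hψ, ← Matrix.mulVec_mulVec]
    rw [h1]
    simp [Matrix.mulVec, dotProduct, Um, Ym, xi]
  rw [hmain]
  simp only [← ha]
  show ∑ β, Yh α β * a β = _
  rw [Finset.mul_sum]
  refine Finset.sum_congr rfl fun β _ => ?_
  have h1 : Yh α β = a α * a β / ((E.lam α + E.lam β) / 2 + t) := by
    rw [eq_div_iff (hne β), mul_comm]
    exact hYh β
  rw [h1]
  ring

/-- JOB A5. The pointwise inequality. From A3, A4 and orthogonality of `U`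
(`∑ i (v i)² = ∑ α (∑ i U i α v i)²`, `∑ i ψ i v i = ∑ α (Uᵀψ) α (Uᵀv) α`). -/
theorem alg_main {M : ι → ι → ℝ} {η ε : ℝ} {m : ℕ} (hη : 0 < η) (h : Band M η)
    (hm : ∀ p q : ℝ, p ∈ Set.Icc η (π - η) → q ∈ Set.Icc η (π - η) →
      1 - ε ≤ phi2 m p q - phi m p * phi m q ∧ |phi m p| ≤ 1 / η + ε) (hε : 0 < ε)
    (ψ : ι → ℝ) (Y : ℤ → ι → ι → ℝ) (hY : ∀ k : ℤ, Jop M (k * π) (Y k) = tens ψ) :
    (1 - ε) * (∑ i, ψ i ^ 2) ^ 3 ≤
        ∑ k ∈ Finset.Icc (-(m : ℤ)) m, ∑ i, xi (Y k) ψ i ^ 2 -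
          ∑ i, (∑ k ∈ Finset.Icc (-(m : ℤ)) m, xi (Y k) ψ i) ^ 2 ∧
      |∑ k ∈ Finset.Icc (-(m : ℤ)) m, ∑ i, ψ i * xi (Y k) ψ i| ≤ (1 / η + ε) * (∑ i, ψ i ^ 2) ^ 2 := by
  obtain ⟨E⟩ := exists_eigen h
  -- the bilinear Parseval identity
  have hbil : ∀ u v : ι → ℝ,
      ∑ α, (∑ i, E.U i α * u i) * (∑ j, E.U j α * v j) = ∑ i, u i * v i := by
    intro u v
    calc ∑ α, (∑ i, E.U i α * u i) * (∑ j, E.U j α * v j)
        = ∑ α, ∑ i, ∑ j, u i * v j * (E.U i α * E.U j α) := by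
          refine Finset.sum_congr rfl fun α _ => ?_
          rw [Finset.sum_mul_sum]
          refine Finset.sum_congr rfl fun i _ => Finset.sum_congr rfl fun j _ => ?_
          ring
      _ = ∑ i, ∑ j, u i * v j * ∑ α, E.U i α * E.U j α := by
          rw [Finset.sum_comm]
          refine Finset.sum_congr rfl fun i _ => ?_
          rw [Finset.sum_comm]
          refine Finset.sum_congr rfl fun j _ => ?_
          rw [Finset.mul_sum]
      _ = ∑ i, u i * v i := by
          refine Finset.sum_congr rfl fun i _ => ?_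
          simp only [E.orth_row, mul_ite, mul_one, mul_zero, Finset.sum_ite_eq, Finset.mem_univ,
            if_true]
  have hsq : ∀ v : ι → ℝ, ∑ α, (∑ i, E.U i α * v i) ^ 2 = ∑ i, v i ^ 2 := by
    intro v
    have := hbil v v
    simpa only [pow_two] using this
  set a : ι → ℝ := fun α => ∑ i, E.U i α * ψ i with ha
  have hA3 := diag_main (lam := E.lam) (a := a) (η := η) (ε := ε) (m := m) E.lam_mem hm
    (by have : 0 < 1 / η := by positivity
        linarith)
  simp only at hA3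
  have hz : ∀ (k : ℤ) (α : ι), a α * ∑ β, a β ^ 2 / ((E.lam α + E.lam β) / 2 + k * π) =
      ∑ i, E.U i α * xi (Y k) ψ i :=
    fun k α => (xi_hat hη E h.symm ψ k (Y k) (hY k) α).symm
  simp only [hz] at hA3
  have haψ : ∑ i, a i ^ 2 = ∑ i, ψ i ^ 2 := hsq ψ
  rw [haψ] at hA3
  have h1 : ∀ k : ℤ, ∑ α, (∑ i, E.U i α * xi (Y k) ψ i) ^ 2 = ∑ i, xi (Y k) ψ i ^ 2 :=
    fun k => hsq _
  have h2 : ∀ α, ∑ k ∈ Finset.Icc (-(m : ℤ)) m, ∑ i, E.U i α * xi (Y k) ψ i =
      ∑ i, E.U i α * ∑ k ∈ Finset.Icc (-(m : ℤ)) m, xi (Y k) ψ i := by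
    intro α
    rw [Finset.sum_comm]
    refine Finset.sum_congr rfl fun i _ => ?_
    rw [Finset.mul_sum]
  have h3 : ∑ α, (∑ k ∈ Finset.Icc (-(m : ℤ)) m, ∑ i, E.U i α * xi (Y k) ψ i) ^ 2 =
      ∑ i, (∑ k ∈ Finset.Icc (-(m : ℤ)) m, xi (Y k) ψ i) ^ 2 := by
    simp only [h2]
    exact hsq _
  have h4 : ∀ k : ℤ, ∑ α, a α * ∑ i, E.U i α * xi (Y k) ψ i = ∑ i, ψ i * xi (Y k) ψ i :=
    fun k => hbil ψ _
  simp only [h1, h4] at hA3
  rw [h3] at hA3
  exact hA3

end Vale.Agent.Lib.P371.Sharp
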