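import Vale.Agent.Lib.P371.Sharp.Deriv
import Vale.Agent.Lib.P371.CalVec

open Set MeasureTheory Real

namespace Vale.Agent.Lib.P371.Sharp

open Vale.Agent.Lib.P371.Cal

variable {ι : Type*} [Fintype ι] [DecidableEq ι]

/-- `M x = η I + b ∫_{xL}^x Ψ Ψᵀ`. -/
noncomputable def Mfun (Ψ : ℝ → ι → ℝ) (η b xL : ℝ) : ℝ → ι → ι → ℝ := fun x a c =>
  (if a = c then η else 0) + b * ∫ y in xL..x, Ψ y a * Ψ y c

/-- JOB K1. FTC entrywise: derivative of `Mfun` is `b • tens (Ψ x)` (`hasDerivAt_pi`). -/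
theorem hasDerivAt_Mfun {Ψ : ℝ → ι → ℝ} (hΨ : ∀ i, Continuous fun x => Ψ x i) (η b xL x : ℝ) :
    HasDerivAt (Mfun Ψ η b xL) (b • tens (Ψ x)) x := by
  rw [hasDerivAt_pi]
  intro a
  rw [hasDerivAt_pi]
  intro c
  have hc : Continuous fun y => Ψ y a * Ψ y c := (hΨ a).mul (hΨ c)
  have h1 : HasDerivAt (fun u => ∫ y in xL..u, Ψ y a * Ψ y c) (Ψ x a * Ψ x c) x :=
    intervalIntegral.integral_hasDerivAt_right (hc.intervalIntegrable _ _)
      (hc.stronglyMeasurableAtFilter _ _) hc.continuousAt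
  have h2 := (h1.const_mul b).const_add (if a = c then η else 0)
  simpa [Mfun, tens, Pi.smul_apply, smul_eq_mul] using h2

/-- The Rayleigh quotient of `Mfun`. -/
lemma rayleigh_Mfun {Ψ : ℝ → ι → ℝ} (hΨ : ∀ i, Continuous fun x => Ψ x i) (η b xL x : ℝ)
    (e : ι → ℝ) :
    ∑ a, ∑ c, e a * Mfun Ψ η b xL x a c * e c =
      η * (∑ i, e i ^ 2) + b * ∫ y in xL..x, comp e Ψ y ^ 2 := by
  have hint : ∀ a c, IntervalIntegrable (fun y => Ψ y a * Ψ y c) volume xL x := fun a c =>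
    ((hΨ a).mul (hΨ c)).intervalIntegrable _ _
  have hcomp : ∀ y, comp e Ψ y ^ 2 = ∑ a, ∑ c, e a * e c * (Ψ y a * Ψ y c) := by
    intro y
    unfold comp
    rw [sq, Finset.sum_mul_sum]
    apply Finset.sum_congr rfl; intro a _
    apply Finset.sum_congr rfl; intro c _
    ring
  have hI : (∫ y in xL..x, comp e Ψ y ^ 2) =
      ∑ a, ∑ c, e a * e c * ∫ y in xL..x, Ψ y a * Ψ y c := by
    simp_rw [hcomp]
    rw [intervalIntegral.integral_finsetSum]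
    · apply Finset.sum_congr rfl; intro a _
      rw [intervalIntegral.integral_finsetSum]
      · apply Finset.sum_congr rfl; intro c _
        exact intervalIntegral.integral_const_mul _ _
      · intro c _
        exact (hint a c).const_mul _
    · intro a _
      exact (continuous_finsetSum _ fun c _ =>
        continuous_const.mul ((hΨ a).mul (hΨ c))).intervalIntegrable _ _
  rw [hI, Finset.mul_sum, Finset.mul_sum]
  rw [← Finset.sum_add_distrib]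
  apply Finset.sum_congr rfl; intro a _
  rw [Finset.mul_sum]
  have : ∑ c, e a * Mfun Ψ η b xL x a c * e c =
      ∑ c, (e a * (if a = c then η else 0) * e c +
        b * (e a * e c * ∫ y in xL..x, Ψ y a * Ψ y c)) := by
    apply Finset.sum_congr rfl; intro c _
    unfold Mfun
    ring
  rw [this, Finset.sum_add_distrib]
  congr 1
  rw [Finset.sum_eq_single a]
  · simp; ring
  · intro c _ hc
    simp [Ne.symm hc]
  · simp

/-- JOB K2. The band: for `x ∈ [xL, xR]`, and unit `e`,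
`∑ e_a M_ac e_c = η + b ∫_{xL}^x (comp e Ψ)²`, in `[η, η + b G] ⊂ [η, π - η]`. -/
theorem band_Mfun {Ψ : ℝ → ι → ℝ} (hΨ : ∀ i, Continuous fun x => Ψ x i) {xL xR G b η x : ℝ}
    (hG : ∀ e : ι → ℝ, ∑ i, e i ^ 2 = 1 → ∫ x in xL..xR, comp e Ψ x ^ 2 ≤ G)
    (hb : 0 < b) (hbη : b * G + 2 * η < π) (hx : x ∈ Icc xL xR) : Band (Mfun Ψ η b xL x) η := by
  have hcc : ∀ e : ι → ℝ, Continuous fun y => comp e Ψ y ^ 2 := by
    intro e
    unfold comp
    exact (continuous_finsetSum _ fun i _ => continuous_const.mul (hΨ i)).pow 2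
  refine ⟨?_, ?_, ?_⟩
  · intro a c
    unfold Mfun
    have h1 : (if a = c then η else 0) = (if c = a then η else 0) := by
      by_cases h : a = c
      · simp [h]
      · simp [h, Ne.symm h]
    rw [h1]
    congr 2
    apply intervalIntegral.integral_congr
    intro y _
    exact mul_comm _ _
  · intro e he
    rw [rayleigh_Mfun hΨ, he, mul_one]
    have : 0 ≤ ∫ y in xL..x, comp e Ψ y ^ 2 :=
      intervalIntegral.integral_nonneg hx.1 fun y _ => sq_nonneg _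
    nlinarith [mul_nonneg hb.le this]
  · intro e he
    rw [rayleigh_Mfun hΨ, he, mul_one]
    have h2 : ∫ y in xL..x, comp e Ψ y ^ 2 ≤ ∫ y in xL..xR, comp e Ψ y ^ 2 := by
      have h3 := intervalIntegral.integral_add_adjacent_intervals
        ((hcc e).intervalIntegrable (μ := volume) xL x)
        ((hcc e).intervalIntegrable (μ := volume) x xR)
      have h4 : 0 ≤ ∫ y in x..xR, comp e Ψ y ^ 2 :=
        intervalIntegral.integral_nonneg hx.2 fun y _ => sq_nonneg _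
      linarith
    have h5 := hG e he
    nlinarith [mul_le_mul_of_nonneg_left (h2.trans h5) hb.le]

omit [DecidableEq ι] in
/-- The pointwise differential inequality. -/
lemma pointwise_ineq {K : Finset ℤ} (ξ : ℤ → ι → ℝ) (v : ι → ℝ) {b : ℝ} (hb : 0 < b) {r ε : ℝ}
    (h : (1 - ε) * r ≤
      ∑ k ∈ K, ∑ i, ξ k i ^ 2 - ∑ i, (∑ k ∈ K, ξ k i) ^ 2) :
    b / 4 * ∑ k ∈ K, (4 * ∑ i, v i * ξ k i - b * ∑ i, ξ k i ^ 2) ≤
      ∑ i, v i ^ 2 - b ^ 2 / 4 * (1 - ε) * r := by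
  have h1 : ∑ k ∈ K, (4 * ∑ i, v i * ξ k i - b * ∑ i, ξ k i ^ 2) =
      4 * ∑ i, v i * ∑ k ∈ K, ξ k i - b * ∑ k ∈ K, ∑ i, ξ k i ^ 2 := by
    rw [Finset.sum_sub_distrib, ← Finset.mul_sum, ← Finset.mul_sum]
    congr 2
    rw [Finset.sum_comm]
    apply Finset.sum_congr rfl; intro i _
    rw [Finset.mul_sum]
  have h2 : b * ∑ i, v i * ∑ k ∈ K, ξ k i ≤
      ∑ i, v i ^ 2 + b ^ 2 / 4 * ∑ i, (∑ k ∈ K, ξ k i) ^ 2 := by
    rw [Finset.mul_sum, Finset.mul_sum, ← Finset.sum_add_distrib]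
    apply Finset.sum_le_sum
    intro i _
    nlinarith [sq_nonneg (v i - b / 2 * ∑ k ∈ K, ξ k i)]
  rw [h1]
  have h3 : 0 ≤ b ^ 2 / 4 := by positivity
  have h4 := mul_le_mul_of_nonneg_left h h3
  nlinarith

/-- JOB K3. Differential inequality integrated, at fixed `ε`. Put
`Q x = (b / 4) ∑_{|k| ≤ m} ∑ i, Ψ x i * xi (Ysol (M x) (k π) (Ψ x)) (Ψ x) i`. By D3, for `x ∈ [xL, xR]`
`Q' = b ⟨Ψ', ξ⟩ - (b²/4) ∑_k |ξ_k|²`, `ξ = ∑_k ξ_k`; with `b ⟨Ψ', ξ⟩ ≤ |Ψ'|² + (b²/4)|ξ|²` and A5: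
`Q' ≤ dens Ψ' - (b²/4)(1-ε) ρ³`. Integrate (`intervalIntegral.sub_le_integral_of_hasDeriv_right_of_le`,
see `CalRiccati`), and bound `Q xL, Q xR` by the second part of A5. -/
theorem core_eps {Ψ Ψ' : ℝ → ι → ℝ}
    (hd : ∀ i x, HasDerivAt (fun t => Ψ t i) (Ψ' x i) x) (hc : ∀ i, Continuous fun x => Ψ' x i)
    {xL xR : ℝ} (hx : xL < xR) {G b η ε : ℝ}
    (hG : ∀ e : ι → ℝ, ∑ i, e i ^ 2 = 1 → ∫ x in xL..xR, comp e Ψ x ^ 2 ≤ G)
    (hb : 0 < b) (hη : 0 < η) (hbη : b * G + 2 * η < π) (hε : 0 < ε) :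
    b ^ 2 / 4 * (1 - ε) * ∫ x in xL..xR, rho Ψ x ^ 3 ≤
      (∫ x in xL..xR, dens Ψ' x) + b / 4 * (1 / η + ε) * (rho Ψ xL ^ 2 + rho Ψ xR ^ 2) := by
  classical
  obtain ⟨m, hm⟩ := cot_lemma hη hε
  have cΨ : ∀ i, Continuous fun x => Ψ x i := fun i =>
    continuous_iff_continuousAt.2 fun x => (hd i x).continuousAt
  set M := Mfun Ψ η b xL with hMdef
  set K : Finset ℤ := Finset.Icc (-(m : ℤ)) m with hK
  let ξ : ℝ → ℤ → ι → ℝ := fun x k i => xi (Ysol (M x) ((k : ℝ) * π) (Ψ x)) (Ψ x) i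
  let Q : ℝ → ℝ := fun x => b / 4 * ∑ k ∈ K, ∑ i, Ψ x i * ξ x k i
  let g' : ℝ → ℝ := fun x =>
    b / 4 * ∑ k ∈ K, (4 * ∑ i, Ψ' x i * ξ x k i - b * ∑ i, ξ x k i ^ 2)
  have hband : ∀ x ∈ Icc xL xR, Band (M x) η := fun x hxm => band_Mfun cΨ hG hb hbη hxm
  have hunit : ∀ x ∈ Icc xL xR, ∀ k : ℤ, IsUnit (Jop (M x) ((k : ℝ) * π)) := fun x hxm k =>
    isUnit_Jop hη (hband x hxm) k
  have hQ : ∀ x ∈ Icc xL xR, HasDerivAt Q (g' x) x := by
    intro x hxm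
    have hMd : HasDerivAt M (b • tens (Ψ x)) x := hasDerivAt_Mfun cΨ η b xL x
    have hΨd : HasDerivAt Ψ (Ψ' x) x := hasDerivAt_pi.2 fun i => hd i x
    have h1 : ∀ k ∈ K, HasDerivAt (fun s => ∑ i, Ψ s i * ξ s k i)
        (4 * ∑ i, Ψ' x i * ξ x k i - b * ∑ i, ξ x k i ^ 2) x := by
      intro k _
      exact hasDerivAt_q hMd hΨd (hunit x hxm k) (hband x hxm).symm
    have h2 := (HasDerivAt.fun_sum h1).const_mul (b / 4)
    exact h2
  have hpt : ∀ x ∈ Icc xL xR,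
      (1 - ε) * (rho Ψ x) ^ 3 ≤
        ∑ k ∈ K, ∑ i, ξ x k i ^ 2 - ∑ i, (∑ k ∈ K, ξ x k i) ^ 2 ∧
      |∑ k ∈ K, ∑ i, Ψ x i * ξ x k i| ≤ (1 / η + ε) * (rho Ψ x) ^ 2 := by
    intro x hxm
    exact alg_main hη (hband x hxm) hm hε (Ψ x) (fun k => Ysol (M x) ((k : ℝ) * π) (Ψ x))
      (fun k => (Ysol_spec (hunit x hxm k) (hband x hxm).symm (Ψ x)).1)
  have cρ : Continuous (rho Ψ) := continuous_rho hd
  have cdens : Continuous (dens Ψ') := by
    unfold dens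
    exact continuous_finsetSum _ fun i _ => (hc i).pow 2
  let φ : ℝ → ℝ := fun x => dens Ψ' x - b ^ 2 / 4 * (1 - ε) * rho Ψ x ^ 3
  have cφ : Continuous φ := cdens.sub (continuous_const.mul (cρ.pow 3))
  have hgφ : ∀ x ∈ Ioo xL xR, g' x ≤ φ x := by
    intro x hxm
    exact pointwise_ineq (ξ x) (Ψ' x) hb (hpt x (Ioo_subset_Icc_self hxm)).1
  have hmain : Q xR - Q xL ≤ ∫ y in xL..xR, φ y := by
    apply intervalIntegral.sub_le_integral_of_hasDeriv_right_of_le hx.le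
    · intro x hxm
      exact (hQ x hxm).continuousAt.continuousWithinAt
    · intro x hxm
      exact (hQ x (Ioo_subset_Icc_self hxm)).hasDerivWithinAt
    · exact cφ.continuousOn.integrableOn_Icc
    · exact hgφ
  have hφint : (∫ y in xL..xR, φ y) =
      (∫ y in xL..xR, dens Ψ' y) - b ^ 2 / 4 * (1 - ε) * ∫ y in xL..xR, rho Ψ y ^ 3 := by
    simp only [φ]
    have c3 : Continuous fun y => b ^ 2 / 4 * (1 - ε) * rho Ψ y ^ 3 :=
      continuous_const.mul (cρ.pow 3)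
    rw [intervalIntegral.integral_sub (cdens.intervalIntegrable _ _) (c3.intervalIntegrable _ _),
      intervalIntegral.integral_const_mul]
  have hbd : ∀ x ∈ Icc xL xR, |Q x| ≤ b / 4 * ((1 / η + ε) * rho Ψ x ^ 2) := by
    intro x hxm
    simp only [Q]
    rw [abs_mul, abs_of_pos (by positivity : 0 < b / 4)]
    exact mul_le_mul_of_nonneg_left (hpt x hxm).2 (by positivity)
  have h1 := hbd xL (left_mem_Icc.2 hx.le)
  have h2 := hbd xR (right_mem_Icc.2 hx.le)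
  have h3 := abs_le.1 h1
  have h4 := abs_le.1 h2
  rw [hφint] at hmain
  nlinarith [h3.1, h3.2, h4.1, h4.2]

/-- JOB K4. `ε → 0` in K3 (`le_of_forall_pos_le_add` or a limit). Same shape as `Cal.core` with
`K₁ = 1`, `Cstart = π / 2`; `hρ` is not needed and kept only to make the copies of `CalApprox`, `CalLine`
mechanical. -/
theorem core2 {Ψ Ψ' : ℝ → ι → ℝ}
    (hd : ∀ i x, HasDerivAt (fun t => Ψ t i) (Ψ' x i) x) (hc : ∀ i, Continuous fun x => Ψ' x i)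
    (_hρ : ∀ x, 0 < rho Ψ x) {xL xR : ℝ} (hx : xL < xR) {G b η : ℝ}
    (hG : ∀ e : ι → ℝ, ∑ i, e i ^ 2 = 1 → ∫ x in xL..xR, comp e Ψ x ^ 2 ≤ G)
    (hb : 0 < b) (hη : 0 < η) (hbη : b * G + 2 * 1 * η < 2 * (π / 2)) :
    b ^ 2 / 4 * ∫ x in xL..xR, rho Ψ x ^ 3 ≤
      (∫ x in xL..xR, dens Ψ' x) + b / (4 * η) * (rho Ψ xL ^ 2 + rho Ψ xR ^ 2) := by
  have hbη' : b * G + 2 * η < π := by linarith
  set I := ∫ x in xL..xR, rho Ψ x ^ 3 with hI
  set R := rho Ψ xL ^ 2 + rho Ψ xR ^ 2 with hR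
  set D := ∫ x in xL..xR, dens Ψ' x with hD
  have hK3 : ∀ ε : ℝ, 0 < ε → b ^ 2 / 4 * (1 - ε) * I ≤ D + b / 4 * (1 / η + ε) * R := fun ε hε =>
    core_eps hd hc hx hG hb hη hbη' hε
  have hIn : 0 ≤ I := by
    apply intervalIntegral.integral_nonneg hx.le
    intro y _
    exact pow_nonneg (Finset.sum_nonneg fun i _ => sq_nonneg _) 3
  have hRn : 0 ≤ R := by positivity
  set C := b ^ 2 / 4 * I + b / 4 * R with hC
  have hCn : 0 ≤ C := by positivity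
  have heq : b / (4 * η) * R = b / 4 * (1 / η) * R := by
    field_simp
  apply le_of_forall_pos_le_add
  intro δ hδ
  have hε : 0 < δ / (C + 1) := by positivity
  have h1 := hK3 _ hε
  have h2 : δ / (C + 1) * C ≤ δ := by
    rw [div_mul_eq_mul_div, div_le_iff₀ (by positivity)]
    nlinarith
  rw [heq]
  have h3 : b ^ 2 / 4 * (1 - δ / (C + 1)) * I = b ^ 2 / 4 * I - δ / (C + 1) * (b ^ 2 / 4 * I) := by
    ring
  have h4 : b / 4 * (1 / η + δ / (C + 1)) * R = b / 4 * (1 / η) * R + δ / (C + 1) * (b / 4 * R) := by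
    ring
  rw [h3, h4] at h1
  have h5 : δ / (C + 1) * C = δ / (C + 1) * (b ^ 2 / 4 * I) + δ / (C + 1) * (b / 4 * R) := by
    rw [hC]; ring
  linarith

end Vale.Agent.Lib.P371.Sharp
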