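import Vale.Agent.Lib.P371.Sharp.Cot

/-!
Two sided version of the limit of the cotangent partial sums, for the matrix case.
-/

open Real Filter Topology

namespace Vale.Agent.Lib.P371.Sharp

/-- The limit kernel `D(p,q)`, with value `0` on the diagonal. -/
noncomputable def Dfun (p q : ℝ) : ℝ :=
  if p = q then 0 else
    1 + (cos p / sin p) * (cos q / sin q) + (cos p / sin p - cos q / sin q) / (p - q)

lemma Dfun_of_ne {p q : ℝ} (h : p ≠ q) : Dfun p q =
    1 + Real.cot p * Real.cot q - (Real.cot p - Real.cot q) / (q - p) := by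
  have hd : q - p ≠ 0 := sub_ne_zero.2 h.symm
  have hd2 : p - q ≠ 0 := sub_ne_zero.2 h
  rw [Dfun, if_neg h, Real.cot_eq_cos_div_sin, Real.cot_eq_cos_div_sin]
  have e : (cos p / sin p - cos q / sin q) / (q - p) =
      -((cos p / sin p - cos q / sin q) / (p - q)) := by
    rw [← neg_sub p q, div_neg]
  rw [e]
  ring

/-- The closed form of the limit kernel. -/
lemma Dfun_eq {p q : ℝ} (hp0 : 0 < p) (hp1 : p < π) (hq0 : 0 < q) (hq1 : q < π) (h : p ≠ q) :
    Dfun p q = (Real.cos (q - p) - Real.sinc (q - p)) / (Real.sin p * Real.sin q) := by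
  have sp : 0 < Real.sin p := Real.sin_pos_of_pos_of_lt_pi hp0 hp1
  have sq : 0 < Real.sin q := Real.sin_pos_of_pos_of_lt_pi hq0 hq1
  have hd : q - p ≠ 0 := sub_ne_zero.2 h.symm
  rw [Dfun_of_ne h, Real.sinc_of_ne_zero hd, Real.cot_eq_cos_div_sin, Real.cot_eq_cos_div_sin,
    Real.cos_sub, Real.sin_sub]
  have := Real.sin_sq_add_cos_sq p
  have := Real.sin_sq_add_cos_sq q
  field_simp
  ring

/-- `em` is below its limit. -/
lemma em_le_div_cot {p q : ℝ} (hp0 : 0 < p) (hp1 : p < π) (hq0 : 0 < q) (hq1 : q < π) (hpq : p ≠ q)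
    (m : ℕ) : em m p q ≤ (Real.cot p - Real.cot q) / (q - p) := by
  have hpi := Real.pi_pos
  have hinc : ∀ n : ℕ, em m p q ≤ em (m + n) p q := by
    intro n
    induction n with
    | zero => simp
    | succ n ih =>
      have e2 : m + (n + 1) = m + n + 1 := rfl
      rw [e2, em_succ]
      have hk : (0 : ℝ) ≤ ((m + n : ℕ) : ℝ) := Nat.cast_nonneg _
      have a1 : 0 < p + (((m + n : ℕ) : ℝ) + 1) * π := by positivity
      have a2 : 0 < q + (((m + n : ℕ) : ℝ) + 1) * π := by positivity
      have a3 : p - (((m + n : ℕ) : ℝ) + 1) * π < 0 := by nlinarith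
      have a4 : q - (((m + n : ℕ) : ℝ) + 1) * π < 0 := by nlinarith
      have b1 : 0 ≤ 1 / ((p + (((m + n : ℕ) : ℝ) + 1) * π) * (q + (((m + n : ℕ) : ℝ) + 1) * π)) :=
        (one_div_pos.2 (mul_pos a1 a2)).le
      have b2 : 0 ≤ 1 / ((p - (((m + n : ℕ) : ℝ) + 1) * π) * (q - (((m + n : ℕ) : ℝ) + 1) * π)) :=
        (one_div_pos.2 (mul_pos_of_neg_of_neg a3 a4)).le
      linarith
  have h1 : Tendsto (fun n : ℕ => (cm (n + m) p - cm (n + m) q) / (q - p)) atTop
      (𝓝 ((Real.cot p - Real.cot q) / (q - p))) :=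
    (((tendsto_cm hp0 hp1).comp (tendsto_add_atTop_nat m)).sub
      ((tendsto_cm hq0 hq1).comp (tendsto_add_atTop_nat m))).div_const _
  refine ge_of_tendsto h1 (Eventually.of_forall fun n => ?_)
  have h3 := em_eq_div hp0 hp1 hq0 hq1 hpq (m + n)
  rw [Nat.add_comm n m, ← h3]
  exact hinc n

/-- Two sided bound at distinct points. -/
lemma abs_sub_D_le {ε p q : ℝ} (h0 : 0 < ε) (hε : ε ≤ π / 2) (hp1 : ε ≤ p) (hp2 : p ≤ π - ε)
    (hq1 : ε ≤ q) (hq2 : q ≤ π - ε) (hpq : p ≠ q) {m : ℕ} (hm : 1 ≤ m) :
    |em m p q - cm m p * cm m q - (1 - Dfun p q)| ≤ (2 * (1 / Real.sin ε) + 2) / (m : ℝ) := by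
  have hM : (0 : ℝ) < m := by exact_mod_cast hm
  have hm1 : (1 : ℝ) ≤ m := by exact_mod_cast hm
  have hp0 : 0 < p := by linarith
  have hq0 : 0 < q := by linarith
  have hp3 : p < π := by linarith
  have hq3 : q < π := by linarith
  have h2 := div_cot_le_em hp0 hp3 hq0 hq3 hpq hm
  have h2' := em_le_div_cot hp0 hp3 hq0 hq3 hpq m
  have ap := abs_cot_sub_cm_le hp0 hp3 hm
  have aq := abs_cot_sub_cm_le hq0 hq3 hm
  have kp := abs_cot_le h0 hε hp1 hp2
  have kq := abs_cot_le h0 hε hq1 hq2
  set K := 1 / Real.sin ε with hK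
  set e := 1 / (m : ℝ) with he
  have he0 : 0 < e := by positivity
  have he1 : e ≤ 1 := by
    rw [he, div_le_one hM]
    exact hm1
  set rp := cm m p - Real.cot p with hrp
  set rq := cm m q - Real.cot q with hrq
  have arp : |rp| ≤ e := by rw [hrp, abs_sub_comm]; exact ap
  have arq : |rq| ≤ e := by rw [hrq, abs_sub_comm]; exact aq
  have e1 : cm m p * cm m q = Real.cot p * Real.cot q + Real.cot p * rq + Real.cot q * rp + rp * rq := by
    rw [hrp, hrq]
    ring
  have b1 : |Real.cot p * rq| ≤ K * e := by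
    rw [abs_mul]
    exact mul_le_mul kp arq (abs_nonneg _) (le_trans (abs_nonneg _) kp)
  have b2 : |Real.cot q * rp| ≤ K * e := by
    rw [abs_mul]
    exact mul_le_mul kq arp (abs_nonneg _) (le_trans (abs_nonneg _) kq)
  have b3 : |rp * rq| ≤ e := by
    rw [abs_mul]
    calc |rp| * |rq| ≤ e * 1 := mul_le_mul arp (arq.trans he1) (abs_nonneg _) he0.le
      _ = e := mul_one _
  have e2 : (2 * K + 2) / (m : ℝ) = 2 * K * e + 2 * e := by
    rw [he]
    ring
  rw [e2, Dfun_of_ne hpq, e1, abs_le]
  have c1 := abs_le.1 b1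
  have c2 := abs_le.1 b2
  have c3 := abs_le.1 b3
  constructor <;> linarith [c1.1, c1.2, c2.1, c2.2, c3.1, c3.2]

/-- **The uniform two sided limit.** -/
theorem cot_lemma2 {η ε : ℝ} (hη : 0 < η) (hε : 0 < ε) :
    ∃ m : ℕ, ∀ p q : ℝ, p ∈ Set.Icc η (π - η) → q ∈ Set.Icc η (π - η) →
      |phi2 m p q - phi m p * phi m q - (1 - Dfun p q)| ≤ ε ∧ |phi m p| ≤ 1 / η + ε := by
  have hpi := Real.pi_pos
  by_cases hε2 : η ≤ π / 2
  · set ε' := η / 2 with hε'
    have h0' : 0 < ε' := by positivity
    have h1' : ε' ≤ π / 2 := by linarith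
    set C := 2 * (1 / Real.sin ε') + 2 with hC
    have hs : 0 < Real.sin ε' := Real.sin_pos_of_pos_of_lt_pi h0' (by linarith)
    have hC0 : 0 < C := by positivity
    obtain ⟨M, hM⟩ := exists_nat_ge (C / ε)
    obtain ⟨L, hL⟩ := exists_nat_ge (1 / ε)
    refine ⟨max (M + 1) (L + 1), fun p q hp hq => ?_⟩
    set m := max (M + 1) (L + 1) with hm
    have hm1 : 1 ≤ m := le_trans (by omega) (le_max_left _ _)
    have hmR : (0 : ℝ) < m := by exact_mod_cast hm1
    have hmM : (M : ℝ) ≤ m := by
      have : M ≤ m := le_trans (by omega) (le_max_left _ _)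
      exact_mod_cast this
    have hmL : (L : ℝ) ≤ m := by
      have : L ≤ m := le_trans (by omega) (le_max_right _ _)
      exact_mod_cast this
    have hb : C / (m : ℝ) ≤ ε := by
      rw [div_le_iff₀ hmR]
      have : C / ε ≤ m := hM.trans hmM
      rwa [div_le_iff₀ hε, mul_comm] at this
    have hb2 : 1 / (m : ℝ) ≤ ε := by
      rw [div_le_iff₀ hmR]
      have : 1 / ε ≤ m := hL.trans hmL
      rwa [div_le_iff₀ hε, mul_comm] at this
    have hp0 : 0 < p := by linarith [hp.1]
    have hp3 : p < π := by linarith [hp.2]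
    constructor
    · rw [phi_eq_cm, phi_eq_cm, phi2_eq_em]
      rcases eq_or_ne p q with rfl | hne
      · -- the diagonal, by continuity
        have sp : 0 < Real.sin p := Real.sin_pos_of_pos_of_lt_pi hp0 hp3
        have hc1 : ContinuousAt (fun q' => em m p q' - cm m p * cm m q' - 1) p :=
          ((continuousAt_em hp0 hp3 hp0 hp3 m).sub
            (continuousAt_const.mul (continuousAt_cm hp0 hp3 m))).sub continuousAt_const
        have hsin : ContinuousAt Real.sin p := Real.continuous_sin.continuousAt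
        have hc2 : ContinuousAt (fun q' => (Real.cos (q' - p) - Real.sinc (q' - p)) /
            (Real.sin p * Real.sin q')) p := by
          refine ContinuousAt.div ?_ (continuousAt_const.mul hsin) (mul_pos sp sp).ne'
          exact ((Real.continuous_cos.comp (continuous_id.sub continuous_const)).sub
            (Real.continuous_sinc.comp (continuous_id.sub continuous_const))).continuousAt
        have hv : (Real.cos (p - p) - Real.sinc (p - p)) / (Real.sin p * Real.sin p) = 0 := by
          simp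
        have ht : Tendsto (fun q' => |em m p q' - cm m p * cm m q' - 1| -
            |(Real.cos (q' - p) - Real.sinc (q' - p)) / (Real.sin p * Real.sin q')|)
            (𝓝[{p}ᶜ] p) (𝓝 (|em m p p - cm m p * cm m p - 1| - |(0 : ℝ)|)) := by
          have h1 := hc1.tendsto.abs
          have h2 := hc2.tendsto.abs
          rw [hv] at h2
          exact (h1.sub h2).mono_left nhdsWithin_le_nhds
        have hle : |em m p p - cm m p * cm m p - 1| - |(0 : ℝ)| ≤ C / (m : ℝ) := by
          refine le_of_tendsto ht ?_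
          have hI : Set.Ioo ε' (π - ε') ∈ 𝓝[{p}ᶜ] p :=
            mem_nhdsWithin_of_mem_nhds (Ioo_mem_nhds (by linarith [hp.1]) (by linarith [hp.2]))
          filter_upwards [self_mem_nhdsWithin, hI] with q' h1 h2
          have hqp : q' ≠ p := h1
          have hq0 : 0 < q' := by linarith [h2.1]
          have hq3 : q' < π := by linarith [h2.2]
          have h3 := abs_sub_D_le h0' h1' (by linarith [hp.1]) (by linarith [hp.2]) h2.1.le h2.2.le
            hqp.symm hm1
          have h4 := Dfun_eq hp0 hp3 hq0 hq3 hqp.symm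
          rw [← h4]
          have h5 : |em m p q' - cm m p * cm m q' - 1| ≤
              |em m p q' - cm m p * cm m q' - (1 - Dfun p q')| + |Dfun p q'| := by
            have : em m p q' - cm m p * cm m q' - 1 =
                (em m p q' - cm m p * cm m q' - (1 - Dfun p q')) - Dfun p q' := by ring
            rw [this]
            exact abs_sub _ _
          linarith
        have hz : Dfun p p = 0 := by simp [Dfun]
        rw [hz, sub_zero]
        simp only [abs_zero, sub_zero] at hle
        exact hle.trans hb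
      · exact (abs_sub_D_le h0' h1' (by linarith [hp.1]) (by linarith [hp.2]) (by linarith [hq.1])
          (by linarith [hq.2]) hne hm1).trans hb
    · rw [phi_eq_cm]
      have h2 := abs_cot_sub_cm_le hp0 hp3 hm1
      have h3 := abs_cot_le_inv hη hp.1 hp.2
      have h5 : |cm m p| ≤ |Real.cot p| + |Real.cot p - cm m p| := by
        have : cm m p = Real.cot p - (Real.cot p - cm m p) := by ring
        calc |cm m p| = |Real.cot p - (Real.cot p - cm m p)| := by rw [← this]
          _ ≤ _ := abs_sub _ _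
      linarith
  · refine ⟨0, fun p q hp _ => ?_⟩
    exfalso
    push Not at hε2
    linarith [hp.1, hp.2]

end Vale.Agent.Lib.P371.Sharp
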