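import Mathlib

/-!
Exact calibration for the sharp Lieb-Thirring inequality at `γ = 1` on the line.

Matrices are plain functions `ι → ι → ℝ` (Pi norm, so `(ι → ι → ℝ) →L[ℝ] (ι → ι → ℝ)` is a complete
normed algebra). `Jop M t X = (M X + X M) / 2 + t X`.
-/

open Real

namespace Vale.Agent.Lib.P371.Sharp

variable {ι : Type*} [Fintype ι]

/-- Partial fractions of the cotangent: `∑_{|k| ≤ m} 1 / (x + k π)`. -/
noncomputable def phi (m : ℕ) (x : ℝ) : ℝ :=
  ∑ k ∈ Finset.Icc (-(m : ℤ)) m, 1 / (x + k * π)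

/-- `∑_{|k| ≤ m} 1 / ((p + k π) (q + k π))`. -/
noncomputable def phi2 (m : ℕ) (p q : ℝ) : ℝ :=
  ∑ k ∈ Finset.Icc (-(m : ℤ)) m, 1 / ((p + k * π) * (q + k * π))

/-- The rank one matrix `ψ ψᵀ`. -/
def tens (ψ : ι → ℝ) : ι → ι → ℝ := fun a b => ψ a * ψ b

/-- `X ↦ (M X + X M) / 2 + t X` as a linear map. -/
noncomputable def Jlin (M : ι → ι → ℝ) (t : ℝ) : (ι → ι → ℝ) →ₗ[ℝ] (ι → ι → ℝ) where
  toFun X := fun a b => (1 / 2) * ∑ c, (M a c * X c b + X a c * M c b) + t * X a b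
  map_add' X Y := by
    funext a b
    simp only [Pi.add_apply, ← Finset.sum_add_distrib, mul_add]
    have : ∀ c, M a c * X c b + M a c * Y c b + (X a c + Y a c) * M c b
        = (M a c * X c b + X a c * M c b) + (M a c * Y c b + Y a c * M c b) := fun c => by ring
    simp only [add_mul, this, Finset.sum_add_distrib, mul_add]
    ring_nf
  map_smul' r X := by
    funext a b
    simp only [Pi.smul_apply, smul_eq_mul, RingHom.id_apply, Finset.mul_sum]
    rw [mul_add, mul_left_comm t, Finset.mul_sum]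
    congr 1
    apply Finset.sum_congr rfl
    intro c _
    ring

/-- `X ↦ (M X + X M) / 2 + t X` as a continuous linear map. -/
noncomputable def Jop (M : ι → ι → ℝ) (t : ℝ) : (ι → ι → ℝ) →L[ℝ] (ι → ι → ℝ) :=
  LinearMap.toContinuousLinearMap (Jlin M t)

lemma Jop_apply (M : ι → ι → ℝ) (t : ℝ) (X : ι → ι → ℝ) (a b : ι) :
    Jop M t X a b = (1 / 2) * ∑ c, (M a c * X c b + X a c * M c b) + t * X a b := rfl

/-- The solution of `Jop M t Y = ψ ψᵀ` (junk if `Jop M t` is not invertible). -/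
noncomputable def Ysol (M : ι → ι → ℝ) (t : ℝ) (ψ : ι → ℝ) : ι → ι → ℝ :=
  Ring.inverse (Jop M t) (tens ψ)

/-- `ξ = Y ψ`. -/
noncomputable def xi (Y : ι → ι → ℝ) (ψ : ι → ℝ) : ι → ℝ := fun i => ∑ j, Y i j * ψ j

/-- The hypothesis on `M`: symmetric with all Rayleigh quotients in `[η, π - η]`. -/
structure Band (M : ι → ι → ℝ) (η : ℝ) : Prop where
  symm : ∀ a b, M a b = M b a
  lower : ∀ e : ι → ℝ, ∑ i, e i ^ 2 = 1 → η ≤ ∑ a, ∑ b, e a * M a b * e b
  upper : ∀ e : ι → ℝ, ∑ i, e i ^ 2 = 1 → ∑ a, ∑ b, e a * M a b * e b ≤ π - η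

end Vale.Agent.Lib.P371.Sharp
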