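import Vale.Agent.Lib.P371.Sharp.Alg

open Real

set_option linter.unusedSectionVars false

namespace Vale.Agent.Lib.P371.Sharp

variable {ι : Type*} [Fintype ι] [DecidableEq ι]

/-- JOB D1. Derivative of `L⁻¹ b` in a complete normed algebra of operators. Uses
`hasFDerivAt_ringInverse`, composition with `L`, and the product rule for application
`(L, b) ↦ L b` (`HasDerivAt.clm_apply`). -/
theorem hasDerivAt_inverse_apply {V : Type*} [NormedAddCommGroup V] [NormedSpace ℝ V] [CompleteSpace V]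
    {L : ℝ → V →L[ℝ] V} {L' : V →L[ℝ] V} {b : ℝ → V} {b' : V} {x : ℝ}
    (hL : HasDerivAt L L' x) (hb : HasDerivAt b b' x) (hu : IsUnit (L x)) :
    HasDerivAt (fun s => Ring.inverse (L s) (b s))
      (Ring.inverse (L x) (b' - L' (Ring.inverse (L x) (b x)))) x := by
  obtain ⟨u, hu'⟩ := hu
  have hinv : (↑u⁻¹ : V →L[ℝ] V) = Ring.inverse (L x) := by
    rw [← hu', Ring.inverse_unit]
  have h1 : HasDerivAt (fun t => Ring.inverse (L t))
      ((-ContinuousLinearMap.mulLeftRight ℝ (V →L[ℝ] V) ↑u⁻¹ ↑u⁻¹) L') x := by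
    have h0 := hasFDerivAt_ringInverse (𝕜 := ℝ) u
    rw [hu'] at h0
    exact h0.comp_hasDerivAt x hL
  have h2 := h1.clm_apply hb
  refine h2.congr_deriv ?_
  rw [hinv]
  simp [sub_eq_add_neg, add_comm]

/-- The linear part `M ↦ Jop M 0` as a linear map. -/
noncomputable def jordanLin : (ι → ι → ℝ) →ₗ[ℝ] ((ι → ι → ℝ) →L[ℝ] (ι → ι → ℝ)) where
  toFun M := Jop M 0
  map_add' A B := by
    ext Y i j
    simp only [Jop_apply, add_apply, Pi.add_apply, add_mul, mul_add, Finset.sum_add_distrib]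
    ring
  map_smul' r A := by
    ext Y i j
    simp only [Jop_apply, smul_apply, Pi.smul_apply, smul_eq_mul, RingHom.id_apply]
    have e : ∑ c, (r * A i c * Y c j + Y i c * (r * A c j)) =
        r * ∑ c, (A i c * Y c j + Y i c * A c j) := by
      rw [Finset.mul_sum]
      exact Finset.sum_congr rfl fun k _ => by ring
    rw [e]
    ring

/-- The linear part as a continuous linear map. -/
noncomputable def jordanCLM : (ι → ι → ℝ) →L[ℝ] ((ι → ι → ℝ) →L[ℝ] (ι → ι → ℝ)) :=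
  LinearMap.toContinuousLinearMap jordanLin

lemma jordanCLM_eq (M : ι → ι → ℝ) : jordanCLM M = Jop M 0 := rfl

lemma Jop_eq (M : ι → ι → ℝ) (c : ℝ) :
    Jop M c = Jop M 0 + c • ContinuousLinearMap.id ℝ _ := by
  ext Y i j
  simp [Jop_apply]

/-- JOB D2. `M ↦ Jop M t` is affine: if `M` has derivative `M'` at `x` (Pi valued) then
`s ↦ Jop (M s) t` has derivative `Jop M' 0`. Write `Jop M t = Jlin₀ M + t • id`, with `Jlin₀` linear in
`M` on a finite dimensional space (`LinearMap.toContinuousLinearMap`, `HasFDerivAt`). -/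
theorem hasDerivAt_Jop {M : ℝ → ι → ι → ℝ} {M' : ι → ι → ℝ} {x : ℝ} (t : ℝ)
    (hM : HasDerivAt M M' x) : HasDerivAt (fun s => Jop (M s) t) (Jop M' 0) x := by
  have h1 : HasDerivAt (jordanCLM ∘ M) (jordanCLM M') x :=
    (jordanCLM (ι := ι)).hasFDerivAt.comp_hasDerivAt x hM
  have h2 := h1.add_const (t • ContinuousLinearMap.id ℝ (ι → ι → ℝ))
  have e : (fun s => Jop (M s) t) = fun s => (jordanCLM ∘ M) s + t • ContinuousLinearMap.id ℝ (ι → ι → ℝ) := by
    funext s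
    exact Jop_eq (M s) t
  rw [e]
  exact h2


/-- the Frobenius pairing -/
noncomputable def dpair (A B : ι → ι → ℝ) : ℝ := ∑ i, ∑ j, A i j * B i j

lemma dpair_comm (A B : ι → ι → ℝ) : dpair A B = dpair B A := by
  simp only [dpair, mul_comm]

/-- `⟨G A, B⟩ = ⟨A, G B⟩` -/
lemma dpair_left {G : ι → ι → ℝ} (hG : ∀ i j, G i j = G j i) (A B : ι → ι → ℝ) :
    ∑ i, ∑ j, (∑ k, G i k * A k j) * B i j = ∑ i, ∑ j, A i j * ∑ k, G i k * B k j := by
  calc ∑ i, ∑ j, (∑ k, G i k * A k j) * B i j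
      = ∑ j, ∑ i, ∑ k, G i k * A k j * B i j := by
        rw [Finset.sum_comm]
        exact Finset.sum_congr rfl fun j _ => Finset.sum_congr rfl fun i _ => Finset.sum_mul _ _ _
    _ = ∑ j, ∑ k, ∑ i, G k i * A i j * B k j := by
        refine Finset.sum_congr rfl fun j _ => ?_
        rw [Finset.sum_comm]
    _ = ∑ j, ∑ i, ∑ k, G k i * A i j * B k j := by
        refine Finset.sum_congr rfl fun j _ => ?_
        rw [Finset.sum_comm]
    _ = ∑ i, ∑ j, A i j * ∑ k, G i k * B k j := by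
        rw [Finset.sum_comm]
        refine Finset.sum_congr rfl fun i _ => Finset.sum_congr rfl fun j _ => ?_
        rw [Finset.mul_sum]
        refine Finset.sum_congr rfl fun k _ => ?_
        rw [hG k i]
        ring

/-- `⟨A G, B⟩ = ⟨A, B G⟩` -/
lemma dpair_right {G : ι → ι → ℝ} (hG : ∀ i j, G i j = G j i) (A B : ι → ι → ℝ) :
    ∑ i, ∑ j, (∑ k, A i k * G k j) * B i j = ∑ i, ∑ j, A i j * ∑ k, B i k * G k j := by
  have h := dpair_left hG (fun i j => A j i) (fun i j => B j i)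
  calc ∑ i, ∑ j, (∑ k, A i k * G k j) * B i j
      = ∑ j, ∑ i, (∑ k, G j k * A i k) * B i j := by
        rw [Finset.sum_comm]
        refine Finset.sum_congr rfl fun j _ => Finset.sum_congr rfl fun i _ => ?_
        congr 1
        refine Finset.sum_congr rfl fun k _ => ?_
        rw [hG k j]
        ring
    _ = ∑ j, ∑ i, A i j * ∑ k, G j k * B i k := h
    _ = ∑ i, ∑ j, A i j * ∑ k, B i k * G k j := by
        rw [Finset.sum_comm]
        refine Finset.sum_congr rfl fun i _ => Finset.sum_congr rfl fun j _ => ?_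
        congr 1
        refine Finset.sum_congr rfl fun k _ => ?_
        rw [hG k j]
        ring

lemma Jop_apply' (M : ι → ι → ℝ) (t : ℝ) (X : ι → ι → ℝ) (a b : ι) :
    Jop M t X a b = (1 / 2) * (∑ c, M a c * X c b + ∑ c, X a c * M c b) + t * X a b := by
  rw [Jop_apply, Finset.sum_add_distrib]

lemma dpair_Jop {G : ι → ι → ℝ} (hG : ∀ i j, G i j = G j i) (c : ℝ) (A B : ι → ι → ℝ) :
    dpair (Jop G c A) B = dpair A (Jop G c B) := by
  simp only [dpair, Jop_apply']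
  have h1 := dpair_left hG A B
  have h2 := dpair_right hG A B
  have e1 : ∑ i, ∑ j, ((1 / 2 : ℝ) * (∑ k, G i k * A k j + ∑ k, A i k * G k j) + c * A i j) * B i j
      = (1 / 2 : ℝ) * (∑ i, ∑ j, (∑ k, G i k * A k j) * B i j +
          ∑ i, ∑ j, (∑ k, A i k * G k j) * B i j) + c * ∑ i, ∑ j, A i j * B i j := by
    rw [← Finset.sum_add_distrib, Finset.mul_sum, Finset.mul_sum, ← Finset.sum_add_distrib]
    refine Finset.sum_congr rfl fun i _ => ?_
    rw [← Finset.sum_add_distrib, Finset.mul_sum, Finset.mul_sum, ← Finset.sum_add_distrib]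
    refine Finset.sum_congr rfl fun j _ => ?_
    ring
  have e2 : ∑ i, ∑ j, A i j * ((1 / 2 : ℝ) * (∑ k, G i k * B k j + ∑ k, B i k * G k j) + c * B i j)
      = (1 / 2 : ℝ) * (∑ i, ∑ j, A i j * (∑ k, G i k * B k j) +
          ∑ i, ∑ j, A i j * (∑ k, B i k * G k j)) + c * ∑ i, ∑ j, A i j * B i j := by
    rw [← Finset.sum_add_distrib, Finset.mul_sum, Finset.mul_sum, ← Finset.sum_add_distrib]
    refine Finset.sum_congr rfl fun i _ => ?_
    rw [← Finset.sum_add_distrib, Finset.mul_sum, Finset.mul_sum, ← Finset.sum_add_distrib]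
    refine Finset.sum_congr rfl fun j _ => ?_
    ring
  rw [e1, e2, h1, h2]

lemma Jop_inv_right {G : ι → ι → ℝ} {c : ℝ} (hu : IsUnit (Jop G c)) (Z : ι → ι → ℝ) :
    Jop G c (Ring.inverse (Jop G c) Z) = Z := by
  have := Ring.mul_inverse_cancel _ hu
  have h2 := congrArg (fun T : (ι → ι → ℝ) →L[ℝ] (ι → ι → ℝ) => T Z) this
  simpa using h2

lemma Jop_inv_left {G : ι → ι → ℝ} {c : ℝ} (hu : IsUnit (Jop G c)) (Z : ι → ι → ℝ) :
    Ring.inverse (Jop G c) (Jop G c Z) = Z := by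
  have := Ring.inverse_mul_cancel _ hu
  have h2 := congrArg (fun T : (ι → ι → ℝ) →L[ℝ] (ι → ι → ℝ) => T Z) this
  simpa using h2

/-- the pairing with the resolvent is symmetric -/
lemma dpair_inv {G : ι → ι → ℝ} (hG : ∀ i j, G i j = G j i) {c : ℝ} (hu : IsUnit (Jop G c))
    (A B : ι → ι → ℝ) :
    dpair (Ring.inverse (Jop G c) A) B = dpair A (Ring.inverse (Jop G c) B) := by
  calc dpair (Ring.inverse (Jop G c) A) B
      = dpair (Ring.inverse (Jop G c) A) (Jop G c (Ring.inverse (Jop G c) B)) := by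
        rw [Jop_inv_right hu]
    _ = dpair (Jop G c (Ring.inverse (Jop G c) A)) (Ring.inverse (Jop G c) B) :=
        (dpair_Jop hG c _ _).symm
    _ = dpair A (Ring.inverse (Jop G c) B) := by rw [Jop_inv_right hu]

/-- The resolvent preserves symmetry. -/
lemma inv_symm {G : ι → ι → ℝ} (hG : ∀ i j, G i j = G j i) {c : ℝ} (hu : IsUnit (Jop G c))
    {S : ι → ι → ℝ} (hS : ∀ i j, S i j = S j i) (i j : ι) :
    Ring.inverse (Jop G c) S i j = Ring.inverse (Jop G c) S j i := by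
  set X := Ring.inverse (Jop G c) S with hX
  have h1 : Jop G c X = S := Jop_inv_right hu S
  have h2 : Jop G c (fun i j => X j i) = S := by
    funext i j
    rw [hS i j, ← h1]
    simp only [Jop_apply']
    have e1 : ∑ k, G i k * X j k = ∑ k, X j k * G k i :=
      Finset.sum_congr rfl fun k _ => by rw [hG i k]; ring
    have e2 : ∑ k, X k i * G k j = ∑ k, G j k * X k i :=
      Finset.sum_congr rfl fun k _ => by rw [hG k j]; ring
    rw [e1, e2]
    ring
  have h3 := congrArg (fun Z => Ring.inverse (Jop G c) Z) h2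
  simp only [Jop_inv_left hu] at h3
  exact (congrFun (congrFun h3 i) j).symm

lemma hasDerivAt_entry {f : ℝ → ι → ι → ℝ} {f' : ι → ι → ℝ} {x : ℝ} (h : HasDerivAt f f' x) (i j : ι) :
    HasDerivAt (fun t => f t i j) (f' i j) x :=
  (hasDerivAt_pi.1 ((hasDerivAt_pi.1 h) i)) j

lemma hasDerivAt_of_entry {f : ℝ → ι → ι → ℝ} {f' : ι → ι → ℝ} {x : ℝ}
    (h : ∀ i j, HasDerivAt (fun t => f t i j) (f' i j) x) : HasDerivAt f f' x :=
  hasDerivAt_pi.2 fun i => hasDerivAt_pi.2 fun j => h i j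

lemma hasDerivAt_dpair {A B : ℝ → ι → ι → ℝ} {A' B' : ι → ι → ℝ} {x : ℝ} (hA : HasDerivAt A A' x)
    (hB : HasDerivAt B B' x) :
    HasDerivAt (fun t => dpair (A t) (B t)) (dpair A' (B x) + dpair (A x) B') x := by
  have h : HasDerivAt (fun t => ∑ i, ∑ j, A t i j * B t i j)
      (∑ i, ∑ j, (A' i j * B x i j + A x i j * B' i j)) x := by
    refine HasDerivAt.fun_sum fun i _ => HasDerivAt.fun_sum fun j _ => ?_
    exact (hasDerivAt_entry hA i j).mul (hasDerivAt_entry hB i j)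
  refine h.congr_deriv ?_
  simp only [dpair, Finset.sum_add_distrib]

lemma dpair_tens (ψ : ι → ℝ) (X : ι → ι → ℝ) : dpair (tens ψ) X = ∑ i, ψ i * xi X ψ i := by
  simp only [dpair, tens, xi, Finset.mul_sum]
  exact Finset.sum_congr rfl fun i _ => Finset.sum_congr rfl fun j _ => by ring

lemma dpair_jordan_tens (ψ : ι → ℝ) {X : ι → ι → ℝ} (hX : ∀ i j, X i j = X j i) :
    dpair X (Jop (tens ψ) 0 X) = ∑ i, xi X ψ i ^ 2 := by
  have h1 : ∑ i, ∑ j, X i j * ∑ k, tens ψ i k * X k j = ∑ i, xi X ψ i ^ 2 := by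
    simp only [xi, tens, sq]
    rw [Finset.sum_comm]
    refine Finset.sum_congr rfl fun j _ => ?_
    have e1 : ∀ i, ∑ k, ψ i * ψ k * X k j = ψ i * ∑ k, X j k * ψ k := by
      intro i
      rw [Finset.mul_sum]
      exact Finset.sum_congr rfl fun k _ => by rw [hX k j]; ring
    simp only [e1]
    rw [Finset.sum_mul]
    refine Finset.sum_congr rfl fun i _ => ?_
    rw [hX i j]
    ring
  have h2 : ∑ i, ∑ j, X i j * ∑ k, X i k * tens ψ k j = ∑ i, xi X ψ i ^ 2 := by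
    simp only [xi, tens, sq]
    refine Finset.sum_congr rfl fun i _ => ?_
    have e1 : ∀ j, ∑ k, X i k * (ψ k * ψ j) = (∑ k, X i k * ψ k) * ψ j := by
      intro j
      rw [Finset.sum_mul]
      exact Finset.sum_congr rfl fun k _ => by ring
    simp only [e1]
    rw [Finset.sum_mul]
    refine Finset.sum_congr rfl fun j _ => ?_
    ring
  simp only [dpair, Jop_apply', zero_mul, add_zero]
  have e : ∑ i, ∑ j, X i j * ((1 / 2 : ℝ) * (∑ k, tens ψ i k * X k j + ∑ k, X i k * tens ψ k j))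
      = (1 / 2 : ℝ) * (∑ i, ∑ j, X i j * ∑ k, tens ψ i k * X k j +
          ∑ i, ∑ j, X i j * ∑ k, X i k * tens ψ k j) := by
    rw [← Finset.sum_add_distrib, Finset.mul_sum]
    refine Finset.sum_congr rfl fun i _ => ?_
    rw [← Finset.sum_add_distrib, Finset.mul_sum]
    refine Finset.sum_congr rfl fun j _ => ?_
    ring
  rw [e, h1, h2]
  ring

lemma Jop_zero_smul (b : ℝ) (S X : ι → ι → ℝ) : Jop (b • S) 0 X = b • Jop S 0 X := by
  have h := (jordanCLM (ι := ι)).map_smul b S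
  have h2 := congrArg (fun T : (ι → ι → ℝ) →L[ℝ] (ι → ι → ℝ) => T X) h
  simpa only [jordanCLM_eq, smul_apply] using h2

lemma dpair_smul_right (b : ℝ) (X Y : ι → ι → ℝ) : dpair X (b • Y) = b * dpair X Y := by
  simp only [dpair, Pi.smul_apply, smul_eq_mul, Finset.mul_sum]
  exact Finset.sum_congr rfl fun i _ => Finset.sum_congr rfl fun j _ => by ring

/-- JOB D3. Derivative of `q = ⟨ψ, Y ψ⟩`, `Y = (J_M + t)⁻¹ ψψᵀ`. Let `Y = Ysol (M x) t (Ψ x)`, `ξ = xi Y (Ψ x)`,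
`Y'` the derivative of `s ↦ Ysol (M s) t (Ψ s)` from D1, D2. With `L Y' = (ψψᵀ)' - J_{M'} Y`, `M' = b ψψᵀ`,
`L` symmetric for the entrywise dot product, `Y` symmetric (A2):
`q' = ⟨(ψψᵀ)', Y⟩ + ⟨ψψᵀ, Y'⟩ = ⟨(ψψᵀ)', Y⟩ + ⟨L Y, Y'⟩ = ⟨(ψψᵀ)', Y⟩ + ⟨Y, L Y'⟩`
`= 2 ⟨(ψψᵀ)', Y⟩ - b ⟨Y, J_{ψψᵀ} Y⟩ = 4 ⟨ψ', ξ⟩ - b |ξ|²`,
since `⟨(ψψᵀ)', Y⟩ = 2 ⟨ψ', ξ⟩` and `⟨Y, J_{ψψᵀ} Y⟩ = |ξ|²` for symmetric `Y`. -/
theorem hasDerivAt_q {M : ℝ → ι → ι → ℝ} {Ψ : ℝ → ι → ℝ} {ψ' : ι → ℝ} {b t x : ℝ}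
    (hM : HasDerivAt M (b • tens (Ψ x)) x) (hΨ : HasDerivAt Ψ ψ' x)
    (hu : IsUnit (Jop (M x) t)) (hs : ∀ a c, M x a c = M x c a) :
    HasDerivAt (fun s => ∑ i, Ψ s i * xi (Ysol (M s) t (Ψ s)) (Ψ s) i)
      (4 * ∑ i, ψ' i * xi (Ysol (M x) t (Ψ x)) (Ψ x) i -
        b * ∑ i, xi (Ysol (M x) t (Ψ x)) (Ψ x) i ^ 2) x := by
  have hΨi : ∀ i, HasDerivAt (fun s => Ψ s i) (ψ' i) x := hasDerivAt_pi.1 hΨ
  have hS : HasDerivAt (fun t => tens (Ψ t)) (fun i j => ψ' i * Ψ x j + Ψ x i * ψ' j) x :=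
    hasDerivAt_of_entry fun i j => (hΨi i).mul (hΨi j)
  have hY : HasDerivAt (fun s => Ysol (M s) t (Ψ s))
      (Ring.inverse (Jop (M x) t) ((fun i j => ψ' i * Ψ x j + Ψ x i * ψ' j) -
        Jop (b • tens (Ψ x)) 0 (Ring.inverse (Jop (M x) t) (tens (Ψ x))))) x :=
    hasDerivAt_inverse_apply (hasDerivAt_Jop t hM) hS hu
  have h := hasDerivAt_dpair hS hY
  have efun : (fun s => ∑ i, Ψ s i * xi (Ysol (M s) t (Ψ s)) (Ψ s) i) =
      fun s => dpair (tens (Ψ s)) (Ysol (M s) t (Ψ s)) := by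
    funext s
    exact (dpair_tens _ _).symm
  rw [efun]
  refine h.congr_deriv ?_
  have hYdef : Ring.inverse (Jop (M x) t) (tens (Ψ x)) = Ysol (M x) t (Ψ x) := rfl
  rw [hYdef]
  set X := Ysol (M x) t (Ψ x) with hX
  have hXs : ∀ i j, X i j = X j i :=
    inv_symm hs hu (fun i j => mul_comm _ _)
  have e0 : dpair (tens (Ψ x)) (Ring.inverse (Jop (M x) t) ((fun i j => ψ' i * Ψ x j + Ψ x i * ψ' j) -
        Jop (b • tens (Ψ x)) 0 X)) = dpair X ((fun i j => ψ' i * Ψ x j + Ψ x i * ψ' j) -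
        Jop (b • tens (Ψ x)) 0 X) := (dpair_inv hs hu _ _).symm
  have e2 : dpair X ((fun i j => ψ' i * Ψ x j + Ψ x i * ψ' j) - Jop (b • tens (Ψ x)) 0 X)
      = dpair X (fun i j => ψ' i * Ψ x j + Ψ x i * ψ' j) - dpair X (Jop (b • tens (Ψ x)) 0 X) := by
    simp only [dpair, Pi.sub_apply, mul_sub, Finset.sum_sub_distrib]
  have e1 : dpair (fun i j => ψ' i * Ψ x j + Ψ x i * ψ' j) X = 2 * ∑ i, ψ' i * xi X (Ψ x) i := by
    have e2 : ∑ i, ∑ j, Ψ x i * ψ' j * X i j = ∑ i, ∑ j, ψ' i * Ψ x j * X i j := by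
      rw [Finset.sum_comm]
      refine Finset.sum_congr rfl fun i _ => Finset.sum_congr rfl fun j _ => ?_
      rw [hXs j i]
      ring
    have e3 : ∑ i, ∑ j, ψ' i * Ψ x j * X i j = ∑ i, ψ' i * xi X (Ψ x) i := by
      simp only [xi, Finset.mul_sum]
      exact Finset.sum_congr rfl fun i _ => Finset.sum_congr rfl fun j _ => by ring
    simp only [dpair, add_mul, Finset.sum_add_distrib]
    rw [e2, e3]
    ring
  rw [e0, e2, dpair_comm X _, e1, Jop_zero_smul, dpair_smul_right, dpair_jordan_tens _ hXs]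
  ring

end Vale.Agent.Lib.P371.Sharp
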