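import Vale.Agent.Lib.P371.Sharp.Defs

open Real

namespace Vale.Agent.Lib.P371.Sharp

variable {ι : Type*} [Fintype ι] [DecidableEq ι]

/-- An orthonormal eigenbasis: `U a α` = component `a` of the eigenvector number `α`. -/
structure EigenData (M : ι → ι → ℝ) (η : ℝ) where
  U : ι → ι → ℝ
  lam : ι → ℝ
  orth_col : ∀ α β, ∑ a, U a α * U a β = if α = β then 1 else 0
  orth_row : ∀ a b, ∑ α, U a α * U b α = if a = b then 1 else 0
  eig : ∀ a β, ∑ c, M a c * U c β = lam β * U a β
  lam_mem : ∀ β, lam β ∈ Set.Icc η (π - η)

/-- JOB E0. From the spectral theorem for the symmetric matrix `Matrix.of M`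
(`Matrix.IsHermitian.eigenvectorBasis`, `eigenvalues`), `lam β` is the Rayleigh quotient of the
unit eigenvector number `β`. -/
theorem exists_eigen {M : ι → ι → ℝ} {η : ℝ} (h : Band M η) : Nonempty (EigenData M η) := by
  classical
  let A : Matrix ι ι ℝ := Matrix.of M
  have hA : A.IsHermitian := by
    ext a b
    simp [A, Matrix.conjTranspose_apply, h.symm b a]
  let U : ι → ι → ℝ := fun a α => (hA.eigenvectorBasis α) a
  have hcol : ∀ α β, ∑ a, U a α * U a β = if α = β then 1 else 0 := by
    intro α β
    have h1 := (orthonormal_iff_ite.mp hA.eigenvectorBasis.orthonormal) α β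
    rw [PiLp.inner_apply] at h1
    simp only [RCLike.inner_apply, conj_trivial] at h1
    rw [← h1]
    refine Finset.sum_congr rfl fun a _ => ?_
    exact mul_comm _ _
  have hrow : ∀ a b, ∑ α, U a α * U b α = if a = b then 1 else 0 := by
    let B : Matrix ι ι ℝ := Matrix.of U
    have h1 : B.transpose * B = 1 := by
      ext α β
      simp only [Matrix.mul_apply, Matrix.transpose_apply, B, Matrix.of_apply, Matrix.one_apply]
      exact hcol α β
    have h2 : B * B.transpose = 1 := mul_eq_one_comm.mp h1
    intro a b
    have h3 := congrFun (congrFun h2 a) b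
    simpa only [Matrix.mul_apply, Matrix.transpose_apply, B, Matrix.of_apply, Matrix.one_apply]
      using h3
  have heig : ∀ a β, ∑ c, M a c * U c β = hA.eigenvalues β * U a β := by
    intro a β
    have h1 := hA.mulVec_eigenvectorBasis β
    have h2 := congrFun h1 a
    simpa only [Matrix.mulVec, dotProduct, A, Matrix.of_apply, Pi.smul_apply, smul_eq_mul] using h2
  refine ⟨⟨U, hA.eigenvalues, hcol, hrow, heig, ?_⟩⟩
  intro β
  have hunit : ∑ i, (fun a => U a β) i ^ 2 = 1 := by
    have := hcol β β
    simp only [if_true] at this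
    simpa [sq] using this
  have hq : ∑ a, ∑ b, (fun a => U a β) a * M a b * (fun a => U a β) b = hA.eigenvalues β := by
    have h1 : ∀ a, ∑ b, U a β * M a b * U b β = hA.eigenvalues β * (U a β * U a β) := by
      intro a
      have : ∑ b, U a β * M a b * U b β = U a β * ∑ b, M a b * U b β := by
        rw [Finset.mul_sum]
        exact Finset.sum_congr rfl fun b _ => by ring
      rw [this, heig]
      ring
    simp only [h1]
    rw [← Finset.mul_sum, hcol β β]
    simp
  have hl := h.lower _ hunit
  have hu := h.upper _ hunit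
  rw [hq] at hl hu
  exact ⟨hl, hu⟩

end Vale.Agent.Lib.P371.Sharp
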