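import Vale.Agent.Lib.P371.Sharp.Line
import Vale.Agent.Lib.P371.Defs

open Set MeasureTheory Real

namespace Vale.Agent.Lib.P371.Sharp

open Vale.Agent.Lib.P371.Cal

private lemma intervalIntegrable_of_memLp {f : ℝ → ℂ} (h : MemLp f 2 volume) (a b : ℝ) :
    IntervalIntegrable f volume a b := by
  rw [intervalIntegrable_iff]
  have : IsFiniteMeasure (volume.restrict (Set.uIoc a b)) :=
    ⟨by simp [Measure.restrict_apply, Set.uIoc, Real.volume_Ioc, ENNReal.ofReal_lt_top]⟩
  exact (h.restrict (Set.uIoc a b)).integrable (by norm_num)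

/-- From `IsH1` to real and imaginary parts. -/
lemma rh1_re {f f' : ℝ → ℂ} (h : Vale.Agent.Lib.P371.IsH1 f f') :
    RH1 (fun x => (f x).re) (fun x => (f' x).re) := by
  refine ⟨h.memLp.re, h.memLp_deriv.re, fun a b => ?_⟩
  have h1 := Complex.reCLM.intervalIntegral_comp_comm (intervalIntegrable_of_memLp h.memLp_deriv a b)
  have h2 := h.primitive a b
  simp only [Complex.reCLM_apply] at h1
  rw [h1, h2, Complex.sub_re]

lemma rh1_im {f f' : ℝ → ℂ} (h : Vale.Agent.Lib.P371.IsH1 f f') :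
    RH1 (fun x => (f x).im) (fun x => (f' x).im) := by
  refine ⟨h.memLp.im, h.memLp_deriv.im, fun a b => ?_⟩
  have h1 := Complex.imCLM.intervalIntegral_comp_comm (intervalIntegrable_of_memLp h.memLp_deriv a b)
  have h2 := h.primitive a b
  simp only [Complex.imCLM_apply] at h1
  rw [h1, h2, Complex.sub_im]

/-- The Gram bound for real and imaginary parts of an orthonormal family: with
`z_j = e_{j,false} - i e_{j,true}`, `∑ e_i Φ_i = Re (∑ z_j ψ_j)`, so its integral of squares is at most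
`∫ |∑ z_j ψ_j|² = ∑ |z_j|² = 1`. -/
lemma gram_of_orthonormal {N : ℕ} {ψ ψ' : Fin N → ℝ → ℂ}
    (hH : ∀ j, Vale.Agent.Lib.P371.IsH1 (ψ j) (ψ' j))
    (horth : ∀ j k, ∫ x, star (ψ j x) * ψ k x = if j = k then 1 else 0)
    (e : Fin N × Bool → ℝ) (he : ∑ i, e i ^ 2 = 1) :
    ∫ x, (∑ i, e i * (if i.2 then (ψ i.1 x).im else (ψ i.1 x).re)) ^ 2 ≤ 1 := by
  classical
  let z : Fin N → ℂ := fun j => (e (j, false) : ℂ) - Complex.I * (e (j, true) : ℂ)
  let F : ℝ → ℂ := fun x => ∑ j, z j * ψ j x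
  have hsum : ∀ x, (∑ i, e i * (if i.2 then (ψ i.1 x).im else (ψ i.1 x).re)) = (F x).re := by
    intro x
    simp only [F, Complex.re_sum, Fintype.sum_prod_type, Fintype.sum_bool, if_true,
      Bool.false_eq_true, if_false]
    refine Finset.sum_congr rfl fun j _ => ?_
    simp [z, Complex.mul_re, Complex.sub_re, Complex.sub_im, Complex.ofReal_re, Complex.ofReal_im]
    ring
  have hI : ∀ j k, Integrable fun x => star (ψ j x) * ψ k x := by
    intro j k
    have h1 := (hH j).memLp.star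
    exact h1.integrable_mul (hH k).memLp
  have hexp : ∀ x, ((‖F x‖ ^ 2 : ℝ) : ℂ)
      = ∑ j, ∑ k, (star (z j) * z k) * (star (ψ j x) * ψ k x) := by
    intro x
    have h1 : ((‖F x‖ ^ 2 : ℝ) : ℂ) = star (F x) * F x := by
      rw [Complex.star_def, Complex.conj_mul']
      push_cast
      rfl
    rw [h1]
    simp only [F, star_sum, star_mul', Finset.sum_mul, Finset.mul_sum]
    rw [Finset.sum_comm]
    refine Finset.sum_congr rfl fun j _ => Finset.sum_congr rfl fun k _ => ?_
    ring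
  have hFint : Integrable fun x => ((‖F x‖ ^ 2 : ℝ) : ℂ) := by
    simp only [hexp]
    refine integrable_finsetSum _ fun j _ => integrable_finsetSum _ fun k _ => ?_
    exact (hI j k).const_mul _
  have hFint' : Integrable fun x => ‖F x‖ ^ 2 := by
    have := hFint.re
    simpa only [RCLike.re_to_complex, Complex.ofReal_re] using this
  have hval : ((∫ x, ‖F x‖ ^ 2 : ℝ) : ℂ) = 1 := by
    rw [← integral_complex_ofReal]
    simp only [hexp]
    rw [integral_finsetSum]
    · have : ∀ j, ∫ x, ∑ k, (star (z j) * z k) * (star (ψ j x) * ψ k x)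
          = star (z j) * z j := by
        intro j
        rw [integral_finsetSum _ (fun k _ => (hI j k).const_mul _)]
        simp only [integral_const_mul, horth]
        simp
      simp only [this]
      have h2 : ∀ j, star (z j) * z j = ((e (j, false) ^ 2 + e (j, true) ^ 2 : ℝ) : ℂ) := by
        intro j
        apply Complex.ext <;> simp [z, pow_two]
        ring
      simp only [h2]
      rw [← Complex.ofReal_sum]
      have h3 : ∑ j, (e (j, false) ^ 2 + e (j, true) ^ 2) = 1 := by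
        rw [← he, Fintype.sum_prod_type]
        simp only [Fintype.sum_bool]
        exact Finset.sum_congr rfl fun j _ => by ring
      rw [h3]
      simp
    · intro j _
      exact integrable_finsetSum _ fun k _ => (hI j k).const_mul _
  have hval' : ∫ x, ‖F x‖ ^ 2 = 1 := by exact_mod_cast hval
  rw [← hval']
  simp only [hsum]
  refine integral_mono_of_nonneg (Filter.Eventually.of_forall fun x => sq_nonneg _) hFint'
    (Filter.Eventually.of_forall fun x => ?_)
  exact sq_le_sq' (by linarith [Complex.abs_re_le_norm (F x), neg_abs_le (F x).re])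
    ((le_abs_self _).trans (Complex.abs_re_le_norm (F x)))

/-- The trial state form of the Lieb-Thirring inequality at `γ = 1` for scalar potentials, with the
constant coming from the dual inequality (`dual_line` with `b = 2 C`) and Young's inequality
`w ρ ≤ 2 / (3 √3 C) w^{3/2} + C² ρ³`. -/
theorem scalar_bound {C : ℝ} (hC : 0 < C) (hCD : C < (π / 2)) {N : ℕ}
    (W : ℝ → ℝ) (hW : ∀ x, 0 ≤ W x) (hWm : Measurable W)
    (hWi : Integrable fun x => W x ^ (3 / 2 : ℝ))
    (ψ ψ' : Fin N → ℝ → ℂ) (hH : ∀ j, Vale.Agent.Lib.P371.IsH1 (ψ j) (ψ' j))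
    (horth : ∀ j k, ∫ x, star (ψ j x) * ψ k x = if j = k then 1 else 0) :
    (∀ j, Integrable fun x => W x * ‖ψ j x‖ ^ 2) ∧
      ∑ j, ((∫ x, W x * ‖ψ j x‖ ^ 2) - ∫ x, ‖ψ' j x‖ ^ 2) ≤
        2 / (3 * √3 * C) * ∫ x, W x ^ (3 / 2 : ℝ) := by
  classical
  have hC0 : (0:ℝ) < 2 * C := by positivity
  -- the real family
  let Φ : Fin N × Bool → ℝ → ℝ := fun i x => if i.2 then (ψ i.1 x).im else (ψ i.1 x).re
  let Φ' : Fin N × Bool → ℝ → ℝ := fun i x => if i.2 then (ψ' i.1 x).im else (ψ' i.1 x).re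
  have hR : ∀ i, RH1 (Φ i) (Φ' i) := by
    rintro ⟨j, b⟩
    cases b
    · simpa [Φ, Φ'] using rh1_re (hH j)
    · simpa [Φ, Φ'] using rh1_im (hH j)
  have hG : ∀ e : Fin N × Bool → ℝ, ∑ i, e i ^ 2 = 1 → ∫ x, (∑ i, e i * Φ i x) ^ 2 ≤ 1 :=
    fun e he => gram_of_orthonormal hH horth e he
  obtain ⟨hi3, hd⟩ := dual_line Φ Φ' hR hG (b := 2 * C) hC0 (by linarith)
  set ρ : ℝ → ℝ := fun x => ∑ j, ‖ψ j x‖ ^ 2 with hρdef
  set κ : ℝ → ℝ := fun x => ∑ j, ‖ψ' j x‖ ^ 2 with hκdef
  have hsq : ∀ z : ℂ, z.re ^ 2 + z.im ^ 2 = ‖z‖ ^ 2 := by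
    intro z
    rw [Complex.sq_norm, Complex.normSq_apply]
    ring
  have hρe : ∀ x, ∑ i, Φ i x ^ 2 = ρ x := by
    intro x
    simp only [Φ, hρdef, Fintype.sum_prod_type, Fintype.sum_bool, if_true, Bool.false_eq_true,
      if_false]
    exact Finset.sum_congr rfl fun j _ => by rw [← hsq]; ring
  have hκe : ∀ x, ∑ i, Φ' i x ^ 2 = κ x := by
    intro x
    simp only [Φ', hκdef, Fintype.sum_prod_type, Fintype.sum_bool, if_true, Bool.false_eq_true,
      if_false]
    exact Finset.sum_congr rfl fun j _ => by rw [← hsq]; ring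
  simp only [hρe, hκe] at hi3 hd
  have hρ0 : ∀ x, 0 ≤ ρ x := fun x => Finset.sum_nonneg fun _ _ => by positivity
  have hle : ∀ j x, ‖ψ j x‖ ^ 2 ≤ ρ x := fun j x =>
    Finset.single_le_sum (f := fun j => ‖ψ j x‖ ^ 2) (fun _ _ => by positivity) (Finset.mem_univ j)
  set c := 2 / (3 * √3 * C) with hc
  have hs3 : √3 ^ 2 = 3 := Real.sq_sqrt (by norm_num)
  have hs0 : 0 < √3 := by positivity
  have hc0 : 0 < c := by positivity
  -- Young
  have young : ∀ x, W x * ρ x ≤ c * W x ^ (3 / 2 : ℝ) + C ^ 2 * ρ x ^ 3 := by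
    intro x
    have e1 : W x ^ (3 / 2 : ℝ) = √(W x) ^ 3 := by
      rw [Real.sqrt_eq_rpow, ← Real.rpow_natCast, ← Real.rpow_mul (hW x)]
      norm_num
    rw [e1]
    set t := √(W x) with ht
    have ht0 : 0 ≤ t := Real.sqrt_nonneg _
    have e2 : W x = t ^ 2 := (Real.sq_sqrt (hW x)).symm
    rw [e2]
    set r := √3 * C * ρ x with hr
    have hr0 : 0 ≤ r := by have := hρ0 x; positivity
    have hpoly : 3 * t ^ 2 * r ≤ 2 * t ^ 3 + r ^ 3 := by
      nlinarith [mul_nonneg (sq_nonneg (t - r)) (by linarith : 0 ≤ 2 * t + r)]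
    have e3 : c * t ^ 3 + C ^ 2 * ρ x ^ 3 - t ^ 2 * ρ x
        = (2 * t ^ 3 + r ^ 3 - 3 * t ^ 2 * r) / (3 * √3 * C) := by
      rw [hc, hr]
      field_simp
      ring_nf
      have : √3 ^ 3 = √3 ^ 2 * √3 := by ring
      rw [this, hs3]
      ring
    have e4 : 0 ≤ (2 * t ^ 3 + r ^ 3 - 3 * t ^ 2 * r) / (3 * √3 * C) :=
      div_nonneg (by linarith) (by positivity)
    linarith
  have hdom : Integrable fun x => c * W x ^ (3 / 2 : ℝ) + C ^ 2 * ρ x ^ 3 :=
    (hWi.const_mul c).add (hi3.const_mul _)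
  have hint : ∀ j, Integrable fun x => W x * ‖ψ j x‖ ^ 2 := by
    intro j
    refine hdom.mono' ?_ (Filter.Eventually.of_forall fun x => ?_)
    · exact hWm.aestronglyMeasurable.mul ((hH j).memLp.aestronglyMeasurable.norm.pow 2)
    · have h1 := hW x
      have h2 := hle j x
      rw [Real.norm_eq_abs, abs_of_nonneg (by positivity)]
      exact (mul_le_mul_of_nonneg_left h2 h1).trans (young x)
  refine ⟨hint, ?_⟩
  have hkin : ∀ j, Integrable fun x => ‖ψ' j x‖ ^ 2 := fun j =>
    (hH j).memLp_deriv.integrable_norm_pow (by norm_num)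
  have hWρ : Integrable fun x => W x * ρ x := by
    have : (fun x => W x * ρ x) = fun x => ∑ j, W x * ‖ψ j x‖ ^ 2 := by
      funext x
      rw [hρdef, Finset.mul_sum]
    rw [this]
    exact integrable_finsetSum _ fun j _ => hint j
  have e5 : ∑ j, ((∫ x, W x * ‖ψ j x‖ ^ 2) - ∫ x, ‖ψ' j x‖ ^ 2)
      = (∫ x, W x * ρ x) - ∫ x, κ x := by
    rw [Finset.sum_sub_distrib]
    congr 1
    · rw [← integral_finsetSum _ fun j _ => hint j]
      refine integral_congr_ae (Filter.Eventually.of_forall fun x => ?_)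
      simp only [hρdef, Finset.mul_sum]
    · rw [← integral_finsetSum _ fun j _ => hkin j]
  rw [e5]
  have e6 : ∫ x, W x * ρ x ≤ ∫ x, c * W x ^ (3 / 2 : ℝ) + C ^ 2 * ρ x ^ 3 :=
    integral_mono hWρ hdom young
  rw [integral_add (hWi.const_mul c) (hi3.const_mul _), integral_const_mul, integral_const_mul] at e6
  have e7 : (2 * C) ^ 2 / 4 = C ^ 2 := by ring
  rw [e7] at hd
  linarith

end Vale.Agent.Lib.P371.Sharp
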