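import Mathlib

/-!
Positive semidefinite kernels built from Euler's sine product, and the matrix inequality `T ≤ 0`
behind the sharp calibration for matrix potentials.
-/

open Real Filter Topology

namespace Vale.Agent.Lib.P371.Sharp

variable {ι : Type*} [Fintype ι]

/-- A positive semidefinite real kernel on a finite set. -/
def PSDK (f : ι → ι → ℝ) : Prop :=
  (∀ i j, f i j = f j i) ∧ ∀ c : ι → ℝ, 0 ≤ ∑ i, ∑ j, c i * c j * f i j

lemma psdk_iff_posSemidef (f : ι → ι → ℝ) : PSDK f ↔ (Matrix.of f).PosSemidef := by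
  rw [Matrix.posSemidef_iff_dotProduct_mulVec]
  constructor
  · rintro ⟨h1, h2⟩
    refine ⟨?_, fun x => ?_⟩
    · ext i j
      simp [Matrix.conjTranspose_apply, h1 j i]
    · have := h2 x
      have e : star x ⬝ᵥ (Matrix.of f).mulVec x = ∑ i, ∑ j, x i * x j * f i j := by
        simp only [dotProduct, Matrix.mulVec, Pi.star_apply, star_trivial, Matrix.of_apply,
          Finset.mul_sum]
        exact Finset.sum_congr rfl fun i _ => Finset.sum_congr rfl fun j _ => by ring
      rw [e]; exact this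
  · rintro ⟨h1, h2⟩
    refine ⟨fun i j => ?_, fun x => ?_⟩
    · have := congrFun (congrFun h1 j) i
      simpa [Matrix.conjTranspose_apply] using this
    · have := h2 x
      have e : star x ⬝ᵥ (Matrix.of f).mulVec x = ∑ i, ∑ j, x i * x j * f i j := by
        simp only [dotProduct, Matrix.mulVec, Pi.star_apply, star_trivial, Matrix.of_apply,
          Finset.mul_sum]
        exact Finset.sum_congr rfl fun i _ => Finset.sum_congr rfl fun j _ => by ring
      rw [← e]; exact this

lemma PSDK.mul {f g : ι → ι → ℝ} (hf : PSDK f) (hg : PSDK g) :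
    PSDK (fun i j => f i j * g i j) := by
  classical
  rw [psdk_iff_posSemidef] at hf hg ⊢
  exact Matrix.PosSemidef.hadamard hf hg

lemma PSDK.add {f g : ι → ι → ℝ} (hf : PSDK f) (hg : PSDK g) :
    PSDK (fun i j => f i j + g i j) := by
  refine ⟨fun i j => by show f i j + g i j = f j i + g j i; rw [hf.1 i j, hg.1 i j], fun c => ?_⟩
  have : ∑ i, ∑ j, c i * c j * (f i j + g i j) =
      ∑ i, ∑ j, c i * c j * f i j + ∑ i, ∑ j, c i * c j * g i j := by
    rw [← Finset.sum_add_distrib]
    refine Finset.sum_congr rfl fun i _ => ?_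
    rw [← Finset.sum_add_distrib]
    exact Finset.sum_congr rfl fun j _ => by ring
  rw [this]
  exact add_nonneg (hf.2 c) (hg.2 c)

lemma PSDK.smul {f : ι → ι → ℝ} (hf : PSDK f) {a : ℝ} (ha : 0 ≤ a) :
    PSDK (fun i j => a * f i j) := by
  refine ⟨fun i j => by show a * f i j = a * f j i; rw [hf.1 i j], fun c => ?_⟩
  have : ∑ i, ∑ j, c i * c j * (a * f i j) = a * ∑ i, ∑ j, c i * c j * f i j := by
    rw [Finset.mul_sum]
    refine Finset.sum_congr rfl fun i _ => ?_
    rw [Finset.mul_sum]
    exact Finset.sum_congr rfl fun j _ => by ring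
  rw [this]
  exact mul_nonneg ha (hf.2 c)

lemma PSDK.rankOne (v : ι → ℝ) : PSDK (fun i j => v i * v j) := by
  refine ⟨fun i j => mul_comm _ _, fun c => ?_⟩
  have : ∑ i, ∑ j, c i * c j * (v i * v j) = (∑ i, c i * v i) ^ 2 := by
    rw [sq, Finset.sum_mul_sum]
    exact Finset.sum_congr rfl fun i _ => Finset.sum_congr rfl fun j _ => by ring
  rw [this]
  exact sq_nonneg _

lemma PSDK.const_one : PSDK (fun _ _ : ι => (1 : ℝ)) := by
  simpa using PSDK.rankOne (fun _ : ι => (1 : ℝ))

lemma PSDK.limit {F : ℕ → ι → ι → ℝ} {f : ι → ι → ℝ} (hF : ∀ n, PSDK (F n))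
    (hlim : ∀ i j, Tendsto (fun n => F n i j) atTop (𝓝 (f i j))) : PSDK f := by
  refine ⟨fun i j => ?_, fun c => ?_⟩
  · refine tendsto_nhds_unique (hlim i j) ?_
    refine (hlim j i).congr fun n => ?_
    exact (hF n).1 j i
  · have h : Tendsto (fun n => ∑ i, ∑ j, c i * c j * F n i j) atTop
        (𝓝 (∑ i, ∑ j, c i * c j * f i j)) := by
      refine tendsto_finsetSum _ fun i _ => tendsto_finsetSum _ fun j _ => ?_
      exact (hlim i j).const_mul _
    exact ge_of_tendsto' h fun n => (hF n).2 c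

/-- The Cauchy kernel. -/
lemma PSDK.cauchy {p : ι → ℝ} (hp : ∀ i, 0 < p i) : PSDK (fun i j => 1 / (p i + p j)) := by
  refine ⟨fun i j => by show 1 / (p i + p j) = 1 / (p j + p i); rw [add_comm], fun c => ?_⟩
  let u : ι → ℝ := fun i => (p i - 1) / (p i + 1)
  let v : ι → ℝ := fun i => 2 / (p i + 1)
  have hu : ∀ i, |u i| < 1 := by
    intro i
    have h1 : 0 < p i + 1 := by linarith [hp i]
    rw [abs_lt]
    constructor
    · show -1 < (p i - 1) / (p i + 1)
      rw [lt_div_iff₀ h1]; linarith [hp i]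
    · show (p i - 1) / (p i + 1) < 1
      rw [div_lt_one h1]; linarith
  have key : ∀ i j, HasSum (fun k : ℕ => c i * c j * ((1 / 2) * (v i * u i ^ k) * (v j * u j ^ k)))
      (c i * c j * (1 / (p i + p j))) := by
    intro i j
    have huu : |u i * u j| < 1 := by
      rw [abs_mul]
      have := abs_nonneg (u j)
      nlinarith [hu i, hu j, abs_nonneg (u i)]
    have h0 := hasSum_geometric_of_abs_lt_one huu
    have h1 := h0.mul_left (c i * c j * ((1 / 2) * v i * v j))
    have e1 : (fun k : ℕ => c i * c j * ((1 / 2) * (v i * u i ^ k) * (v j * u j ^ k))) =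
        fun k : ℕ => c i * c j * ((1 / 2) * v i * v j) * (u i * u j) ^ k := by
      funext k
      rw [mul_pow]
      ring
    have e2 : c i * c j * (1 / (p i + p j)) =
        c i * c j * ((1 / 2) * v i * v j) * (1 - u i * u j)⁻¹ := by
      have h2 : 0 < p i + 1 := by linarith [hp i]
      have h3 : 0 < p j + 1 := by linarith [hp j]
      have h4 : 0 < p i + p j := by linarith [hp i, hp j]
      have h5 : 1 - u i * u j = 2 * (p i + p j) / ((p i + 1) * (p j + 1)) := by
        simp only [u]
        field_simp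
        ring
      rw [h5]
      simp only [v]
      field_simp
    rw [e1, e2]
    exact h1
  have hsum := hasSum_sum (s := Finset.univ) fun i _ =>
    hasSum_sum (s := Finset.univ) fun j _ => key i j
  refine hsum.nonneg fun k => ?_
  have : ∑ i, ∑ j, c i * c j * ((1 / 2) * (v i * u i ^ k) * (v j * u j ^ k)) =
      (1 / 2) * (∑ i, c i * (v i * u i ^ k)) ^ 2 := by
    rw [sq, Finset.sum_mul_sum, Finset.mul_sum]
    refine Finset.sum_congr rfl fun i _ => ?_
    rw [Finset.mul_sum]
    exact Finset.sum_congr rfl fun j _ => by ring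
  rw [this]
  positivity

section Hankel

variable {x : ι → ℝ}

/-- A factor of the product formula, first kind. -/
lemma factor_minus {b A : ℝ} (hb0 : 0 ≤ b) (hb1 : b ≤ 1) (hA : 0 < A) (hx : ∀ i, x i < A) :
    PSDK (fun i j => (A - b * ((x i + x j) / 2)) / (A - (x i + x j) / 2)) := by
  have h1 : PSDK (fun i j => 1 / ((A - x i) / 2 + (A - x j) / 2)) :=
    PSDK.cauchy fun i => by linarith [hx i]
  have h2 := (PSDK.const_one (ι := ι)).smul hb0 |>.add
    (h1.smul (a := (1 - b) * A) (mul_nonneg (by linarith) hA.le))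
  convert h2 using 3 with i j
  have h3 : A - (x i + x j) / 2 ≠ 0 := by
    have := hx i; have := hx j
    apply ne_of_gt; linarith
  have h4 : (A - x i) / 2 + (A - x j) / 2 = A - (x i + x j) / 2 := by ring
  rw [h4]
  generalize (x i + x j) / 2 = m at h3
  field_simp
  ring

/-- A factor of the product formula, second kind. -/
lemma factor_plus {b A : ℝ} (hb0 : 0 ≤ b) (hb1 : b ≤ 1) (hA : 0 < A) (hx : ∀ i, -A < x i) :
    PSDK (fun i j => (A + b * ((x i + x j) / 2)) / (A + (x i + x j) / 2)) := by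
  have h1 : PSDK (fun i j => 1 / ((A + x i) / 2 + (A + x j) / 2)) :=
    PSDK.cauchy fun i => by linarith [hx i]
  have h2 := (PSDK.const_one (ι := ι)).smul hb0 |>.add
    (h1.smul (a := (1 - b) * A) (mul_nonneg (by linarith) hA.le))
  convert h2 using 3 with i j
  have h3 : A + (x i + x j) / 2 ≠ 0 := by
    have := hx i; have := hx j
    apply ne_of_gt; linarith
  have h4 : (A + x i) / 2 + (A + x j) / 2 = A + (x i + x j) / 2 := by ring
  rw [h4]
  generalize (x i + x j) / 2 = m at h3
  field_simp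
  ring

/-- The finite products. -/
noncomputable def prodK (b : ℝ) (x : ι → ℝ) (n : ℕ) (i j : ι) : ℝ :=
  b * ∏ k ∈ Finset.range n,
    (((k + 1 : ℝ) * π - b * ((x i + x j) / 2)) / ((k + 1 : ℝ) * π - (x i + x j) / 2) *
      (((k + 1 : ℝ) * π + b * ((x i + x j) / 2)) / ((k + 1 : ℝ) * π + (x i + x j) / 2)))

lemma prodK_psdk {b : ℝ} (hb0 : 0 ≤ b) (hb1 : b ≤ 1) (hx0 : ∀ i, 0 < x i) (hxp : ∀ i, x i < π)
    (n : ℕ) : PSDK (prodK b x n) := by
  induction n with
  | zero =>
    have := (PSDK.const_one (ι := ι)).smul hb0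
    have e : prodK b x 0 = fun (_ _ : ι) => b * 1 := by
      funext i j
      simp [prodK]
    rw [e]
    exact this
  | succ n ih =>
    have hA : 0 < (n + 1 : ℝ) * π := by positivity
    have hA' : π ≤ (n + 1 : ℝ) * π := by
      have : (1 : ℝ) ≤ n + 1 := by linarith [Nat.cast_nonneg (α := ℝ) n]
      nlinarith [pi_pos]
    have h1 := factor_minus (x := x) (b := b) (A := (n + 1 : ℝ) * π) hb0 hb1 hA
      (fun i => (hxp i).trans_le hA')
    have h2 := factor_plus (x := x) (b := b) (A := (n + 1 : ℝ) * π) hb0 hb1 hA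
      (fun i => by linarith [hx0 i])
    have h3 := (ih.mul h1).mul h2
    convert h3 using 2 with i j
    funext j'
    simp only [prodK, Finset.prod_range_succ]
    ring

lemma prodK_tendsto {b : ℝ} (hx0 : ∀ i, 0 < x i) (hxp : ∀ i, x i < π) (i j : ι) :
    Tendsto (fun n => prodK b x n i j) atTop
      (𝓝 (sin (b * ((x i + x j) / 2)) / sin ((x i + x j) / 2))) := by
  set m := (x i + x j) / 2 with hm
  have hm0 : 0 < m := by have := hx0 i; have := hx0 j; rw [hm]; linarith
  have hmp : m < π := by have := hxp i; have := hxp j; rw [hm]; linarith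
  have hsin : sin m ≠ 0 := (sin_pos_of_pos_of_lt_pi hm0 hmp).ne'
  have h1 := Real.tendsto_euler_sin_prod (b * m / π)
  have h2 := Real.tendsto_euler_sin_prod (m / π)
  have e1 : π * (b * m / π) = b * m := by field_simp
  have e2 : π * (m / π) = m := by field_simp
  rw [e1] at h1
  rw [e2] at h2
  have h3 := h1.div h2 hsin
  refine h3.congr fun n => ?_
  have hq : ∀ k : ℕ, (1 : ℝ) - (m / π) ^ 2 / ((k : ℝ) + 1) ^ 2 ≠ 0 := by
    intro k
    have hk : (1 : ℝ) ≤ (k : ℝ) + 1 := by linarith [Nat.cast_nonneg (α := ℝ) k]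
    have h5 : m / π < 1 := by rw [div_lt_one pi_pos]; exact hmp
    have h6 : 0 < m / π := div_pos hm0 pi_pos
    have h7 : (m / π) ^ 2 < 1 := by nlinarith
    have h8 : (1 : ℝ) ≤ ((k : ℝ) + 1) ^ 2 := by nlinarith
    have h9 : (m / π) ^ 2 / ((k : ℝ) + 1) ^ 2 < 1 := by
      rw [div_lt_one (by positivity)]; linarith
    linarith
  simp only [prodK, ← hm, Pi.div_apply]
  rw [mul_div_mul_comm, ← Finset.prod_div_distrib]
  have hb : b * m / m = b := by field_simp
  rw [hb]
  congr 1
  refine Finset.prod_congr rfl fun k _ => ?_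
  have hA : 0 < (k + 1 : ℝ) * π := by positivity
  have hA' : π ≤ (k + 1 : ℝ) * π := by
    have : (1 : ℝ) ≤ k + 1 := by linarith [Nat.cast_nonneg (α := ℝ) k]
    nlinarith [pi_pos]
  have h10 : (k + 1 : ℝ) * π - m ≠ 0 := by apply ne_of_gt; linarith
  have h11 : (k + 1 : ℝ) * π + m ≠ 0 := by apply ne_of_gt; linarith
  have hk1 : (k + 1 : ℝ) ≠ 0 := by positivity
  have hq' := hq k
  have e3 : (1 : ℝ) - (b * m / π) ^ 2 / ((k : ℝ) + 1) ^ 2 =
      ((k + 1 : ℝ) * π - b * m) * ((k + 1 : ℝ) * π + b * m) / ((k + 1 : ℝ) * π) ^ 2 := by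
    field_simp
    ring
  have e4 : (1 : ℝ) - (m / π) ^ 2 / ((k : ℝ) + 1) ^ 2 =
      ((k + 1 : ℝ) * π - m) * ((k + 1 : ℝ) * π + m) / ((k + 1 : ℝ) * π) ^ 2 := by
    field_simp
    ring
  rw [e3, e4]
  field_simp

/-- `sin (b m) / sin m`, `m = (x + y) / 2`, is a positive semidefinite kernel on `(0, π)`, for
`0 ≤ b ≤ 1`. -/
theorem hankel_sin {b : ℝ} (hb0 : 0 ≤ b) (hb1 : b ≤ 1) (hx0 : ∀ i, 0 < x i) (hxp : ∀ i, x i < π) :
    PSDK (fun i j => sin (b * ((x i + x j) / 2)) / sin ((x i + x j) / 2)) :=
  PSDK.limit (prodK_psdk hb0 hb1 hx0 hxp) (prodK_tendsto hx0 hxp)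

/-- `1 / sin m` is a positive semidefinite kernel. -/
theorem hankel_inv_sin (hx0 : ∀ i, 0 < x i) (hxp : ∀ i, x i < π) :
    PSDK (fun i j => 1 / sin ((x i + x j) / 2)) := by
  have hc : ∀ i, 0 < cos (x i / 2) := fun i =>
    cos_pos_of_mem_Ioo ⟨by linarith [hx0 i, pi_pos], by linarith [hxp i]⟩
  have hs : ∀ i, 0 < sin (x i / 2) := fun i =>
    sin_pos_of_pos_of_lt_pi (by linarith [hx0 i]) (by linarith [hxp i, pi_pos])
  have h1 : PSDK (fun i j => 1 / (tan (x i / 2) + tan (x j / 2))) :=
    PSDK.cauchy fun i => by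
      rw [tan_eq_sin_div_cos]; exact div_pos (hs i) (hc i)
  have h2 := h1.mul (PSDK.rankOne fun i => 1 / cos (x i / 2))
  convert h2 using 3 with i j
  have e : (x i + x j) / 2 = x i / 2 + x j / 2 := by ring
  rw [e, sin_add, tan_eq_sin_div_cos, tan_eq_sin_div_cos]
  have := (hc i).ne'
  have := (hc j).ne'
  have h3 : sin (x i / 2) * cos (x j / 2) + cos (x i / 2) * sin (x j / 2) ≠ 0 := by
    have := mul_pos (hs i) (hc j)
    have := mul_pos (hc i) (hs j)
    apply ne_of_gt; linarith
  have h4 : sin (x i / 2) / cos (x i / 2) + sin (x j / 2) / cos (x j / 2) ≠ 0 := by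
    have := div_pos (hs i) (hc i)
    have := div_pos (hs j) (hc j)
    apply ne_of_gt; linarith
  field_simp

/-- `sin (a z + b m) / sin m` with `a + b = 1`, `a, b ≥ 0`, `z ∈ (0, π)`, is a positive semidefinite
kernel in `m = (x + y) / 2`. -/
theorem hankel_shift {a b z : ℝ} (ha : 0 ≤ a) (hb : 0 ≤ b) (hab : a + b = 1) (hz0 : 0 < z)
    (hzp : z < π) (hx0 : ∀ i, 0 < x i) (hxp : ∀ i, x i < π) :
    PSDK (fun i j => sin (a * z + b * ((x i + x j) / 2)) / sin ((x i + x j) / 2)) := by
  rcases eq_or_lt_of_le hb with hb0 | hb0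
  · -- `b = 0`
    have ha1 : a = 1 := by linarith
    have h1 := (hankel_inv_sin hx0 hxp).smul (a := sin z)
      (sin_pos_of_pos_of_lt_pi hz0 hzp).le
    convert h1 using 3 with i j
    rw [← hb0, ha1]
    simp [div_eq_mul_inv]
  rcases eq_or_lt_of_le ha with ha0 | ha0
  · -- `a = 0`
    have hb1 : b = 1 := by linarith
    have h1 := hankel_sin (b := 1) zero_le_one le_rfl hx0 hxp
    convert h1 using 3 with i j
    rw [← ha0, hb1]
    simp
  -- the main case
  have hb1 : b < 1 := by linarith
  have hsb : 0 < sin (b * π) :=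
    sin_pos_of_pos_of_lt_pi (by positivity) (by nlinarith [pi_pos])
  have hc1 : 0 ≤ sin (b * π + a * z) / sin (b * π) := by
    refine div_nonneg (sin_pos_of_pos_of_lt_pi (by positivity) ?_).le hsb.le
    have : a * z < a * π := by nlinarith
    have : b * π + a * π = π := by rw [← add_mul, add_comm, hab, one_mul]
    linarith
  have hc2 : 0 ≤ sin (a * z) / sin (b * π) := by
    refine div_nonneg (sin_pos_of_pos_of_lt_pi (by positivity) ?_).le hsb.le
    nlinarith [pi_pos]
  have h1 := hankel_sin hb hb1.le hx0 hxp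
  have h2 := hankel_sin (x := fun i => π - x i) hb hb1.le
    (fun i => by linarith [hxp i]) (fun i => by linarith [hx0 i])
  have h3 := (h1.smul hc1).add (h2.smul hc2)
  convert h3 using 3 with i j
  set m := (x i + x j) / 2 with hm
  have hm' : (π - x i + (π - x j)) / 2 = π - m := by rw [hm]; ring
  rw [hm', sin_pi_sub]
  have hm0 : 0 < m := by have := hx0 i; have := hx0 j; rw [hm]; linarith
  have hmp : m < π := by have := hxp i; have := hxp j; rw [hm]; linarith
  have hsm : sin m ≠ 0 := (sin_pos_of_pos_of_lt_pi hm0 hmp).ne'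
  have e : sin (a * z + b * m) * sin (b * π) =
      sin (b * π + a * z) * sin (b * m) + sin (a * z) * sin (b * (π - m)) := by
    have : b * (π - m) = b * π - b * m := by ring
    rw [this, sin_add, sin_add, sin_sub]
    ring
  field_simp
  linear_combination e

end Hankel

/-- The weight `W(s, d) = (1/2) ∫_{-1/2}^{1/2} (1/4 - u²) sin (s + u d) du`. -/
noncomputable def Wk (s d : ℝ) : ℝ :=
  (1 / 2) * ∫ u in (-(1 / 2) : ℝ)..(1 / 2), (1 / 4 - u ^ 2) * sin (s + u * d)

lemma continuous_Wk_integrand (s d : ℝ) :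
    Continuous fun u : ℝ => (1 / 4 - u ^ 2) * sin (s + u * d) := by
  fun_prop

/-- The trapezoid identity: `(cos (d/2) - sinc (d/2)) sin s = - d² W(s, d)`. -/
lemma Wk_identity (s d : ℝ) : (cos (d / 2) - sinc (d / 2)) * sin s = -(d ^ 2) * Wk s d := by
  rcases eq_or_ne d 0 with rfl | hd
  · simp
  have hF : ∀ u ∈ Set.uIcc (-(1 / 2) : ℝ) (1 / 2), HasDerivAt
      (fun u : ℝ => -((1 / 4 - u ^ 2) * cos (s + u * d) / d) - 2 * u * sin (s + u * d) / d ^ 2
        - 2 * cos (s + u * d) / d ^ 3)
      ((1 / 4 - u ^ 2) * sin (s + u * d)) u := by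
    intro u _
    have h1 : HasDerivAt (fun u : ℝ => s + u * d) d u := by
      simpa using ((hasDerivAt_id u).mul_const d).const_add s
    have h2 : HasDerivAt (fun u : ℝ => cos (s + u * d)) (-sin (s + u * d) * d) u := h1.cos
    have h3 : HasDerivAt (fun u : ℝ => sin (s + u * d)) (cos (s + u * d) * d) u := h1.sin
    have h4 : HasDerivAt (fun u : ℝ => 1 / 4 - u ^ 2) (-(2 * u)) u := by
      exact ((hasDerivAt_pow 2 u).const_sub (1 / 4 : ℝ)).congr_deriv (by norm_num)
    have h5 := (((h4.mul h2).div_const d).neg.sub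
      ((((hasDerivAt_id' u).const_mul 2).mul h3).div_const (d ^ 2))).sub
      ((h2.const_mul 2).div_const (d ^ 3))
    refine h5.congr_deriv ?_
    field_simp
    ring
  have hint := intervalIntegral.integral_eq_sub_of_hasDerivAt hF
    ((continuous_Wk_integrand s d).intervalIntegrable _ _)
  have e1 : s + 1 / 2 * d = s + d / 2 := by ring
  have e2 : s + -(1 / 2) * d = s - d / 2 := by ring
  simp only [Wk]
  rw [hint]
  norm_num only
  simp only [e1, e2] 
  have hs : sinc (d / 2) = sin (d / 2) / (d / 2) := sinc_of_ne_zero (by simpa using hd)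
  rw [hs, sin_add, sin_sub, cos_add, cos_sub]
  field_simp
  ring

lemma Wk_symm (s d : ℝ) : Wk s (-d) = Wk s d := by
  rcases eq_or_ne d 0 with rfl | hd
  · simp
  have h1 := Wk_identity s d
  have h2 := Wk_identity s (-d)
  have e : -d / 2 = -(d / 2) := by ring
  rw [e, cos_neg, sinc_neg, h1] at h2
  have hd2 : d ^ 2 ≠ 0 := pow_ne_zero 2 hd
  rw [neg_sq] at h2
  have h3 : d ^ 2 * (Wk s (-d) - Wk s d) = 0 := by linarith
  have := (mul_eq_zero.mp h3).resolve_left hd2
  linarith

/-- The cosine kernel. -/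
lemma PSDK.cos_sub (α : ι → ℝ) : PSDK (fun i j => cos (α i - α j)) := by
  have h := (PSDK.rankOne fun i => cos (α i)).add (PSDK.rankOne fun i => sin (α i))
  convert h using 3 with i j
  rw [Real.cos_sub]

/-- The function `D` of the calibration, in closed form. -/
noncomputable def Dk (p q : ℝ) : ℝ := (cos (p - q) - sinc (p - q)) / (sin p * sin q)

/-- The key matrix inequality (`T ≤ 0`): in an eigenbasis of `G`, with eigenvalues `g i ∈ (0, π)`,
for every positive semidefinite `Q`,
`∑ i j k, Q i j Q j k Q k i D((g i + g j) / 2, (g i + g k) / 2) ≤ 0`. -/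
theorem T_nonpos_closed {g : ι → ℝ} (hg0 : ∀ i, 0 < g i) (hgp : ∀ i, g i < π) {Q : ι → ι → ℝ}
    (hQ : PSDK Q) :
    ∑ i, ∑ j, ∑ k, Q i j * Q j k * Q k i * Dk ((g i + g j) / 2) ((g i + g k) / 2) ≤ 0 := by
  classical
  let S : ι → ι → ℝ := fun i j => sin ((g i + g j) / 2)
  have hS : ∀ i j, 0 < S i j := fun i j =>
    sin_pos_of_pos_of_lt_pi (by linarith [hg0 i, hg0 j]) (by linarith [hgp i, hgp j])
  have hSs : ∀ i j, S i j = S j i := fun i j => by
    simp only [S]; rw [add_comm]
  let B : ι → ι → ℝ := fun i j => Q i j / S i j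
  have hBs : ∀ i j, B i j = B j i := fun i j => by
    simp only [B]; rw [hQ.1 i j, hSs i j]
  have hQB : ∀ i j, Q i j = B i j * S i j := fun i j => by
    simp only [B]; field_simp [(hS i j).ne']
  let W : ι → ι → ℝ := fun j k => Wk ((g j + g k) / 2) (g j - g k)
  have hWs : ∀ j k, W j k = W k j := fun j k => by
    simp only [W]
    rw [add_comm (g j) (g k), ← Wk_symm _ (g k - g j), neg_sub]
  let C : ι → ι → ℝ := fun j k => (g j - g k) * B j k
  let A : ι → ι → ι → ℝ := fun i j k => C j k * C j i * B k i * W j k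
  -- each term
  have hterm : ∀ i j k, Q i j * Q j k * Q k i * Dk ((g i + g j) / 2) ((g i + g k) / 2) =
      -(A i j k + A i k j) := by
    intro i j k
    have e0 : (g i + g j) / 2 - (g i + g k) / 2 = (g j - g k) / 2 := by ring
    have e1 := Wk_identity ((g j + g k) / 2) (g j - g k)
    have e2 : S j k * (cos ((g j - g k) / 2) - sinc ((g j - g k) / 2)) =
        -((g j - g k) ^ 2) * W j k := by
      rw [mul_comm]; exact e1
    simp only [Dk]
    rw [e0]
    have h1 : sin ((g i + g j) / 2) = S i j := rfl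
    have h2 : sin ((g i + g k) / 2) = S i k := rfl
    rw [h1, h2]
    have h3 : Q i j * Q j k * Q k i *
        ((cos ((g j - g k) / 2) - sinc ((g j - g k) / 2)) / (S i j * S i k)) =
        B i j * B k i * B j k * (S j k * (cos ((g j - g k) / 2) - sinc ((g j - g k) / 2))) := by
      rw [hQB i j, hQB j k, hQB k i, hSs k i]
      have := (hS i j).ne'
      have := (hS i k).ne'
      field_simp
    rw [h3, e2]
    simp only [A, C]
    rw [hWs k j, hBs k j, hBs j i]
    ring
  -- the two symmetric parts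
  have hsum : ∑ i, ∑ j, ∑ k, Q i j * Q j k * Q k i * Dk ((g i + g j) / 2) ((g i + g k) / 2) =
      -(2 * ∑ i, ∑ j, ∑ k, A i j k) := by
    have h1 : ∑ i, ∑ j, ∑ k, A i k j = ∑ i, ∑ j, ∑ k, A i j k := by
      refine Finset.sum_congr rfl fun i _ => ?_
      rw [Finset.sum_comm]
    simp only [hterm]
    have h2 : ∑ i, ∑ j, ∑ k, -(A i j k + A i k j) =
        -(∑ i, ∑ j, ∑ k, A i j k + ∑ i, ∑ j, ∑ k, A i k j) := by
      simp only [← Finset.sum_neg_distrib, ← Finset.sum_add_distrib]
    rw [h2, h1]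
    ring
  rw [hsum]
  -- nonnegativity for fixed `j`
  have hfix : ∀ j, 0 ≤ ∑ k, ∑ i, A i j k := by
    intro j
    let y : ι → ℝ := C j
    let K : ℝ → ι → ι → ℝ := fun u k i =>
      Q k i * (sin ((1 / 2 + u) * g j + (1 / 2 - u) * ((g k + g i) / 2)) / sin ((g k + g i) / 2)) *
        cos ((1 / 2 - u) * g k / 2 - (1 / 2 - u) * g i / 2)
    have hKc : ∀ k i, Continuous (K · k i) := by
      intro k i
      simp only [K]
      fun_prop
    have hK : ∀ u ∈ Set.Icc (-(1 / 2) : ℝ) (1 / 2), PSDK (K u) := by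
      intro u hu
      have h1 := hankel_shift (a := 1 / 2 + u) (b := 1 / 2 - u) (z := g j) (x := g)
        (by linarith [hu.1]) (by linarith [hu.2]) (by ring) (hg0 j) (hgp j) hg0 hgp
      exact (hQ.mul h1).mul (PSDK.cos_sub fun k => (1 / 2 - u) * g k / 2)
    have hW2 : ∀ k i, B k i * (W j k + W j i) =
        ∫ u in (-(1 / 2) : ℝ)..(1 / 2), (1 / 4 - u ^ 2) * K u k i := by
      intro k i
      have h1 : ∀ u : ℝ, (1 / 4 - u ^ 2) * K u k i = B k i *
          ((1 / 2) * ((1 / 4 - u ^ 2) * sin ((g j + g k) / 2 + u * (g j - g k))) +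
           (1 / 2) * ((1 / 4 - u ^ 2) * sin ((g j + g i) / 2 + u * (g j - g i)))) := by
        intro u
        have e1 : (g j + g k) / 2 + u * (g j - g k) =
            ((1 / 2 + u) * g j + (1 / 2 - u) * ((g k + g i) / 2)) +
              ((1 / 2 - u) * g k / 2 - (1 / 2 - u) * g i / 2) := by ring
        have e2 : (g j + g i) / 2 + u * (g j - g i) =
            ((1 / 2 + u) * g j + (1 / 2 - u) * ((g k + g i) / 2)) -
              ((1 / 2 - u) * g k / 2 - (1 / 2 - u) * g i / 2) := by ring
        rw [e1, e2]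
        simp only [K, B, S]
        generalize (1 / 2 + u) * g j + (1 / 2 - u) * ((g k + g i) / 2) = P
        generalize (1 / 2 - u) * g k / 2 - (1 / 2 - u) * g i / 2 = R
        generalize sin ((g k + g i) / 2) = M
        have e3 : sin (P + R) + sin (P - R) = 2 * sin P * cos R := by
          rw [sin_add, sin_sub]; ring
        linear_combination (-(1 / 2) * (1 / 4 - u ^ 2) * (Q k i / M)) * e3
      simp only [h1]
      rw [intervalIntegral.integral_const_mul, intervalIntegral.integral_add,
        intervalIntegral.integral_const_mul, intervalIntegral.integral_const_mul]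
      · rfl
      · exact ((continuous_Wk_integrand _ _).const_mul _).intervalIntegrable _ _
      · exact ((continuous_Wk_integrand _ _).const_mul _).intervalIntegrable _ _
    have h2R : 2 * ∑ k, ∑ i, A i j k = ∑ k, ∑ i, y k * y i * (B k i * (W j k + W j i)) := by
      have e1 : ∑ k, ∑ i, A i j k = ∑ k, ∑ i, y k * y i * (B k i * W j k) := by
        refine Finset.sum_congr rfl fun k _ => Finset.sum_congr rfl fun i _ => ?_
        simp only [A, y]
        ring
      have e2 : ∑ k, ∑ i, y k * y i * (B k i * W j i) = ∑ k, ∑ i, y k * y i * (B k i * W j k) := by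
        rw [Finset.sum_comm]
        refine Finset.sum_congr rfl fun k _ => Finset.sum_congr rfl fun i _ => ?_
        rw [hBs i k]
        ring
      have e3 : ∑ k, ∑ i, y k * y i * (B k i * (W j k + W j i)) =
          ∑ k, ∑ i, y k * y i * (B k i * W j k) + ∑ k, ∑ i, y k * y i * (B k i * W j i) := by
        rw [← Finset.sum_add_distrib]
        refine Finset.sum_congr rfl fun k _ => ?_
        rw [← Finset.sum_add_distrib]
        refine Finset.sum_congr rfl fun i _ => ?_
        ring
      rw [e3, e2, e1]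
      ring
    have h3 : 0 ≤ ∑ k, ∑ i, y k * y i * (B k i * (W j k + W j i)) := by
      have e : ∑ k, ∑ i, y k * y i * (B k i * (W j k + W j i)) =
          ∫ u in (-(1 / 2) : ℝ)..(1 / 2), (1 / 4 - u ^ 2) * ∑ k, ∑ i, y k * y i * K u k i := by
        have hc : ∀ k i, Continuous fun u : ℝ => y k * y i * ((1 / 4 - u ^ 2) * K u k i) := by
          intro k i
          have := hKc k i
          fun_prop
        have e4 : ∀ u : ℝ, (1 / 4 - u ^ 2) * ∑ k, ∑ i, y k * y i * K u k i =
            ∑ k, ∑ i, y k * y i * ((1 / 4 - u ^ 2) * K u k i) := by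
          intro u
          rw [Finset.mul_sum]
          refine Finset.sum_congr rfl fun k _ => ?_
          rw [Finset.mul_sum]
          exact Finset.sum_congr rfl fun i _ => by ring
        simp only [e4]
        rw [intervalIntegral.integral_finsetSum]
        · refine Finset.sum_congr rfl fun k _ => ?_
          rw [intervalIntegral.integral_finsetSum]
          · refine Finset.sum_congr rfl fun i _ => ?_
            rw [intervalIntegral.integral_const_mul, hW2]
          · intro i _
            exact (hc k i).intervalIntegrable _ _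
        · intro k _
          refine Continuous.intervalIntegrable ?_ _ _
          exact continuous_finsetSum _ fun i _ => hc k i
      rw [e]
      refine intervalIntegral.integral_nonneg (by norm_num) fun u hu => ?_
      refine mul_nonneg ?_ ((hK u hu).2 y)
      have h1 := hu.1
      have h2 := hu.2
      nlinarith
    linarith
  have hfinal : 0 ≤ ∑ i, ∑ j, ∑ k, A i j k := by
    rw [Finset.sum_comm]
    refine Finset.sum_nonneg fun j _ => ?_
    rw [Finset.sum_comm]
    exact hfix j
  linarith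

end Vale.Agent.Lib.P371.Sharp
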