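import Vale.Agent.Lib.P371.Sharp.Approx

open Set MeasureTheory Real Filter Topology

namespace Vale.Agent.Lib.P371.Sharp

open Vale.Agent.Lib.P371.Cal

variable {ι : Type*} [Fintype ι]

lemma rh1_intervalIntegrable_deriv {f f' : ℝ → ℝ} (h : RH1 f f') (a b : ℝ) :
    IntervalIntegrable f' volume a b := by
  rw [intervalIntegrable_iff]
  have : IsFiniteMeasure (volume.restrict (Set.uIoc a b)) :=
    ⟨by simp [Measure.restrict_apply, Set.uIoc, Real.volume_Ioc, ENNReal.ofReal_lt_top]⟩
  exact (h.memLp_deriv.restrict (Set.uIoc a b)).integrable (by norm_num)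

lemma rh1_continuous {f f' : ℝ → ℝ} (h : RH1 f f') : Continuous f := by
  have h1 : Continuous fun x => ∫ t in (0:ℝ)..x, f' t :=
    intervalIntegral.continuous_primitive (fun a b => rh1_intervalIntegrable_deriv h a b) 0
  have h2 : f = fun x => f 0 + ∫ t in (0:ℝ)..x, f' t := by
    funext x
    rw [h.primitive]
    ring
  rw [h2]
  exact continuous_const.add h1

/-- a nonnegative integrable function is small somewhere far to the right -/
lemma exists_small_right {ρ : ℝ → ℝ} (hi : Integrable ρ) (M : ℝ) {ε : ℝ} (hε : 0 < ε) :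
    ∃ x, M ≤ x ∧ ρ x ≤ ε := by
  by_contra hc
  push Not at hc
  have h1 : IntegrableOn (fun _ : ℝ => ε) (Ioi M) volume := by
    refine Integrable.mono' hi.integrableOn.norm
      (aestronglyMeasurable_const) ?_
    filter_upwards [ae_restrict_mem measurableSet_Ioi] with x hx
    have := hc x (le_of_lt hx)
    rw [Real.norm_eq_abs, abs_of_pos hε, Real.norm_eq_abs]
    exact this.le.trans (le_abs_self _)
  rw [integrableOn_const_iff (C := ε) (by simp)] at h1
  rcases h1 with h1 | h1
  · exact hε.ne' (enorm_eq_zero.1 h1)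
  · simp at h1

/-- a nonnegative integrable function is small somewhere far to the left -/
lemma exists_small_left {ρ : ℝ → ℝ} (hi : Integrable ρ) (M : ℝ) {ε : ℝ} (hε : 0 < ε) :
    ∃ x, x ≤ M ∧ ρ x ≤ ε := by
  by_contra hc
  push Not at hc
  have h1 : IntegrableOn (fun _ : ℝ => ε) (Iio M) volume := by
    refine Integrable.mono' hi.integrableOn.norm
      (aestronglyMeasurable_const) ?_
    filter_upwards [ae_restrict_mem measurableSet_Iio] with x hx
    have := hc x (le_of_lt hx)
    rw [Real.norm_eq_abs, abs_of_pos hε, Real.norm_eq_abs]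
    exact this.le.trans (le_abs_self _)
  rw [integrableOn_const_iff (C := ε) (by simp)] at h1
  rcases h1 with h1 | h1
  · exact hε.ne' (enorm_eq_zero.1 h1)
  · simp at h1

/-- The dual inequality on the line.

Proof. `∑ Φ_i²` is integrable and continuous, so there are `xL → -∞`, `xR → +∞` along which it tends to `0`.
`∑ Φ_i²` is bounded (`f² (x) - f² (y) = 2 ∫ f f'`), so its cube is integrable. Let `η, θ` be small with
`b (1 + θ) + 2 K₁ η < 2 Cstart` and pass to the limit in `dual_interval`. -/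
theorem dual_line (Φ Φ' : ι → ℝ → ℝ) (h : ∀ i, RH1 (Φ i) (Φ' i))
    (hG : ∀ e : ι → ℝ, ∑ i, e i ^ 2 = 1 → ∫ x, (∑ i, e i * Φ i x) ^ 2 ≤ 1)
    {b : ℝ} (hb : 0 < b) (hb2 : b < 2 * (π / 2)) :
    Integrable (fun x => (∑ i, Φ i x ^ 2) ^ 3) ∧
      b ^ 2 / 4 * ∫ x, (∑ i, Φ i x ^ 2) ^ 3 ≤ ∫ x, ∑ i, Φ' i x ^ 2 := by
  set ρ : ℝ → ℝ := fun x => ∑ i, Φ i x ^ 2 with hρdef
  set κ : ℝ → ℝ := fun x => ∑ i, Φ' i x ^ 2 with hκdef
  have hρ0 : ∀ x, 0 ≤ ρ x := fun x => Finset.sum_nonneg fun i _ => sq_nonneg _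
  have hκ0 : ∀ x, 0 ≤ κ x := fun x => Finset.sum_nonneg fun i _ => sq_nonneg _
  have cρ : Continuous ρ := continuous_finsetSum _ fun i _ => (rh1_continuous (h i)).pow 2
  have iρ : Integrable ρ := integrable_finsetSum _ fun i _ => (h i).memLp.integrable_sq
  have iκ : Integrable κ := integrable_finsetSum _ fun i _ => (h i).memLp_deriv.integrable_sq
  -- the sequences
  have hseqR : ∀ n : ℕ, ∃ x, (n : ℝ) + 1 ≤ x ∧ ρ x ≤ 1 / ((n : ℝ) + 1) := fun n =>
    exists_small_right iρ _ (by positivity)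
  have hseqL : ∀ n : ℕ, ∃ x, x ≤ -((n : ℝ) + 1) ∧ ρ x ≤ 1 / ((n : ℝ) + 1) := fun n =>
    exists_small_left iρ _ (by positivity)
  choose R hR1 hR2 using hseqR
  choose L hL1 hL2 using hseqL
  have tR : Tendsto R atTop atTop := by
    refine tendsto_atTop_mono (fun n => ?_) (tendsto_natCast_atTop_atTop (R := ℝ))
    linarith [hR1 n]
  have tL : Tendsto L atTop atBot := by
    have : Tendsto (fun n : ℕ => -(n : ℝ)) atTop atBot :=
      tendsto_neg_atTop_atBot.comp (tendsto_natCast_atTop_atTop (R := ℝ))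
    refine tendsto_atBot_mono (fun n => ?_) this
    linarith [hL1 n]
  have hLR : ∀ n, L n < R n := fun n => by
    have h0 : (0 : ℝ) ≤ n := Nat.cast_nonneg n
    linarith [hL1 n, hR1 n]
  -- the parameters
  set gap := 2 * (π / 2) - b with hgap
  have hgap0 : 0 < gap := by rw [hgap]; linarith
  have hK := (zero_le_one (α := ℝ))
  set θ := gap / (4 * b) with hθdef
  have hθ : 0 < θ := by positivity
  set η := gap / (4 * ((1:ℝ) + 1)) with hηdef
  have hη : 0 < η := by positivity
  have hbη : b * (1 + θ) + 2 * (1:ℝ) * η < 2 * (π / 2) := by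
    have e1 : b * θ = gap / 4 := by
      rw [hθdef]
      field_simp
    have e2 : (1:ℝ) * η ≤ gap / 4 := by
      rw [hηdef]
      rw [show (1:ℝ) * (gap / (4 * ((1:ℝ) + 1))) = (gap / 4) * ((1:ℝ) / ((1:ℝ) + 1)) by
        field_simp]
      have : (1:ℝ) / ((1:ℝ) + 1) ≤ 1 := by
        rw [div_le_one (by linarith)]
        linarith
      nlinarith
    nlinarith
  have main := fun n => dual_interval Φ Φ' h hG (hLR n) hb hη hθ hbη
  -- bounds along the sequence
  have hsmall : ∀ n : ℕ, ρ (L n) ^ 2 + ρ (R n) ^ 2 ≤ 2 * (1 / ((n : ℝ) + 1)) := by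
    intro n
    have h1 : (0:ℝ) < 1 / ((n : ℝ) + 1) := by positivity
    have h2 : 1 / ((n : ℝ) + 1) ≤ 1 := by
      rw [div_le_one (by positivity)]
      have : (0:ℝ) ≤ n := Nat.cast_nonneg n
      linarith
    have h3 := hL2 n
    have h4 := hR2 n
    have h5 := hρ0 (L n)
    have h6 := hρ0 (R n)
    nlinarith
  have hκle : ∀ n, ∫ x in L n..R n, κ x ≤ ∫ x, κ x := by
    intro n
    rw [intervalIntegral.integral_of_le (hLR n).le]
    exact setIntegral_le_integral iκ (Eventually.of_forall hκ0)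
  have hkey : ∀ n : ℕ, b ^ 2 / 4 * ∫ x in L n..R n, ρ x ^ 3 ≤
      (∫ x, κ x) + b / (4 * η) * (2 * (1 / ((n : ℝ) + 1))) := by
    intro n
    have h1 := main n
    have h2 := hκle n
    have h3 := hsmall n
    have h4 : 0 < b / (4 * η) := by positivity
    have h5 := mul_le_mul_of_nonneg_left h3 h4.le
    calc _ ≤ _ := h1
      _ ≤ _ := add_le_add h2 h5
  have hb4 : 0 < b ^ 2 / 4 := by positivity
  -- integrability
  have ic : Integrable fun x => ρ x ^ 3 := by
    refine integrable_of_intervalIntegral_norm_bounded (a := L) (b := R) (l := atTop)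
      ((b ^ 2 / 4)⁻¹ * ((∫ x, κ x) + b / (4 * η) * 2)) ?_ tL tR ?_
    · intro n
      exact ((cρ.pow 3).integrableOn_Icc).mono_set Ioc_subset_Icc_self
    · filter_upwards with n
      have h1 := hkey n
      have h2 : ∫ x in L n..R n, ‖ρ x ^ 3‖ = ∫ x in L n..R n, ρ x ^ 3 := by
        refine intervalIntegral.integral_congr fun x _ => ?_
        rw [Real.norm_eq_abs, abs_of_nonneg (pow_nonneg (hρ0 x) 3)]
      rw [h2, inv_mul_eq_div, le_div_iff₀ hb4, mul_comm]
      have h3 : 1 / ((n : ℝ) + 1) ≤ 1 := by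
        rw [div_le_one (by positivity)]
        have : (0:ℝ) ≤ n := Nat.cast_nonneg n
        linarith
      have h4 : 0 < b / (4 * η) := by positivity
      nlinarith
  refine ⟨ic, ?_⟩
  -- limit
  have t1 := (intervalIntegral_tendsto_integral ic tL tR).const_mul (b ^ 2 / 4)
  have t2 : Tendsto (fun n : ℕ => (∫ x, κ x) + b / (4 * η) * (2 * (1 / ((n : ℝ) + 1)))) atTop
      (𝓝 ((∫ x, κ x) + b / (4 * η) * (2 * 0))) :=
    tendsto_const_nhds.add (tendsto_const_nhds.mul
      (tendsto_const_nhds.mul tendsto_one_div_add_atTop_nhds_zero_nat))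
  have := le_of_tendsto_of_tendsto' t1 t2 hkey
  simpa using this

end Vale.Agent.Lib.P371.Sharp
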