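import Vale.Agent.Lib.P371.Sharp.Hankel
import Vale.Agent.Lib.P371.Sharp.CotTwo

/-!
The matrix inequality `T ≤ 0` for the limit kernel `Dfun`.
-/

open Real

namespace Vale.Agent.Lib.P371.Sharp

lemma Dfun_eq_Dk {p q : ℝ} (hp0 : 0 < p) (hp1 : p < π) (hq0 : 0 < q) (hq1 : q < π) :
    Dfun p q = Dk p q := by
  rcases eq_or_ne p q with rfl | h
  · simp [Dfun, Dk]
  · rw [Dfun_eq hp0 hp1 hq0 hq1 h, Dk, ← neg_sub p q, Real.cos_neg, Real.sinc_neg]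

/-- The key matrix inequality in the form used by the calibration. -/
theorem T_nonpos {ι : Type*} [Fintype ι] {g : ι → ℝ} (hg : ∀ i, g i ∈ Set.Ioo 0 π) {Q : ι → ι → ℝ}
    (hs : ∀ i j, Q i j = Q j i) (hQ : ∀ v : ι → ℝ, 0 ≤ ∑ i, ∑ j, v i * v j * Q i j) :
    ∑ i, ∑ j, ∑ k, Q i j * Q j k * Q k i * Dfun ((g i + g j) / 2) ((g i + g k) / 2) ≤ 0 := by
  have h := T_nonpos_closed (g := g) (fun i => (hg i).1) (fun i => (hg i).2) (Q := Q) ⟨hs, hQ⟩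
  have hm : ∀ i j, (g i + g j) / 2 ∈ Set.Ioo 0 π := fun i j =>
    ⟨by linarith [(hg i).1, (hg j).1], by linarith [(hg i).2, (hg j).2]⟩
  refine le_of_eq_of_le ?_ h
  refine Finset.sum_congr rfl fun i _ => Finset.sum_congr rfl fun j _ =>
    Finset.sum_congr rfl fun k _ => ?_
  rw [Dfun_eq_Dk (hm i j).1 (hm i j).2 (hm i k).1 (hm i k).2]

end Vale.Agent.Lib.P371.Sharp
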