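import Vale.Agent.Lib.P371.Sharp.RowsDeriv
import Vale.Agent.Lib.P371.Sharp.MatT
import Vale.Agent.Lib.P371.Sharp.Alg

/-!
The pointwise inequality for rows, in an eigenbasis of `M`.
-/

open Real

set_option linter.unusedSectionVars false

namespace Vale.Agent.Lib.P371.Sharp.Rows

variable {r ι : Type*} [Fintype r] [Fintype ι] [DecidableEq ι]

/-- coordinates of a vector in the basis `U` -/
def hv (U : ι → ι → ℝ) (v : ι → ℝ) : ι → ℝ := fun α => ∑ i, U i α * v i

/-- coordinates of an array in the basis `U` -/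
def hm (U : ι → ι → ℝ) (X : ι → ι → ℝ) : ι → ι → ℝ := fun α β => ∑ i, ∑ j, U i α * X i j * U j β

/-- coordinates of rows -/
def hP (U : ι → ι → ℝ) (P : r → ι → ℝ) : r → ι → ℝ := fun a => hv U (P a)

/-- `‖P‖²` -/
def rh2 (P : r → ι → ℝ) : ℝ := ∑ a, ∑ i, P a i ^ 2

/-- `tr Q³` -/
def trQ3 (P : r → ι → ℝ) : ℝ := ∑ i, ∑ j, ∑ k, qq P i j * qq P j k * qq P k i

section
variable {M : ι → ι → ℝ} {η : ℝ} (E : EigenData M η)
include E

lemma hv_dot (v w : ι → ℝ) : ∑ i, v i * w i = ∑ α, hv E.U v α * hv E.U w α := by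
  calc ∑ i, v i * w i = ∑ i, ∑ j, v i * w j * (if i = j then 1 else 0) := by
        refine Finset.sum_congr rfl fun i _ => ?_
        simp
    _ = ∑ i, ∑ j, v i * w j * ∑ α, E.U i α * E.U j α := by
        simp only [E.orth_row]
    _ = ∑ i, ∑ j, ∑ α, (E.U i α * v i) * (E.U j α * w j) := by
        refine Finset.sum_congr rfl fun i _ => Finset.sum_congr rfl fun j _ => ?_
        rw [Finset.mul_sum]
        exact Finset.sum_congr rfl fun α _ => by ring
    _ = ∑ i, ∑ α, ∑ j, (E.U i α * v i) * (E.U j α * w j) :=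
        Finset.sum_congr rfl fun i _ => Finset.sum_comm
    _ = ∑ α, ∑ i, ∑ j, (E.U i α * v i) * (E.U j α * w j) := Finset.sum_comm
    _ = ∑ α, hv E.U v α * hv E.U w α := by
        refine Finset.sum_congr rfl fun α _ => ?_
        simp only [hv, Finset.sum_mul_sum]

lemma unhat (p : ι → ℝ) (j : ι) : p j = ∑ β, E.U j β * hv E.U p β := by
  calc p j = ∑ i, (if j = i then 1 else 0) * p i := by simp
    _ = ∑ i, (∑ β, E.U j β * E.U i β) * p i := by simp only [E.orth_row]
    _ = ∑ i, ∑ β, E.U j β * (E.U i β * p i) := by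
        refine Finset.sum_congr rfl fun i _ => ?_
        rw [Finset.sum_mul]
        exact Finset.sum_congr rfl fun β _ => by ring
    _ = ∑ β, ∑ i, E.U j β * (E.U i β * p i) := Finset.sum_comm
    _ = ∑ β, E.U j β * hv E.U p β := by
        refine Finset.sum_congr rfl fun β _ => ?_
        simp only [hv, Finset.mul_sum]

lemma hv_xi (X : ι → ι → ℝ) (p : ι → ℝ) (α : ι) :
    hv E.U (xi X p) α = ∑ β, hm E.U X α β * hv E.U p β := by
  calc hv E.U (xi X p) α = ∑ i, ∑ j, E.U i α * X i j * p j := by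
        simp only [hv, xi, Finset.mul_sum]
        exact Finset.sum_congr rfl fun i _ => Finset.sum_congr rfl fun j _ => by ring
    _ = ∑ i, ∑ j, ∑ β, E.U i α * X i j * E.U j β * hv E.U p β := by
        refine Finset.sum_congr rfl fun i _ => Finset.sum_congr rfl fun j _ => ?_
        conv_lhs => rw [unhat E p j, Finset.mul_sum]
        exact Finset.sum_congr rfl fun β _ => by ring
    _ = ∑ i, ∑ β, ∑ j, E.U i α * X i j * E.U j β * hv E.U p β :=
        Finset.sum_congr rfl fun i _ => Finset.sum_comm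
    _ = ∑ β, ∑ i, ∑ j, E.U i α * X i j * E.U j β * hv E.U p β := Finset.sum_comm
    _ = ∑ β, hm E.U X α β * hv E.U p β := by
        refine Finset.sum_congr rfl fun β _ => ?_
        simp only [hm, Finset.sum_mul]

lemma hm_qq (P : r → ι → ℝ) (α β : ι) : hm E.U (qq P) α β = qq (hP E.U P) α β := by
  calc hm E.U (qq P) α β = ∑ i, ∑ j, ∑ a, (E.U i α * P a i) * (E.U j β * P a j) := by
        simp only [hm, qq, Finset.mul_sum, Finset.sum_mul]
        refine Finset.sum_congr rfl fun i _ => Finset.sum_congr rfl fun j _ =>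
          Finset.sum_congr rfl fun a _ => by ring
    _ = ∑ i, ∑ a, ∑ j, (E.U i α * P a i) * (E.U j β * P a j) :=
        Finset.sum_congr rfl fun i _ => Finset.sum_comm
    _ = ∑ a, ∑ i, ∑ j, (E.U i α * P a i) * (E.U j β * P a j) := Finset.sum_comm
    _ = qq (hP E.U P) α β := by
        refine Finset.sum_congr rfl fun a _ => ?_
        simp only [hP, hv, Finset.sum_mul_sum]

lemma hm_Jop (hs : ∀ a b, M a b = M b a) (t : ℝ) (Y : ι → ι → ℝ) (α β : ι) :
    hm E.U (Jop M t Y) α β = ((E.lam α + E.lam β) / 2 + t) * hm E.U Y α β := by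
  have h1 : ∑ i, ∑ j, E.U i α * (∑ c, M i c * Y c j) * E.U j β = E.lam α * hm E.U Y α β := by
    calc ∑ i, ∑ j, E.U i α * (∑ c, M i c * Y c j) * E.U j β
        = ∑ i, ∑ j, ∑ c, E.U i α * (M i c * Y c j) * E.U j β := by
          refine Finset.sum_congr rfl fun i _ => Finset.sum_congr rfl fun j _ => ?_
          rw [Finset.mul_sum, Finset.sum_mul]
      _ = ∑ j, ∑ i, ∑ c, E.U i α * (M i c * Y c j) * E.U j β := Finset.sum_comm
      _ = ∑ j, ∑ c, ∑ i, E.U i α * (M i c * Y c j) * E.U j β :=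
          Finset.sum_congr rfl fun j _ => Finset.sum_comm
      _ = ∑ j, ∑ c, (∑ i, M c i * E.U i α) * (Y c j * E.U j β) := by
          refine Finset.sum_congr rfl fun j _ => Finset.sum_congr rfl fun c _ => ?_
          rw [Finset.sum_mul]
          refine Finset.sum_congr rfl fun i _ => ?_
          rw [hs c i]
          ring
      _ = ∑ j, ∑ c, E.lam α * (E.U c α * Y c j * E.U j β) := by
          refine Finset.sum_congr rfl fun j _ => Finset.sum_congr rfl fun c _ => ?_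
          rw [E.eig]
          ring
      _ = ∑ c, ∑ j, E.lam α * (E.U c α * Y c j * E.U j β) := Finset.sum_comm
      _ = E.lam α * hm E.U Y α β := by
          simp only [hm, Finset.mul_sum]
  have h2 : ∑ i, ∑ j, E.U i α * (∑ c, Y i c * M c j) * E.U j β = E.lam β * hm E.U Y α β := by
    calc ∑ i, ∑ j, E.U i α * (∑ c, Y i c * M c j) * E.U j β
        = ∑ i, ∑ j, ∑ c, E.U i α * (Y i c * M c j) * E.U j β := by
          refine Finset.sum_congr rfl fun i _ => Finset.sum_congr rfl fun j _ => ?_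
          rw [Finset.mul_sum, Finset.sum_mul]
      _ = ∑ i, ∑ c, ∑ j, E.U i α * (Y i c * M c j) * E.U j β :=
          Finset.sum_congr rfl fun j _ => Finset.sum_comm
      _ = ∑ i, ∑ c, (E.U i α * Y i c) * (∑ j, M c j * E.U j β) := by
          refine Finset.sum_congr rfl fun i _ => Finset.sum_congr rfl fun c _ => ?_
          rw [Finset.mul_sum]
          exact Finset.sum_congr rfl fun j _ => by ring
      _ = ∑ i, ∑ c, E.lam β * (E.U i α * Y i c * E.U c β) := by
          refine Finset.sum_congr rfl fun i _ => Finset.sum_congr rfl fun c _ => ?_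
          rw [E.eig]
          ring
      _ = E.lam β * hm E.U Y α β := by
          simp only [hm, Finset.mul_sum]
  have h3 : hm E.U (Jop M t Y) α β = (1 / 2) * (∑ i, ∑ j, E.U i α * (∑ c, M i c * Y c j) * E.U j β +
      ∑ i, ∑ j, E.U i α * (∑ c, Y i c * M c j) * E.U j β) + t * hm E.U Y α β := by
    simp only [hm, Jop_apply2]
    rw [← Finset.sum_add_distrib, Finset.mul_sum, Finset.mul_sum, ← Finset.sum_add_distrib]
    refine Finset.sum_congr rfl fun i _ => ?_
    rw [← Finset.sum_add_distrib, Finset.mul_sum, Finset.mul_sum, ← Finset.sum_add_distrib]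
    refine Finset.sum_congr rfl fun j _ => ?_
    ring
  rw [h3, h1, h2]
  ring

lemma dpr_hm (A B : ι → ι → ℝ) : dpr A B = dpr (hm E.U A) (hm E.U B) := by
  have h1 : ∀ α β, hm E.U A α β = hv E.U (fun j => ∑ i, E.U i α * A i j) β := by
    intro α β
    simp only [hm, hv, Finset.mul_sum]
    rw [Finset.sum_comm]
    exact Finset.sum_congr rfl fun i _ => Finset.sum_congr rfl fun j _ => by ring
  have h2 : ∀ α β, hm E.U B α β = hv E.U (fun j => ∑ i, E.U i α * B i j) β := by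
    intro α β
    simp only [hm, hv, Finset.mul_sum]
    rw [Finset.sum_comm]
    exact Finset.sum_congr rfl fun i _ => Finset.sum_congr rfl fun j _ => by ring
  calc dpr A B = ∑ j, ∑ i, A i j * B i j := Finset.sum_comm
    _ = ∑ j, ∑ α, hv E.U (fun i => A i j) α * hv E.U (fun i => B i j) α :=
        Finset.sum_congr rfl fun j _ => hv_dot E _ _
    _ = ∑ α, ∑ j, hv E.U (fun i => A i j) α * hv E.U (fun i => B i j) α := Finset.sum_comm
    _ = ∑ α, ∑ β, hm E.U A α β * hm E.U B α β := by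
        refine Finset.sum_congr rfl fun α _ => ?_
        simp only [h1, h2]
        exact hv_dot E _ _

lemma rh2_hP (P : r → ι → ℝ) : rh2 (hP E.U P) = rh2 P := by
  simp only [rh2]
  refine Finset.sum_congr rfl fun a _ => ?_
  have := hv_dot E (P a) (P a)
  simp only [hP, sq]
  exact this.symm

/-- The bilinear expression in the eigenbasis. -/
lemma rows_bilin (P : r → ι → ℝ) (X X' : ι → ι → ℝ) :
    ∑ a, ∑ i, xi X (P a) i * xi X' (P a) i =
      ∑ α, ∑ β, ∑ γ, hm E.U X α β * hm E.U X' α γ * qq (hP E.U P) β γ := by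
  calc ∑ a, ∑ i, xi X (P a) i * xi X' (P a) i
      = ∑ a, ∑ α, hv E.U (xi X (P a)) α * hv E.U (xi X' (P a)) α :=
        Finset.sum_congr rfl fun a _ => hv_dot E _ _
    _ = ∑ a, ∑ α, ∑ β, ∑ γ, hm E.U X α β * hm E.U X' α γ * (hv E.U (P a) β * hv E.U (P a) γ) := by
        refine Finset.sum_congr rfl fun a _ => Finset.sum_congr rfl fun α _ => ?_
        rw [hv_xi E, hv_xi E, Finset.sum_mul_sum]
        refine Finset.sum_congr rfl fun β _ => Finset.sum_congr rfl fun γ _ => by ring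
    _ = ∑ α, ∑ a, ∑ β, ∑ γ, hm E.U X α β * hm E.U X' α γ * (hv E.U (P a) β * hv E.U (P a) γ) :=
        Finset.sum_comm
    _ = ∑ α, ∑ β, ∑ a, ∑ γ, hm E.U X α β * hm E.U X' α γ * (hv E.U (P a) β * hv E.U (P a) γ) :=
        Finset.sum_congr rfl fun α _ => Finset.sum_comm
    _ = ∑ α, ∑ β, ∑ γ, ∑ a, hm E.U X α β * hm E.U X' α γ * (hv E.U (P a) β * hv E.U (P a) γ) :=
        Finset.sum_congr rfl fun α _ => Finset.sum_congr rfl fun β _ => Finset.sum_comm
    _ = _ := by
        refine Finset.sum_congr rfl fun α _ => Finset.sum_congr rfl fun β _ =>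
          Finset.sum_congr rfl fun γ _ => ?_
        rw [← Finset.mul_sum]
        rfl

lemma trace_cube (X : Matrix ι ι ℝ) :
    Matrix.trace (X * X * X) = ∑ i, ∑ j, ∑ k, X i j * X j k * X k i := by
  simp only [Matrix.trace, Matrix.diag, Matrix.mul_apply, Finset.sum_mul]
  refine Finset.sum_congr rfl fun i _ => ?_
  rw [Finset.sum_comm]

lemma trQ3_hP (P : r → ι → ℝ) : trQ3 (hP E.U P) = trQ3 P := by
  let U' : Matrix ι ι ℝ := Matrix.of E.U
  let A : Matrix r ι ℝ := Matrix.of P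
  have hU : U' * U'.transpose = 1 := by
    ext i j
    simp only [Matrix.mul_apply, Matrix.transpose_apply, U', Matrix.of_apply, E.orth_row,
      Matrix.one_apply]
  have hq : ∀ i j, qq P i j = (A.transpose * A) i j := by
    intro i j
    simp [qq, Matrix.mul_apply, A]
  have hq' : ∀ i j, qq (hP E.U P) i j = (U'.transpose * (A.transpose * A) * U') i j := by
    intro i j
    rw [← hm_qq E P i j, Matrix.mul_apply]
    simp only [hm, hq]
    simp only [Matrix.mul_apply, Matrix.transpose_apply, U', Matrix.of_apply, Finset.sum_mul,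
      Finset.mul_sum]
    rw [Finset.sum_comm]
  have hcancel : ∀ Z : Matrix ι ι ℝ, U' * (U'.transpose * Z) = Z := fun Z => by
    rw [← Matrix.mul_assoc, hU, Matrix.one_mul]
  set X := A.transpose * A with hX
  have h3 : (U'.transpose * X * U') * (U'.transpose * X * U') * (U'.transpose * X * U') =
      U'.transpose * (X * X * X) * U' := by
    simp only [Matrix.mul_assoc, hcancel]
  have h4 : Matrix.trace (U'.transpose * (X * X * X) * U') = Matrix.trace (X * X * X) := by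
    rw [Matrix.trace_mul_comm, ← Matrix.mul_assoc, hU, Matrix.one_mul]
  simp only [trQ3, hq, hq']
  rw [← trace_cube E, ← trace_cube E, h3, h4]

end

/-- Nonzero shifts. -/
lemma shift_ne {p : ℝ} (h0 : 0 < p) (h1 : p < π) (k : ℤ) : p + k * π ≠ 0 := by
  have hpi := Real.pi_pos
  rcases le_or_gt 0 k with hk | hk
  · have : (0 : ℝ) ≤ k := by exact_mod_cast hk
    have h2 : 0 ≤ (k : ℝ) * π := by positivity
    linarith
  · have : (k : ℝ) ≤ -1 := by exact_mod_cast (by omega : k ≤ -1)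
    have h2 : (k : ℝ) * π ≤ -1 * π := mul_le_mul_of_nonneg_right this hpi.le
    linarith

lemma sum_swap3 (T : Finset ℤ) (F : ℤ → ι → ι → ι → ℝ) :
    ∑ k ∈ T, ∑ α, ∑ β, ∑ γ, F k α β γ = ∑ α, ∑ β, ∑ γ, ∑ k ∈ T, F k α β γ := by
  rw [Finset.sum_comm]
  refine Finset.sum_congr rfl fun α _ => ?_
  rw [Finset.sum_comm]
  refine Finset.sum_congr rfl fun β _ => ?_
  rw [Finset.sum_comm]

lemma qq_psd (P : r → ι → ℝ) (v : ι → ℝ) : 0 ≤ ∑ i, ∑ j, v i * v j * qq P i j := by
  have h : ∑ i, ∑ j, v i * v j * qq P i j = ∑ a, (∑ i, v i * P a i) ^ 2 := by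
    calc ∑ i, ∑ j, v i * v j * qq P i j = ∑ i, ∑ j, ∑ a, (v i * P a i) * (v j * P a j) := by
          refine Finset.sum_congr rfl fun i _ => Finset.sum_congr rfl fun j _ => ?_
          simp only [qq, Finset.mul_sum]
          exact Finset.sum_congr rfl fun a _ => by ring
      _ = ∑ i, ∑ a, ∑ j, (v i * P a i) * (v j * P a j) :=
          Finset.sum_congr rfl fun i _ => Finset.sum_comm
      _ = ∑ a, ∑ i, ∑ j, (v i * P a i) * (v j * P a j) := Finset.sum_comm
      _ = _ := by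
          refine Finset.sum_congr rfl fun a _ => ?_
          rw [sq, Finset.sum_mul_sum]
  rw [h]
  exact Finset.sum_nonneg fun a _ => sq_nonneg _

lemma qq_sq_le (P : r → ι → ℝ) (α β : ι) :
    qq P α β ^ 2 ≤ (∑ a, P a α ^ 2) * ∑ a, P a β ^ 2 :=
  Finset.sum_mul_sq_le_sq_mul_sq _ _ _

lemma rh2_eq (P : r → ι → ℝ) : rh2 P = ∑ α, ∑ a, P a α ^ 2 := Finset.sum_comm

lemma rh2_nonneg (P : r → ι → ℝ) : 0 ≤ rh2 P :=
  Finset.sum_nonneg fun _ _ => Finset.sum_nonneg fun _ _ => sq_nonneg _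

lemma sum_qq_sq_le (P : r → ι → ℝ) : ∑ α, ∑ β, qq P α β ^ 2 ≤ rh2 P ^ 2 := by
  calc ∑ α, ∑ β, qq P α β ^ 2
      ≤ ∑ α, ∑ β, (∑ a, P a α ^ 2) * ∑ a, P a β ^ 2 :=
        Finset.sum_le_sum fun α _ => Finset.sum_le_sum fun β _ => qq_sq_le P α β
    _ = rh2 P ^ 2 := by
        rw [rh2_eq, sq, Finset.sum_mul_sum]

lemma abs_qq_le (P : r → ι → ℝ) (α β : ι) : |qq P α β| ≤ rh2 P := by
  have hs : ∀ α, ∑ a, P a α ^ 2 ≤ rh2 P := by
    intro α
    rw [rh2_eq]
    exact Finset.single_le_sum (f := fun α => ∑ a, P a α ^ 2)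
      (fun _ _ => Finset.sum_nonneg fun _ _ => sq_nonneg _) (Finset.mem_univ α)
  have h0 := rh2_nonneg P
  have h1 : qq P α β ^ 2 ≤ rh2 P ^ 2 := by
    refine (qq_sq_le P α β).trans ?_
    rw [sq (rh2 P)]
    exact mul_le_mul (hs α) (hs β) (Finset.sum_nonneg fun _ _ => sq_nonneg _) h0
  exact abs_le_of_sq_le_sq h1 h0

/-- **The pointwise inequality for rows.** -/
theorem alg_rows {M : ι → ι → ℝ} {η ε : ℝ} {m : ℕ} (hη : 0 < η) (h : Band M η)
    (hcot : ∀ p q : ℝ, p ∈ Set.Icc η (π - η) → q ∈ Set.Icc η (π - η) →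
      |phi2 m p q - phi m p * phi m q - (1 - Dfun p q)| ≤ ε ∧ |phi m p| ≤ 1 / η + ε)
    (hε : 0 ≤ ε) (P : r → ι → ℝ) (Y : ℤ → ι → ι → ℝ)
    (hY : ∀ k : ℤ, Jop M (k * π) (Y k) = qq P) :
    trQ3 P - ε * ((Fintype.card ι : ℝ) ^ 3 * rh2 P ^ 3) ≤
        ∑ k ∈ Finset.Icc (-(m : ℤ)) m, ∑ a, ∑ i, xi (Y k) (P a) i ^ 2 -
          ∑ a, ∑ i, (∑ k ∈ Finset.Icc (-(m : ℤ)) m, xi (Y k) (P a) i) ^ 2 ∧
      |∑ k ∈ Finset.Icc (-(m : ℤ)) m, dpr (qq P) (Y k)| ≤ (1 / η + ε) * rh2 P ^ 2 := by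
  obtain ⟨E⟩ := exists_eigen h
  set T := Finset.Icc (-(m : ℤ)) m with hT
  set Qh := qq (hP E.U P) with hQh
  have hQs : ∀ i j, Qh i j = Qh j i := qq_symm _
  let pf : ι → ι → ℝ := fun α β => (E.lam α + E.lam β) / 2
  have hmem : ∀ α β, pf α β ∈ Set.Icc η (π - η) := by
    intro α β
    have h1 := E.lam_mem α
    have h2 := E.lam_mem β
    constructor
    · show η ≤ (E.lam α + E.lam β) / 2
      linarith [h1.1, h2.1]
    · show (E.lam α + E.lam β) / 2 ≤ π - η
      linarith [h1.2, h2.2]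
  have hpos : ∀ α β, 0 < pf α β := fun α β => lt_of_lt_of_le hη (hmem α β).1
  have hltπ : ∀ α β, pf α β < π := fun α β => by linarith [(hmem α β).2]
  have hne : ∀ α β (k : ℤ), pf α β + k * π ≠ 0 := fun α β k => shift_ne (hpos α β) (hltπ α β) k
  have hYh : ∀ (k : ℤ) α β, hm E.U (Y k) α β = Qh α β * (1 / (pf α β + k * π)) := by
    intro k α β
    have h1 := hm_Jop E h.symm (k * π) (Y k) α β
    rw [hY k, hm_qq E] at h1
    have h2 : (E.lam α + E.lam β) / 2 + k * π ≠ 0 := hne α β k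
    rw [hQh, h1]
    show _ = _ * (1 / ((E.lam α + E.lam β) / 2 + k * π))
    rw [mul_comm ((E.lam α + E.lam β) / 2 + k * π), mul_assoc, mul_one_div_cancel h2, mul_one]
  let c : ι → ι → ι → ℝ := fun α β γ => Qh α β * Qh β γ * Qh γ α
  have hB : ∀ k l : ℤ, ∑ a, ∑ i, xi (Y k) (P a) i * xi (Y l) (P a) i =
      ∑ α, ∑ β, ∑ γ, c α β γ * (1 / (pf α β + k * π) * (1 / (pf α γ + l * π))) := by
    intro k l
    rw [rows_bilin E]
    refine Finset.sum_congr rfl fun α _ => Finset.sum_congr rfl fun β _ =>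
      Finset.sum_congr rfl fun γ _ => ?_
    rw [hYh, hYh]
    simp only [c]
    rw [hQs γ α]
    ring
  have h1 : ∑ k ∈ T, ∑ a, ∑ i, xi (Y k) (P a) i ^ 2 =
      ∑ α, ∑ β, ∑ γ, c α β γ * phi2 m (pf α β) (pf α γ) := by
    calc ∑ k ∈ T, ∑ a, ∑ i, xi (Y k) (P a) i ^ 2
        = ∑ k ∈ T, ∑ α, ∑ β, ∑ γ, c α β γ * (1 / (pf α β + k * π) * (1 / (pf α γ + k * π))) := by
          refine Finset.sum_congr rfl fun k _ => ?_
          rw [← hB k k]
          simp only [sq]
      _ = ∑ α, ∑ β, ∑ γ, ∑ k ∈ T, c α β γ * (1 / (pf α β + k * π) * (1 / (pf α γ + k * π))) :=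
          sum_swap3 _ _
      _ = _ := by
          refine Finset.sum_congr rfl fun α _ => Finset.sum_congr rfl fun β _ =>
            Finset.sum_congr rfl fun γ _ => ?_
          rw [phi2, Finset.mul_sum]
          refine Finset.sum_congr rfl fun k _ => ?_
          rw [one_div_mul_one_div]
  have h2 : ∑ a, ∑ i, (∑ k ∈ T, xi (Y k) (P a) i) ^ 2 =
      ∑ α, ∑ β, ∑ γ, c α β γ * (phi m (pf α β) * phi m (pf α γ)) := by
    calc ∑ a, ∑ i, (∑ k ∈ T, xi (Y k) (P a) i) ^ 2
        = ∑ a, ∑ i, ∑ k ∈ T, ∑ l ∈ T, xi (Y k) (P a) i * xi (Y l) (P a) i := by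
          refine Finset.sum_congr rfl fun a _ => Finset.sum_congr rfl fun i _ => ?_
          rw [sq, Finset.sum_mul_sum]
      _ = ∑ a, ∑ k ∈ T, ∑ l ∈ T, ∑ i, xi (Y k) (P a) i * xi (Y l) (P a) i := by
          refine Finset.sum_congr rfl fun a _ => ?_
          rw [Finset.sum_comm]
          refine Finset.sum_congr rfl fun k _ => ?_
          rw [Finset.sum_comm]
      _ = ∑ k ∈ T, ∑ l ∈ T, ∑ a, ∑ i, xi (Y k) (P a) i * xi (Y l) (P a) i := by
          rw [Finset.sum_comm]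
          refine Finset.sum_congr rfl fun k _ => ?_
          rw [Finset.sum_comm]
      _ = ∑ k ∈ T, ∑ l ∈ T, ∑ α, ∑ β, ∑ γ,
            c α β γ * (1 / (pf α β + k * π) * (1 / (pf α γ + l * π))) := by
          refine Finset.sum_congr rfl fun k _ => Finset.sum_congr rfl fun l _ => hB k l
      _ = ∑ k ∈ T, ∑ α, ∑ β, ∑ γ, ∑ l ∈ T,
            c α β γ * (1 / (pf α β + k * π) * (1 / (pf α γ + l * π))) := by
          refine Finset.sum_congr rfl fun k _ => sum_swap3 _ _
      _ = ∑ α, ∑ β, ∑ γ, ∑ k ∈ T, ∑ l ∈ T,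
            c α β γ * (1 / (pf α β + k * π) * (1 / (pf α γ + l * π))) := sum_swap3 _ _
      _ = _ := by
          refine Finset.sum_congr rfl fun α _ => Finset.sum_congr rfl fun β _ =>
            Finset.sum_congr rfl fun γ _ => ?_
          rw [phi, phi, Finset.sum_mul_sum, Finset.mul_sum]
          refine Finset.sum_congr rfl fun k _ => ?_
          rw [Finset.mul_sum]
  have hrh := rh2_hP E P
  have hrh0 : 0 ≤ rh2 P := rh2_nonneg P
  have hT3 : ∑ α, ∑ β, ∑ γ, c α β γ = trQ3 P := by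
    rw [← trQ3_hP E P]
    rfl
  have hTn : ∑ α, ∑ β, ∑ γ, c α β γ * Dfun (pf α β) (pf α γ) ≤ 0 :=
    T_nonpos (g := E.lam) (Q := Qh)
      (fun i => ⟨lt_of_lt_of_le hη (E.lam_mem i).1, by linarith [(E.lam_mem i).2]⟩) hQs
      (qq_psd _)
  have habsc : ∀ α β γ, |c α β γ| ≤ rh2 P ^ 3 := by
    intro α β γ
    have e : ∀ α β, |Qh α β| ≤ rh2 P := fun α β => by
      have := abs_qq_le (hP E.U P) α β
      rwa [hrh] at this
    simp only [c, abs_mul]
    calc |Qh α β| * |Qh β γ| * |Qh γ α| ≤ rh2 P * rh2 P * rh2 P := by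
          gcongr
          · exact e _ _
          · exact e _ _
          · exact e _ _
      _ = rh2 P ^ 3 := by ring
  have hsumc : ∑ α, ∑ β, ∑ γ, |c α β γ| ≤ (Fintype.card ι : ℝ) ^ 3 * rh2 P ^ 3 := by
    calc ∑ α, ∑ β, ∑ γ, |c α β γ| ≤ ∑ _α : ι, ∑ _β : ι, ∑ _γ : ι, rh2 P ^ 3 :=
          Finset.sum_le_sum fun α _ => Finset.sum_le_sum fun β _ =>
            Finset.sum_le_sum fun γ _ => habsc α β γ
      _ = _ := by
          simp only [Finset.sum_const, Finset.card_univ, nsmul_eq_mul]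
          ring
  constructor
  · rw [h1, h2]
    have hterm : ∀ α β γ, c α β γ - c α β γ * Dfun (pf α β) (pf α γ) - ε * |c α β γ| ≤
        c α β γ * phi2 m (pf α β) (pf α γ) - c α β γ * (phi m (pf α β) * phi m (pf α γ)) := by
      intro α β γ
      have h3 := (hcot _ _ (hmem α β) (hmem α γ)).1
      have h4 : c α β γ * (phi2 m (pf α β) (pf α γ) - phi m (pf α β) * phi m (pf α γ) -
          (1 - Dfun (pf α β) (pf α γ))) ≥ -(|c α β γ| * ε) := by
        have h5 := neg_abs_le (c α β γ * (phi2 m (pf α β) (pf α γ) -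
          phi m (pf α β) * phi m (pf α γ) - (1 - Dfun (pf α β) (pf α γ))))
        rw [abs_mul] at h5
        have h6 := mul_le_mul_of_nonneg_left h3 (abs_nonneg (c α β γ))
        linarith
      nlinarith
    have hsum : ∑ α, ∑ β, ∑ γ, (c α β γ - c α β γ * Dfun (pf α β) (pf α γ) - ε * |c α β γ|) ≤
        ∑ α, ∑ β, ∑ γ, (c α β γ * phi2 m (pf α β) (pf α γ) -
          c α β γ * (phi m (pf α β) * phi m (pf α γ))) :=
      Finset.sum_le_sum fun α _ => Finset.sum_le_sum fun β _ =>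
        Finset.sum_le_sum fun γ _ => hterm α β γ
    simp only [Finset.sum_sub_distrib, ← Finset.mul_sum] at hsum
    have h7 : ε * ∑ α, ∑ β, ∑ γ, |c α β γ| ≤ ε * ((Fintype.card ι : ℝ) ^ 3 * rh2 P ^ 3) :=
      mul_le_mul_of_nonneg_left hsumc hε
    rw [hT3] at hsum
    linarith
  · have h3 : ∑ k ∈ T, dpr (qq P) (Y k) = ∑ α, ∑ β, Qh α β ^ 2 * phi m (pf α β) := by
      calc ∑ k ∈ T, dpr (qq P) (Y k)
          = ∑ k ∈ T, ∑ α, ∑ β, Qh α β ^ 2 * (1 / (pf α β + k * π)) := by
            refine Finset.sum_congr rfl fun k _ => ?_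
            rw [dpr_hm E]
            refine Finset.sum_congr rfl fun α _ => Finset.sum_congr rfl fun β _ => ?_
            rw [hYh, hm_qq E]
            ring
        _ = ∑ α, ∑ k ∈ T, ∑ β, Qh α β ^ 2 * (1 / (pf α β + k * π)) := Finset.sum_comm
        _ = ∑ α, ∑ β, ∑ k ∈ T, Qh α β ^ 2 * (1 / (pf α β + k * π)) :=
            Finset.sum_congr rfl fun α _ => Finset.sum_comm
        _ = _ := by
            refine Finset.sum_congr rfl fun α _ => Finset.sum_congr rfl fun β _ => ?_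
            rw [phi, Finset.mul_sum]
    rw [h3]
    have hK : 0 ≤ 1 / η + ε := by positivity
    calc |∑ α, ∑ β, Qh α β ^ 2 * phi m (pf α β)|
        ≤ ∑ α, ∑ β, |Qh α β ^ 2 * phi m (pf α β)| := by
          refine (Finset.abs_sum_le_sum_abs _ _).trans ?_
          exact Finset.sum_le_sum fun α _ => Finset.abs_sum_le_sum_abs _ _
      _ ≤ ∑ α, ∑ β, Qh α β ^ 2 * (1 / η + ε) := by
          refine Finset.sum_le_sum fun α _ => Finset.sum_le_sum fun β _ => ?_
          rw [abs_mul, abs_of_nonneg (sq_nonneg _)]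
          exact mul_le_mul_of_nonneg_left (hcot _ _ (hmem α β) (hmem α β)).2 (sq_nonneg _)
      _ = (∑ α, ∑ β, Qh α β ^ 2) * (1 / η + ε) := by
          simp only [Finset.sum_mul]
      _ ≤ rh2 P ^ 2 * (1 / η + ε) := by
          refine mul_le_mul_of_nonneg_right ?_ hK
          have := sum_qq_sq_le (hP E.U P)
          rwa [hrh] at this
      _ = _ := by ring

end Vale.Agent.Lib.P371.Sharp.Rows
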