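import Mathlib

/-!
Pointwise linear algebra for the matrix version of the sharp Lieb-Thirring inequality at `γ = 1`:
for a real matrix `F`, `Q = Fᵀ F`, a unit vector `U` with `v = Fᵀ U`:
`|v|⁶ ≤ |Q v|²`, and summing over an orthonormal basis, `∑ |v_l|⁶ ≤ tr Q³`.
-/

open Real

namespace Vale.Agent.Lib.P371.Sharp

variable {κ ι β : Type*} [Fintype κ] [Fintype ι] [Fintype β]

/-- `Q = Fᵀ F`. -/
def QM (F : κ → ι → ℝ) (i j : ι) : ℝ := ∑ a, F a i * F a j

/-- `tr Q³`. -/
def trQ3M (F : κ → ι → ℝ) : ℝ := ∑ i, ∑ j, ∑ k, QM F i j * QM F j k * QM F k i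

omit [Fintype ι] in
lemma QM_symm (F : κ → ι → ℝ) (i j : ι) : QM F i j = QM F j i := by
  unfold QM
  exact Finset.sum_congr rfl fun a _ => mul_comm _ _

/-- The basic inequality. -/
lemma cube_le (F : κ → ι → ℝ) (U : κ → ℝ) (hU : ∑ a, U a ^ 2 = 1) :
    (∑ i, (∑ a, U a * F a i) ^ 2) ^ 3 ≤
      ∑ i, (∑ j, QM F i j * ∑ a, U a * F a j) ^ 2 := by
  classical
  obtain ⟨v, hv⟩ : ∃ v : ι → ℝ, v = fun i => ∑ a, U a * F a i := ⟨_, rfl⟩
  obtain ⟨w, hw⟩ : ∃ w : κ → ℝ, w = fun a => ∑ i, F a i * v i := ⟨_, rfl⟩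
  obtain ⟨s, hs⟩ : ∃ s : ι → ℝ, s = fun i => ∑ j, QM F i j * v j := ⟨_, rfl⟩
  have e1 : ∀ i, ∑ a, U a * F a i = v i := fun i => by rw [hv]
  simp only [e1]
  have e2 : ∀ i, ∑ j, QM F i j * v j = s i := fun i => by rw [hs]
  simp only [e2]
  obtain ⟨r, hr⟩ : ∃ r, r = ∑ i, v i ^ 2 := ⟨_, rfl⟩
  rw [← hr]
  have hr0 : 0 ≤ r := by rw [hr]; exact Finset.sum_nonneg fun i _ => sq_nonneg _
  have h1 : r = ∑ a, U a * w a := by
    rw [hr, hw]
    simp only [Finset.mul_sum]
    rw [Finset.sum_comm]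
    apply Finset.sum_congr rfl
    intro i _
    rw [sq]
    conv_lhs => rw [hv]
    simp only [Finset.sum_mul]
    apply Finset.sum_congr rfl
    intro a _
    rw [hv]
    ring
  have h2 : r ^ 2 ≤ ∑ a, w a ^ 2 := by
    have := Finset.sum_mul_sq_le_sq_mul_sq Finset.univ U w
    rw [hU, one_mul, ← h1] at this
    exact this
  have h3 : ∑ a, w a ^ 2 = ∑ i, v i * s i := by
    have e3 : ∀ i, s i = ∑ a, F a i * w a := by
      intro i
      rw [hs, hw]
      simp only [QM, Finset.sum_mul, Finset.mul_sum]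
      rw [Finset.sum_comm]
      apply Finset.sum_congr rfl
      intro a _
      apply Finset.sum_congr rfl
      intro j _
      ring
    simp only [e3, Finset.mul_sum]
    rw [Finset.sum_comm]
    apply Finset.sum_congr rfl
    intro a _
    rw [sq]
    conv_lhs => rw [hw]
    simp only [Finset.sum_mul]
    apply Finset.sum_congr rfl
    intro i _
    rw [hw]
    ring
  have h4 : (∑ i, v i * s i) ^ 2 ≤ r * ∑ i, s i ^ 2 := by
    rw [hr]
    exact Finset.sum_mul_sq_le_sq_mul_sq Finset.univ v s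
  have hS0 : 0 ≤ ∑ i, s i ^ 2 := Finset.sum_nonneg fun i _ => sq_nonneg _
  rcases hr0.eq_or_lt with h0 | hpos
  · rw [← h0]
    simpa using hS0
  · have h5 : (r ^ 2) ^ 2 ≤ r * ∑ i, s i ^ 2 := by
      refine le_trans ?_ h4
      rw [← h3]
      exact pow_le_pow_left₀ (by positivity) h2 2
    have h6 : r * r ^ 3 ≤ r * ∑ i, s i ^ 2 := by
      have : r * r ^ 3 = (r ^ 2) ^ 2 := by ring
      rw [this]
      exact h5
    exact le_of_mul_le_mul_left h6 hpos

/-- Summation over an orthonormal basis. -/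
lemma sum_basis [DecidableEq κ] (F : κ → ι → ℝ) (B : β → κ → ℝ)
    (hB : ∀ a b, ∑ l, B l a * B l b = if a = b then 1 else 0) :
    ∑ l, ∑ i, (∑ j, QM F i j * ∑ a, B l a * F a j) ^ 2 = trQ3M F := by
  have h1 : ∀ i, ∑ l, (∑ j, QM F i j * ∑ a, B l a * F a j) ^ 2 =
      ∑ j, ∑ k, QM F i j * QM F i k * QM F j k := by
    intro i
    have h2 : ∀ l, (∑ j, QM F i j * ∑ a, B l a * F a j) ^ 2 =
        ∑ j, ∑ k, QM F i j * QM F i k * ∑ a, ∑ b, (B l a * B l b) * (F a j * F b k) := by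
      intro l
      rw [sq, Finset.sum_mul_sum]
      apply Finset.sum_congr rfl
      intro j _
      apply Finset.sum_congr rfl
      intro k _
      rw [mul_mul_mul_comm, Finset.sum_mul_sum]
      congr 1
      apply Finset.sum_congr rfl
      intro a _
      apply Finset.sum_congr rfl
      intro b _
      ring
    simp only [h2]
    rw [Finset.sum_comm]
    apply Finset.sum_congr rfl
    intro j _
    rw [Finset.sum_comm]
    apply Finset.sum_congr rfl
    intro k _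
    rw [← Finset.mul_sum]
    congr 1
    have h3 : ∑ l, ∑ a, ∑ b, (B l a * B l b) * (F a j * F b k) =
        ∑ a, ∑ b, (∑ l, B l a * B l b) * (F a j * F b k) := by
      rw [Finset.sum_comm]
      apply Finset.sum_congr rfl
      intro a _
      rw [Finset.sum_comm]
      apply Finset.sum_congr rfl
      intro b _
      rw [Finset.sum_mul]
    rw [h3]
    simp only [hB, ite_mul, one_mul, zero_mul, Finset.sum_ite_eq, Finset.mem_univ, if_true]
    rfl
  rw [Finset.sum_comm]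
  unfold trQ3M
  apply Finset.sum_congr rfl
  intro i _
  rw [h1 i]
  apply Finset.sum_congr rfl
  intro j _
  apply Finset.sum_congr rfl
  intro k _
  rw [QM_symm F k i]
  ring

/-- The pinching inequality: `∑_l |Fᵀ B_l|⁶ ≤ tr Q³`. -/
theorem sum_cube_le_trQ3 [DecidableEq κ] (F : κ → ι → ℝ) (B : β → κ → ℝ)
    (hB : ∀ a b, ∑ l, B l a * B l b = if a = b then 1 else 0)
    (hU : ∀ l, ∑ a, B l a ^ 2 = 1) :
    ∑ l, (∑ i, (∑ a, B l a * F a i) ^ 2) ^ 3 ≤ trQ3M F := by
  rw [← sum_basis F B hB]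
  exact Finset.sum_le_sum fun l _ => cube_le F (B l) (hU l)

end Vale.Agent.Lib.P371.Sharp
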