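import Vale.Agent.Lib.P371.CalDefs

/-!
The dual inequality for rows: passage from `C¹` to `H¹` on a compact interval.

Rows are functions `Ψ : ℝ → κ → ι → ℝ` (`ι` indexes the functions, `κ` the components). The matrix
`qm (Ψ x)` is `Ψᵀ Ψ` and `tr3 (Ψ x)` is the trace of its cube.
-/

open Set MeasureTheory Real Filter Topology
open Vale.Agent.Lib.P371.Cal (RH1)

namespace Vale.Agent.Lib.P371.Sharp.Rows

variable {κ ι : Type*} [Fintype κ] [Fintype ι]

/-- The matrix `Aᵀ A`. -/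
def qm (A : κ → ι → ℝ) (i j : ι) : ℝ := ∑ a, A a i * A a j

/-- The trace of the cube of `Aᵀ A`. -/
def tr3 (A : κ → ι → ℝ) : ℝ := ∑ i, ∑ j, ∑ k, qm A i j * qm A j k * qm A k i

/-- The sum of the squares of the entries of `A`, the trace of `Aᵀ A`. -/
def rh (A : κ → ι → ℝ) : ℝ := ∑ a, ∑ i, A a i ^ 2

variable (κ ι) in
/-- The core inequality for `C¹` rows on a compact interval. -/
def CoreStatement : Prop :=
  ∀ (Ψ Ψ' : ℝ → κ → ι → ℝ), (∀ a i x, HasDerivAt (fun t => Ψ t a i) (Ψ' x a i) x) →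
    (∀ a i, Continuous fun x => Ψ' x a i) → ∀ {xL xR : ℝ}, xL < xR → ∀ {G b η : ℝ},
    (∀ e : ι → ℝ, ∑ i, e i ^ 2 = 1 → ∑ a, ∫ x in xL..xR, (∑ i, e i * Ψ x a i) ^ 2 ≤ G) →
    0 < b → 0 < η → b * G + 2 * η < π →
    b ^ 2 / 4 * ∫ x in xL..xR, tr3 (Ψ x) ≤
      (∫ x in xL..xR, rh (Ψ' x)) + b / (4 * η) * (rh (Ψ xL) ^ 2 + rh (Ψ xR) ^ 2)

omit [Fintype ι] in
lemma qm_comm (A : κ → ι → ℝ) (i j : ι) : qm A i j = qm A j i :=
  Finset.sum_congr rfl fun _ _ => mul_comm _ _

lemma rh_nonneg (A : κ → ι → ℝ) : 0 ≤ rh A :=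
  Finset.sum_nonneg fun _ _ => Finset.sum_nonneg fun _ _ => sq_nonneg _

/-- `tr Q³ = ‖A Q‖²`. -/
lemma tr3_eq_sum_sq (A : κ → ι → ℝ) :
    tr3 A = ∑ a, ∑ i, (∑ j, A a j * qm A j i) ^ 2 := by
  have e1 : ∀ a i, (∑ j, A a j * qm A j i) ^ 2
      = ∑ j, ∑ k, (A a j * A a k) * (qm A j i * qm A k i) := by
    intro a i
    rw [sq, Finset.sum_mul_sum]
    exact Finset.sum_congr rfl fun j _ => Finset.sum_congr rfl fun k _ => by ring
  simp only [e1]
  have e2 : ∑ a, ∑ i, ∑ j, ∑ k, (A a j * A a k) * (qm A j i * qm A k i) =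
      ∑ i, ∑ j, ∑ k, ∑ a, (A a j * A a k) * (qm A j i * qm A k i) := by
    rw [Finset.sum_comm]
    refine Finset.sum_congr rfl fun i _ => ?_
    rw [Finset.sum_comm]
    refine Finset.sum_congr rfl fun j _ => ?_
    rw [Finset.sum_comm]
  rw [e2]
  unfold tr3
  refine Finset.sum_congr rfl fun i _ => Finset.sum_congr rfl fun j _ =>
    Finset.sum_congr rfl fun k _ => ?_
  rw [← Finset.sum_mul]
  change _ = qm A j k * _
  rw [qm_comm A i j, qm_comm A k i]
  ring

lemma tr3_nonneg (A : κ → ι → ℝ) : 0 ≤ tr3 A := by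
  rw [tr3_eq_sum_sq]
  exact Finset.sum_nonneg fun _ _ => Finset.sum_nonneg fun _ _ => sq_nonneg _

lemma abs_qm_le (A : κ → ι → ℝ) (i j : ι) : |qm A i j| ≤ rh A := by
  unfold qm rh
  refine (Finset.abs_sum_le_sum_abs _ _).trans (Finset.sum_le_sum fun a _ => ?_)
  have h1 : A a i ^ 2 ≤ ∑ l, A a l ^ 2 :=
    Finset.single_le_sum (f := fun l => A a l ^ 2) (fun _ _ => sq_nonneg _) (Finset.mem_univ i)
  have h2 : A a j ^ 2 ≤ ∑ l, A a l ^ 2 :=
    Finset.single_le_sum (f := fun l => A a l ^ 2) (fun _ _ => sq_nonneg _) (Finset.mem_univ j)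
  rw [abs_le]
  constructor <;> nlinarith [sq_nonneg (A a i - A a j), sq_nonneg (A a i + A a j)]

lemma abs_tr3_le (A : κ → ι → ℝ) : |tr3 A| ≤ (Fintype.card ι : ℝ) ^ 3 * rh A ^ 3 := by
  unfold tr3
  refine (Finset.abs_sum_le_sum_abs _ _).trans ?_
  have hr := rh_nonneg A
  have h1 : ∀ i j k, |qm A i j * qm A j k * qm A k i| ≤ rh A ^ 3 := by
    intro i j k
    rw [abs_mul, abs_mul, pow_succ, pow_two]
    have a1 := abs_qm_le A i j
    have a2 := abs_qm_le A j k
    have a3 := abs_qm_le A k i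
    have a4 : |qm A i j| * |qm A j k| ≤ rh A * rh A :=
      mul_le_mul a1 a2 (abs_nonneg _) hr
    exact mul_le_mul a4 a3 (abs_nonneg _) (mul_nonneg hr hr)
  have h2 : ∀ i, |∑ j, ∑ k, qm A i j * qm A j k * qm A k i| ≤
      (Fintype.card ι : ℝ) * ((Fintype.card ι : ℝ) * rh A ^ 3) := by
    intro i
    refine (Finset.abs_sum_le_sum_abs _ _).trans ?_
    have h3 : ∀ j, |∑ k, qm A i j * qm A j k * qm A k i| ≤ (Fintype.card ι : ℝ) * rh A ^ 3 := by
      intro j
      refine (Finset.abs_sum_le_sum_abs _ _).trans ?_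
      refine (Finset.sum_le_sum fun k _ => h1 i j k).trans ?_
      simp [Finset.card_univ]
    refine (Finset.sum_le_sum fun j _ => h3 j).trans ?_
    simp [Finset.card_univ]
  refine (Finset.sum_le_sum fun i _ => h2 i).trans ?_
  simp only [Finset.sum_const, Finset.card_univ, nsmul_eq_mul]
  exact le_of_eq (by ring)

lemma continuous_tr3 : Continuous (tr3 : (κ → ι → ℝ) → ℝ) := by
  unfold tr3 qm
  fun_prop

lemma continuous_rh : Continuous (rh : (κ → ι → ℝ) → ℝ) := by
  unfold rh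
  fun_prop

lemma continuous_tr3_comp {F : ℝ → κ → ι → ℝ} (h : ∀ a i, Continuous fun x => F x a i) :
    Continuous fun x => tr3 (F x) :=
  continuous_tr3.comp (continuous_pi fun a => continuous_pi fun i => h a i)

lemma continuous_rh_comp {F : ℝ → κ → ι → ℝ} (h : ∀ a i, Continuous fun x => F x a i) :
    Continuous fun x => rh (F x) :=
  continuous_rh.comp (continuous_pi fun a => continuous_pi fun i => h a i)

lemma ap_exists_cont_approx {f : ℝ → ℝ} (hf : MemLp f 2 volume) {δ : ℝ} (hδ : 0 < δ) :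
    ∃ g : ℝ → ℝ, Continuous g ∧ MemLp g 2 volume ∧ ∫ x, (g x - f x) ^ 2 ≤ δ := by
  have hε : ENNReal.ofReal (√δ) ≠ 0 := by
    simp [hδ]
  obtain ⟨g, -, hle, cg, mg⟩ := hf.exists_hasCompactSupport_eLpNorm_sub_le (by norm_num) hε
  refine ⟨g, cg, mg, ?_⟩
  have hsub := hf.sub mg
  rw [hsub.eLpNorm_eq_integral_rpow_norm (by norm_num) (by norm_num)] at hle
  rw [ENNReal.ofReal_le_ofReal_iff (sqrt_nonneg _)] at hle
  have he : ∫ x, ‖(f - g) x‖ ^ (ENNReal.toReal 2) = ∫ x, (g x - f x) ^ 2 := by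
    refine integral_congr_ae (Eventually.of_forall fun x => ?_)
    simp only [Pi.sub_apply, ENNReal.toReal_ofNat, Real.rpow_two, Real.norm_eq_abs, sq_abs]
    ring
  rw [he] at hle
  have hI : 0 ≤ ∫ x, (g x - f x) ^ 2 := integral_nonneg fun x => sq_nonneg _
  have hs : (∫ x, (g x - f x) ^ 2) ^ (ENNReal.toReal 2)⁻¹ = √(∫ x, (g x - f x) ^ 2) := by
    rw [Real.sqrt_eq_rpow]
    norm_num
  rw [hs] at hle
  exact (Real.sqrt_le_sqrt_iff hδ.le).1 hle

lemma ap_intervalIntegrable {f : ℝ → ℝ} (h : MemLp f 2 volume) (a b : ℝ) :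
    IntervalIntegrable f volume a b := by
  rw [intervalIntegrable_iff]
  have : IsFiniteMeasure (volume.restrict (Set.uIoc a b)) :=
    ⟨by simp [Measure.restrict_apply, Set.uIoc, Real.volume_Ioc, ENNReal.ofReal_lt_top]⟩
  exact (h.restrict (Set.uIoc a b)).integrable (by norm_num)

lemma ap_rh1_continuous {f f' : ℝ → ℝ} (h : RH1 f f') : Continuous f := by
  have h1 : ∀ a b, IntervalIntegrable f' volume a b := ap_intervalIntegrable h.memLp_deriv
  have h2 := intervalIntegral.continuous_primitive h1 0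
  have h3 : f = fun x => f 0 + ∫ t in (0 : ℝ)..x, f' t := by
    funext x
    rw [h.primitive]
    ring
  rw [h3]
  exact continuous_const.add h2

lemma ap_cs {u : ℝ → ℝ} {a b : ℝ} (hab : a ≤ b) (hu : IntervalIntegrable u volume a b)
    (hu2 : IntervalIntegrable (fun x => u x ^ 2) volume a b) :
    (∫ x in a..b, u x) ^ 2 ≤ (b - a) * ∫ x in a..b, u x ^ 2 := by
  rcases hab.eq_or_lt with rfl | hlt
  · simp
  · set I := ∫ x in a..b, u x with hI
    set J := ∫ x in a..b, u x ^ 2 with hJ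
    have hL : 0 < b - a := sub_pos.2 hlt
    set m := I / (b - a) with hm
    have h0 : 0 ≤ ∫ x in a..b, (u x - m) ^ 2 :=
      intervalIntegral.integral_nonneg hab (fun x _ => sq_nonneg _)
    have h1 : ∫ x in a..b, (u x - m) ^ 2 = J - 2 * m * I + m ^ 2 * (b - a) := by
      have : ∀ x, (u x - m) ^ 2 = u x ^ 2 - 2 * m * u x + m ^ 2 := fun x => by ring
      simp only [this]
      rw [intervalIntegral.integral_add (hu2.sub (hu.const_mul _)) intervalIntegrable_const,
        intervalIntegral.integral_sub hu2 (hu.const_mul _), intervalIntegral.integral_const_mul,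
        intervalIntegral.integral_const]
      simp only [smul_eq_mul]
      ring
    have h2 : m * (b - a) = I := by
      rw [hm]
      field_simp
    rw [h1] at h0
    have h3 : m ^ 2 * (b - a) = m * I := by
      rw [← h2]
      ring
    have h4 : m * I ≤ J := by linarith
    have h5 : I ^ 2 = (b - a) * (m * I) := by
      rw [← h2]
      ring
    rw [h5]
    exact mul_le_mul_of_nonneg_left h4 hL.le

/-- The error of the primitive of the approximant. -/
lemma ap_err_bound {f f' g : ℝ → ℝ} (h : RH1 f f') (mg : MemLp g 2 volume)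
    (ch : Continuous g) {xL xR δ : ℝ} (hd : ∫ x in xL..xR, (g x - f' x) ^ 2 ≤ δ)
    {x : ℝ} (hx : x ∈ Icc xL xR) :
    (f xL + (∫ t in xL..x, g t) - f x) ^ 2 ≤ (xR - xL) * δ := by
  have hI1 : ∀ a b, IntervalIntegrable g volume a b := fun a b => ch.intervalIntegrable a b
  have hI2 : ∀ a b, IntervalIntegrable f' volume a b := ap_intervalIntegrable h.memLp_deriv
  have hsub : MemLp (fun x => g x - f' x) 2 volume := mg.sub h.memLp_deriv
  have hsq : Integrable fun x => (g x - f' x) ^ 2 := hsub.integrable_sq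
  have e1 : f xL + (∫ t in xL..x, g t) - f x = ∫ t in xL..x, (g t - f' t) := by
    rw [intervalIntegral.integral_sub (hI1 _ _) (hI2 _ _), h.primitive]
    ring
  rw [e1]
  have hxL : xL ≤ x := hx.1
  have hxR : x ≤ xR := hx.2
  have hLR : xL ≤ xR := hxL.trans hxR
  have h1 := ap_cs hxL ((hI1 xL x).sub (hI2 xL x)) (hsq.intervalIntegrable (a := xL) (b := x))
  have h2 : ∫ t in xL..x, (g t - f' t) ^ 2 ≤ ∫ t in xL..xR, (g t - f' t) ^ 2 :=
    intervalIntegral.integral_mono_interval le_rfl hxL hxR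
      (Eventually.of_forall fun t => sq_nonneg _) hsq.intervalIntegrable
  have h3 : 0 ≤ ∫ t in xL..x, (g t - f' t) ^ 2 :=
    intervalIntegral.integral_nonneg hxL fun t _ => sq_nonneg _
  calc (∫ t in xL..x, (g t - f' t)) ^ 2 ≤ (x - xL) * ∫ t in xL..x, (g t - f' t) ^ 2 := h1
    _ ≤ (xR - xL) * ∫ t in xL..x, (g t - f' t) ^ 2 :=
        mul_le_mul_of_nonneg_right (by linarith) h3
    _ ≤ (xR - xL) * δ := mul_le_mul_of_nonneg_left (h2.trans hd) (by linarith)

lemma ap_aux {s d : ℝ} (hs : 0 < s) (hd : s ^ 2 = d) : (1 + 1 / s) * d = d + s := by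
  subst hd
  field_simp

/-- The Gram bound survives a small uniform perturbation. -/
lemma rows_gram {Φ Ψ : ℝ → κ → ι → ℝ}
    (cΦ : ∀ a i, Continuous fun x => Φ x a i) (cΨ : ∀ a i, Continuous fun x => Ψ x a i)
    (mΦ : ∀ a i, MemLp (fun x => Φ x a i) 2 volume)
    (hG : ∀ e : ι → ℝ, ∑ i, e i ^ 2 = 1 → ∑ a, ∫ x, (∑ i, e i * Φ x a i) ^ 2 ≤ 1)
    {xL xR θ D : ℝ} (hx : xL < xR) (hθ : 0 < θ)
    (herr : ∀ a i, ∀ x ∈ Icc xL xR, (Ψ x a i - Φ x a i) ^ 2 ≤ D)
    (hsmall : (1 + θ / 2) + (1 + 2 / θ) *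
      ((Fintype.card κ : ℝ) * ((xR - xL) * ((Fintype.card ι : ℝ) * D))) ≤ 1 + θ)
    (e : ι → ℝ) (he : ∑ i, e i ^ 2 = 1) :
    ∑ a, ∫ x in xL..xR, (∑ i, e i * Ψ x a i) ^ 2 ≤ 1 + θ := by
  have h1p : 0 ≤ 1 + θ / 2 := by positivity
  have h2p : 0 ≤ 1 + 2 / θ := by positivity
  have hone : ∀ a, ∫ x in xL..xR, (∑ i, e i * Ψ x a i) ^ 2 ≤
      (1 + θ / 2) * (∫ x, (∑ i, e i * Φ x a i) ^ 2) +
        (1 + 2 / θ) * ((xR - xL) * ((Fintype.card ι : ℝ) * D)) := by
    intro a
    set A : ℝ → ℝ := fun x => ∑ i, e i * Φ x a i with hA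
    set C : ℝ → ℝ := fun x => ∑ i, e i * Ψ x a i with hC
    have cA : Continuous A := continuous_finsetSum _ fun i _ => continuous_const.mul (cΦ a i)
    have cC : Continuous C := continuous_finsetSum _ fun i _ => continuous_const.mul (cΨ a i)
    have cB : Continuous fun x => C x - A x := cC.sub cA
    have hAm : MemLp A 2 volume := by
      have hAe : A = ∑ i, fun x => e i * Φ x a i := by
        funext x
        simp [hA, Finset.sum_apply]
      rw [hAe]
      exact memLp_finsetSum' _ fun i _ => (mΦ a i).const_mul (e i)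
    have hAi : Integrable fun x => A x ^ 2 := hAm.integrable_sq
    have hAle : ∫ x in xL..xR, A x ^ 2 ≤ ∫ x, A x ^ 2 := by
      rw [intervalIntegral.integral_of_le hx.le]
      exact setIntegral_le_integral hAi (Eventually.of_forall fun x => sq_nonneg _)
    have hB : ∀ x ∈ Icc xL xR, (C x - A x) ^ 2 ≤ (Fintype.card ι : ℝ) * D := by
      intro x hxm
      have hBE : C x - A x = ∑ i, e i * (Ψ x a i - Φ x a i) := by
        simp only [hC, hA, mul_sub, Finset.sum_sub_distrib]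
      have hcs := Finset.sum_mul_sq_le_sq_mul_sq Finset.univ e (fun i => Ψ x a i - Φ x a i)
      rw [he, one_mul, ← hBE] at hcs
      refine hcs.trans ?_
      have h2 : ∑ i, (Ψ x a i - Φ x a i) ^ 2 ≤ ∑ _i : ι, D :=
        Finset.sum_le_sum fun i _ => herr a i x hxm
      rw [Finset.sum_const, Finset.card_univ, nsmul_eq_mul] at h2
      exact h2
    have hθ2 : 0 < θ / 2 := by positivity
    have hpoint : ∀ x, C x ^ 2 ≤ (1 + θ / 2) * A x ^ 2 + (1 + 2 / θ) * (C x - A x) ^ 2 := by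
      intro x
      have h2 : 2 * A x * (C x - A x) ≤ θ / 2 * A x ^ 2 + 2 / θ * (C x - A x) ^ 2 := by
        have h3 : θ / 2 * A x ^ 2 + 2 / θ * (C x - A x) ^ 2 - 2 * A x * (C x - A x) =
            2 / θ * (θ / 2 * A x - (C x - A x)) ^ 2 := by
          field_simp
          ring
        have h4 : 0 ≤ 2 / θ * (θ / 2 * A x - (C x - A x)) ^ 2 := by positivity
        linarith
      have h5 : C x = A x + (C x - A x) := by ring
      nlinarith
    have hBint : ∫ x in xL..xR, (C x - A x) ^ 2 ≤ (xR - xL) * ((Fintype.card ι : ℝ) * D) := by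
      have h1 : ∫ x in xL..xR, (C x - A x) ^ 2 ≤ ∫ _x in xL..xR, ((Fintype.card ι : ℝ) * D) :=
        intervalIntegral.integral_mono_on hx.le ((cB.fun_pow 2).intervalIntegrable _ _)
          intervalIntegrable_const hB
      rw [intervalIntegral.integral_const, smul_eq_mul] at h1
      exact h1
    have hsum : ∫ x in xL..xR, C x ^ 2 ≤
        (1 + θ / 2) * (∫ x in xL..xR, A x ^ 2) + (1 + 2 / θ) * ∫ x in xL..xR, (C x - A x) ^ 2 := by
      have c1 : Continuous fun x => (1 + θ / 2) * A x ^ 2 := continuous_const.mul (cA.fun_pow 2)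
      have c2 : Continuous fun x => (1 + 2 / θ) * (C x - A x) ^ 2 :=
        continuous_const.mul (cB.fun_pow 2)
      have c3 : Continuous fun x => C x ^ 2 := cC.fun_pow 2
      have e2 : ∫ x in xL..xR, ((1 + θ / 2) * A x ^ 2 + (1 + 2 / θ) * (C x - A x) ^ 2) =
          (1 + θ / 2) * (∫ x in xL..xR, A x ^ 2) +
            (1 + 2 / θ) * ∫ x in xL..xR, (C x - A x) ^ 2 := by
        rw [intervalIntegral.integral_add (c1.intervalIntegrable _ _) (c2.intervalIntegrable _ _),
          intervalIntegral.integral_const_mul, intervalIntegral.integral_const_mul]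
      rw [← e2]
      exact intervalIntegral.integral_mono_on hx.le (c3.intervalIntegrable _ _)
        ((c1.intervalIntegrable _ _).add (c2.intervalIntegrable _ _))
        (fun x _ => hpoint x)
    calc ∫ x in xL..xR, C x ^ 2
        ≤ (1 + θ / 2) * (∫ x in xL..xR, A x ^ 2) +
            (1 + 2 / θ) * ∫ x in xL..xR, (C x - A x) ^ 2 := hsum
      _ ≤ (1 + θ / 2) * (∫ x, A x ^ 2) +
            (1 + 2 / θ) * ((xR - xL) * ((Fintype.card ι : ℝ) * D)) :=
          add_le_add (mul_le_mul_of_nonneg_left hAle h1p) (mul_le_mul_of_nonneg_left hBint h2p)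
  have hs := Finset.sum_le_sum (s := Finset.univ) fun a (_ : a ∈ Finset.univ) => hone a
  rw [Finset.sum_add_distrib, ← Finset.mul_sum, Finset.sum_const, Finset.card_univ,
    nsmul_eq_mul] at hs
  have h3 := mul_le_mul_of_nonneg_left (hG e he) h1p
  have h4 : (Fintype.card κ : ℝ) * ((1 + 2 / θ) * ((xR - xL) * ((Fintype.card ι : ℝ) * D))) =
      (1 + 2 / θ) * ((Fintype.card κ : ℝ) * ((xR - xL) * ((Fintype.card ι : ℝ) * D))) := by ring
  rw [h4] at hs
  linarith

/-- Passing from `C¹` to `H¹` on a compact interval. -/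
theorem rows_dual_interval (core : CoreStatement κ ι) (Φ Φ' : ℝ → κ → ι → ℝ)
    (h : ∀ a i, RH1 (fun x => Φ x a i) (fun x => Φ' x a i))
    (hG : ∀ e : ι → ℝ, ∑ i, e i ^ 2 = 1 → ∑ a, ∫ x, (∑ i, e i * Φ x a i) ^ 2 ≤ 1)
    {xL xR : ℝ} (hx : xL < xR) {b η θ : ℝ} (hb : 0 < b) (hη : 0 < η) (hθ : 0 < θ)
    (hbη : b * (1 + θ) + 2 * η < π) :
    b ^ 2 / 4 * ∫ x in xL..xR, tr3 (Φ x) ≤
      (∫ x in xL..xR, rh (Φ' x)) + b / (4 * η) * (rh (Φ xL) ^ 2 + rh (Φ xR) ^ 2) := by
  classical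
  -- the parameters
  let δ : ℕ → ℝ := fun n => 1 / ((n : ℝ) + 1)
  have hδpos : ∀ n, 0 < δ n := fun n => by
    simp only [δ]
    positivity
  have hδle : ∀ n, δ n ≤ 1 := fun n => by
    simp only [δ]
    rw [div_le_one (by positivity)]
    have : (0 : ℝ) ≤ n := Nat.cast_nonneg n
    linarith
  have hδlim : Tendsto δ atTop (𝓝 0) := tendsto_one_div_add_atTop_nhds_zero_nat
  have hsqrtlim : Tendsto (fun n => √(δ n)) atTop (𝓝 0) := by
    have := (Real.continuous_sqrt.tendsto 0).comp hδlim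
    rw [Real.sqrt_zero] at this
    exact this
  choose g cg mg hgδ using fun (n : ℕ) (a : κ) (i : ι) =>
    ap_exists_cont_approx (h a i).memLp_deriv (hδpos n)
  have hL : 0 < xR - xL := sub_pos.2 hx
  have hLR := hx.le
  have hgi : ∀ n a i, Integrable fun x => (g n a i x - Φ' x a i) ^ 2 := fun n a i =>
    ((mg n a i).sub (h a i).memLp_deriv).integrable_sq
  have hd : ∀ n a i, ∫ x in xL..xR, (g n a i x - Φ' x a i) ^ 2 ≤ δ n := by
    intro n a i
    rw [intervalIntegral.integral_of_le hLR]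
    exact (setIntegral_le_integral (hgi n a i)
      (Eventually.of_forall fun x => sq_nonneg _)).trans (hgδ n a i)
  have cΦ : ∀ a i, Continuous fun x => Φ x a i := fun a i => ap_rh1_continuous (h a i)
  -- the smallness condition holds eventually
  set Nk : ℝ := (Fintype.card κ : ℝ) with hNk
  set Ni : ℝ := (Fintype.card ι : ℝ) with hNi
  have hNk0 : 0 ≤ Nk := Nat.cast_nonneg _
  have hNi0 : 0 ≤ Ni := Nat.cast_nonneg _
  have hsmall : ∀ᶠ n in atTop, (1 + θ / 2) + (1 + 2 / θ) *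
      (Nk * ((xR - xL) * (Ni * ((xR - xL) * δ n)))) ≤ 1 + θ := by
    have hlim : Tendsto (fun n => (1 + θ / 2) + (1 + 2 / θ) *
        (Nk * ((xR - xL) * (Ni * ((xR - xL) * δ n))))) atTop
        (𝓝 ((1 + θ / 2) + (1 + 2 / θ) * (Nk * ((xR - xL) * (Ni * ((xR - xL) * 0)))))) :=
      tendsto_const_nhds.add (tendsto_const_nhds.mul (tendsto_const_nhds.mul
        (tendsto_const_nhds.mul (tendsto_const_nhds.mul (tendsto_const_nhds.mul hδlim)))))
    have hv : (1 + θ / 2) + (1 + 2 / θ) * (Nk * ((xR - xL) * (Ni * ((xR - xL) * 0)))) =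
        1 + θ / 2 := by
      simp
    rw [hv] at hlim
    have hlt : 1 + θ / 2 < 1 + θ := by linarith
    exact (hlim.eventually (gt_mem_nhds hlt)).mono fun n hn => hn.le
  -- the approximants
  let Φt : ℕ → ℝ → κ → ι → ℝ := fun n x a i => Φ xL a i + ∫ t in xL..x, g n a i t
  have cΦt : ∀ n a i, Continuous fun x => Φt n x a i := fun n a i =>
    continuous_const.add (intervalIntegral.continuous_primitive
      (fun p q => (cg n a i).intervalIntegrable p q) xL)
  have dΦt : ∀ n a i x, HasDerivAt (fun t => Φt n t a i) (g n a i x) x := by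
    intro n a i x
    have h1 : HasDerivAt (fun u => ∫ t in xL..u, g n a i t) (g n a i x) x :=
      ((cg n a i).integral_hasStrictDerivAt xL x).hasDerivAt
    exact h1.const_add _
  have herr : ∀ n a i, ∀ x ∈ Icc xL xR, (Φt n x a i - Φ x a i) ^ 2 ≤ (xR - xL) * δ n :=
    fun n a i x hx' => ap_err_bound (h a i) (mg n a i) (cg n a i) (hd n a i) hx'
  have hconv : ∀ a i, ∀ x ∈ Icc xL xR, Tendsto (fun n => Φt n x a i) atTop (𝓝 (Φ x a i)) := by
    intro a i x hx'
    have h1 : Tendsto (fun n => (xR - xL) * δ n) atTop (𝓝 0) := by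
      simpa using hδlim.const_mul (xR - xL)
    have h2 : Tendsto (fun n => (Φt n x a i - Φ x a i) ^ 2) atTop (𝓝 0) :=
      squeeze_zero (fun n => sq_nonneg _) (fun n => herr n a i x hx') h1
    have h3 : Tendsto (fun n => √((Φt n x a i - Φ x a i) ^ 2)) atTop (𝓝 0) := by
      have := (Real.continuous_sqrt.tendsto 0).comp h2
      rw [Real.sqrt_zero] at this
      exact this
    have h4 : Tendsto (fun n => |Φt n x a i - Φ x a i|) atTop (𝓝 0) := by
      simpa only [Real.sqrt_sq_eq_abs] using h3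
    have h5 : Tendsto (fun n => Φt n x a i - Φ x a i) atTop (𝓝 0) :=
      (tendsto_zero_iff_abs_tendsto_zero _).2 h4
    have h6 := h5.add_const (Φ x a i)
    simpa using h6
  have hconvA : ∀ x ∈ Icc xL xR, Tendsto (fun n => Φt n x) atTop (𝓝 (Φ x)) := by
    intro x hx'
    exact tendsto_pi_nhds.2 fun a => tendsto_pi_nhds.2 fun i => hconv a i x hx'
  -- the step inequality
  have hstep : ∀ᶠ n in atTop,
      b ^ 2 / 4 * ∫ x in xL..xR, tr3 (Φt n x) ≤
        (∫ x in xL..xR, rh (fun a i => g n a i x)) + b / (4 * η) *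
          (rh (Φt n xL) ^ 2 + rh (Φt n xR) ^ 2) := by
    refine hsmall.mono fun n hn => ?_
    refine core (Φt n) (fun x a i => g n a i x) (dΦt n) (cg n) hx (G := 1 + θ) ?_ hb hη hbη
    exact fun e he => rows_gram cΦ (cΦt n) (fun a i => (h a i).memLp) hG hx hθ (herr n) hn e he
  -- upper bound for the kinetic part
  set F : ℝ := ∫ x in xL..xR, rh (Φ' x) with hF
  have hΦ'i : ∀ a i, IntervalIntegrable (fun x => Φ' x a i ^ 2) volume xL xR := fun a i =>
    (h a i).memLp_deriv.integrable_sq.intervalIntegrable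
  have hkin : ∀ n, (∫ x in xL..xR, rh (fun a i => g n a i x)) ≤
      (1 + √(δ n)) * F + Nk * (Ni * (δ n + √(δ n))) := by
    intro n
    have hs : 0 < √(δ n) := Real.sqrt_pos.2 (hδpos n)
    have hss : √(δ n) ^ 2 = δ n := Real.sq_sqrt (hδpos n).le
    have hone : ∀ a i, ∫ x in xL..xR, g n a i x ^ 2 ≤
        (1 + √(δ n)) * (∫ x in xL..xR, Φ' x a i ^ 2) + (δ n + √(δ n)) := by
      intro a i
      have h1 : ∀ x, g n a i x ^ 2 ≤ (1 + √(δ n)) * Φ' x a i ^ 2 +
          (1 + 1 / √(δ n)) * (g n a i x - Φ' x a i) ^ 2 := by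
        intro x
        have h2 : (1 + √(δ n)) * Φ' x a i ^ 2 + (1 + 1 / √(δ n)) * (g n a i x - Φ' x a i) ^ 2 -
            g n a i x ^ 2 = 1 / √(δ n) * (√(δ n) * Φ' x a i - (g n a i x - Φ' x a i)) ^ 2 := by
          field_simp
          ring
        have h3 : 0 ≤ 1 / √(δ n) * (√(δ n) * Φ' x a i - (g n a i x - Φ' x a i)) ^ 2 := by
          positivity
        linarith
      have i1 : IntervalIntegrable (fun x => (1 + √(δ n)) * Φ' x a i ^ 2) volume xL xR :=
        (hΦ'i a i).const_mul _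
      have i2 : IntervalIntegrable (fun x => (1 + 1 / √(δ n)) * (g n a i x - Φ' x a i) ^ 2)
          volume xL xR := (hgi n a i).intervalIntegrable.const_mul _
      have h4 : ∫ x in xL..xR, g n a i x ^ 2 ≤ ∫ x in xL..xR, ((1 + √(δ n)) * Φ' x a i ^ 2 +
          (1 + 1 / √(δ n)) * (g n a i x - Φ' x a i) ^ 2) :=
        intervalIntegral.integral_mono_on hLR (((cg n a i).fun_pow 2).intervalIntegrable _ _)
          (i1.add i2) fun x _ => h1 x
      rw [intervalIntegral.integral_add i1 i2, intervalIntegral.integral_const_mul,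
        intervalIntegral.integral_const_mul] at h4
      have h5 : (1 + 1 / √(δ n)) * (∫ x in xL..xR, (g n a i x - Φ' x a i) ^ 2) ≤
          δ n + √(δ n) := by
        have h6 : (1 + 1 / √(δ n)) * (∫ x in xL..xR, (g n a i x - Φ' x a i) ^ 2) ≤
            (1 + 1 / √(δ n)) * δ n :=
          mul_le_mul_of_nonneg_left (hd n a i) (by positivity)
        have h7 : (1 + 1 / √(δ n)) * δ n = δ n + √(δ n) := ap_aux hs hss
        linarith
      linarith
    have e1 : ∫ x in xL..xR, rh (fun a i => g n a i x) =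
        ∑ a, ∑ i, ∫ x in xL..xR, g n a i x ^ 2 := by
      unfold rh
      rw [intervalIntegral.integral_finsetSum]
      · refine Finset.sum_congr rfl fun a _ => ?_
        exact intervalIntegral.integral_finsetSum fun i _ =>
          ((cg n a i).fun_pow 2).intervalIntegrable _ _
      · intro a _
        exact (continuous_finsetSum _ fun i _ => (cg n a i).fun_pow 2).intervalIntegrable _ _
    have e2 : F = ∑ a, ∑ i, ∫ x in xL..xR, Φ' x a i ^ 2 := by
      rw [hF]
      unfold rh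
      rw [intervalIntegral.integral_finsetSum]
      · refine Finset.sum_congr rfl fun a _ => ?_
        exact intervalIntegral.integral_finsetSum fun i _ => hΦ'i a i
      · intro a _
        have : IntervalIntegrable (∑ i, fun x => Φ' x a i ^ 2) volume xL xR := by
          exact IntervalIntegrable.sum _ fun i _ => hΦ'i a i
        convert this using 1
        funext x
        simp [Finset.sum_apply]
    rw [e1, e2, Finset.mul_sum]
    have h8 : ∀ a, ∑ i, ∫ x in xL..xR, g n a i x ^ 2 ≤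
        (1 + √(δ n)) * (∑ i, ∫ x in xL..xR, Φ' x a i ^ 2) + Ni * (δ n + √(δ n)) := by
      intro a
      have h9 := Finset.sum_le_sum (s := Finset.univ) fun i (_ : i ∈ Finset.univ) => hone a i
      rw [Finset.sum_add_distrib, Finset.sum_const, Finset.card_univ, nsmul_eq_mul,
        ← Finset.mul_sum] at h9
      exact h9
    have h9 := Finset.sum_le_sum (s := Finset.univ) fun a (_ : a ∈ Finset.univ) => h8 a
    rw [Finset.sum_add_distrib, Finset.sum_const, Finset.card_univ, nsmul_eq_mul] at h9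
    exact h9
  -- the limits
  have hFlim : Tendsto (fun n => (1 + √(δ n)) * F + Nk * (Ni * (δ n + √(δ n)))) atTop
      (𝓝 ((1 + 0) * F + Nk * (Ni * (0 + 0)))) :=
    ((tendsto_const_nhds.add hsqrtlim).mul tendsto_const_nhds).add
      (tendsto_const_nhds.mul (tendsto_const_nhds.mul (hδlim.add hsqrtlim)))
  have hxLm : xL ∈ Icc xL xR := left_mem_Icc.2 hLR
  have hxRm : xR ∈ Icc xL xR := right_mem_Icc.2 hLR
  have hrhlim : ∀ x ∈ Icc xL xR, Tendsto (fun n => rh (Φt n x)) atTop (𝓝 (rh (Φ x))) :=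
    fun x hx' => (continuous_rh.tendsto _).comp (hconvA x hx')
  have htrlim : ∀ x ∈ Icc xL xR, Tendsto (fun n => tr3 (Φt n x)) atTop (𝓝 (tr3 (Φ x))) :=
    fun x hx' => (continuous_tr3.tendsto _).comp (hconvA x hx')
  have hRlim : Tendsto (fun n => (1 + √(δ n)) * F + Nk * (Ni * (δ n + √(δ n))) + b / (4 * η) *
      (rh (Φt n xL) ^ 2 + rh (Φt n xR) ^ 2)) atTop
      (𝓝 (F + b / (4 * η) * (rh (Φ xL) ^ 2 + rh (Φ xR) ^ 2))) := by
    have h1 := hFlim.add (tendsto_const_nhds (x := b / (4 * η)) |>.mul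
      (((hrhlim xL hxLm).pow 2).add ((hrhlim xR hxRm).pow 2)))
    simpa using h1
  -- dominated convergence for the cubic term
  obtain ⟨C, hC⟩ : ∃ C, ∀ x ∈ Icc xL xR, rh (Φ x) ≤ C := by
    have c1 : Continuous fun x => rh (Φ x) := continuous_rh_comp cΦ
    obtain ⟨C, hC⟩ := (isCompact_Icc (a := xL) (b := xR)).bddAbove_image c1.continuousOn
    exact ⟨C, fun x hx' => hC ⟨x, hx', rfl⟩⟩
  have hC0 : 0 ≤ C := (rh_nonneg _).trans (hC xL hxLm)
  have hKbound : ∀ n, ∀ x ∈ Icc xL xR,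
      rh (Φt n x) ≤ 2 * C + 2 * (Nk * (Ni * (xR - xL))) := by
    intro n x hx'
    have h1 : ∀ a i, Φt n x a i ^ 2 ≤ 2 * Φ x a i ^ 2 + 2 * (xR - xL) := by
      intro a i
      have h2 := herr n a i x hx'
      have h3 : (xR - xL) * δ n ≤ (xR - xL) * 1 := mul_le_mul_of_nonneg_left (hδle n) hL.le
      nlinarith [sq_nonneg (Φt n x a i - 2 * Φ x a i)]
    have h3 : ∀ a, ∑ i, Φt n x a i ^ 2 ≤ 2 * ∑ i, Φ x a i ^ 2 + Ni * (2 * (xR - xL)) := by
      intro a
      have h4 := Finset.sum_le_sum (s := Finset.univ) fun i (_ : i ∈ Finset.univ) => h1 a i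
      rw [Finset.sum_add_distrib, ← Finset.mul_sum, Finset.sum_const, Finset.card_univ,
        nsmul_eq_mul] at h4
      exact h4
    have h4 := Finset.sum_le_sum (s := Finset.univ) fun a (_ : a ∈ Finset.univ) => h3 a
    rw [Finset.sum_add_distrib, ← Finset.mul_sum, Finset.sum_const, Finset.card_univ,
      nsmul_eq_mul] at h4
    have h5 := hC x hx'
    change rh (Φt n x) ≤ _ at h4
    have h6 : rh (Φ x) = ∑ a, ∑ i, Φ x a i ^ 2 := rfl
    rw [← h6] at h4
    have h7 : Nk * (Ni * (2 * (xR - xL))) = 2 * (Nk * (Ni * (xR - xL))) := by ring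
    linarith
  have hNL : 0 ≤ Nk * (Ni * (xR - xL)) := by positivity
  have hLlim : Tendsto (fun n => b ^ 2 / 4 * ∫ x in xL..xR, tr3 (Φt n x)) atTop
      (𝓝 (b ^ 2 / 4 * ∫ x in xL..xR, tr3 (Φ x))) := by
    refine Tendsto.const_mul _ ?_
    refine intervalIntegral.tendsto_integral_filter_of_dominated_convergence
      (fun _ => Ni ^ 3 * (2 * C + 2 * (Nk * (Ni * (xR - xL)))) ^ 3) ?_ ?_ intervalIntegrable_const ?_
    · refine Eventually.of_forall fun n => Continuous.aestronglyMeasurable ?_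
      exact continuous_tr3_comp (cΦt n)
    · refine Eventually.of_forall fun n => Eventually.of_forall fun x hx' => ?_
      rw [uIoc_of_le hLR] at hx'
      have hxm : x ∈ Icc xL xR := Ioc_subset_Icc_self hx'
      rw [Real.norm_eq_abs]
      refine (abs_tr3_le _).trans ?_
      refine mul_le_mul_of_nonneg_left ?_ (by positivity)
      exact pow_le_pow_left₀ (rh_nonneg _) (hKbound n x hxm) 3
    · refine Eventually.of_forall fun x hx' => ?_
      rw [uIoc_of_le hLR] at hx'
      exact htrlim x (Ioc_subset_Icc_self hx')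
  refine le_of_tendsto_of_tendsto hLlim hRlim ?_
  filter_upwards [hstep] with n hn
  refine hn.trans ?_
  have := hkin n
  linarith

end Vale.Agent.Lib.P371.Sharp.Rows
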