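import Vale.Agent.Lib.P371.Sharp.RowsAlg0
import Vale.Agent.Lib.P371.Spectral

/-!
Complex to real block reduction, pointwise: for `z : Fin N → Fin m → ℂ` the real matrix `blockF z`
has rows indexed by `Fin m × Bool` and columns indexed by `Fin N × Bool`, and for a Hermitian `A`:
`2 ∑_α (∑_j |⟨row_α, z_j⟩|²)³ ≤ tr Q³`.
-/

open Real Matrix

namespace Vale.Agent.Lib.P371.Sharp

open Vale.Agent.Lib.P371

variable {m N : ℕ}

/-- Real or imaginary part. -/
noncomputable def reR (s : Bool) (y : ℂ) : ℝ := if s then y.im else y.re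

/-- Multiplication by `i` or `1`. -/
noncomputable def mulI (t : Bool) (y : ℂ) : ℂ := if t then Complex.I * y else y

/-- The real block matrix of a family of complex vectors. -/
noncomputable def blockF (z : Fin N → Fin m → ℂ) : Fin m × Bool → Fin N × Bool → ℝ :=
  fun a i => reR a.2 (mulI i.2 (z i.1 a.1))

/-- The real orthonormal basis attached to the rows `E`. -/
noncomputable def blockB (E : Fin m → Fin m → ℂ) : Fin m × Bool → Fin m × Bool → ℝ :=
  fun l a => if a.2 then -(mulI l.2 (E l.1 a.1)).im else (mulI l.2 (E l.1 a.1)).re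

lemma sq_reR_add (y : ℂ) : reR false y ^ 2 + reR true y ^ 2 = ‖y‖ ^ 2 := by
  simp [reR, Complex.sq_norm, Complex.normSq_apply]
  ring

lemma norm_mulI (t : Bool) (y : ℂ) : ‖mulI t y‖ = ‖y‖ := by
  cases t <;> simp [mulI]

lemma sum_block_mul (E : Fin m → Fin m → ℂ) (z : Fin N → Fin m → ℂ) (l : Fin m × Bool)
    (i : Fin N × Bool) :
    ∑ a, blockB E l a * blockF z a i =
      (mulI i.2 (mulI l.2 (∑ c, E l.1 c * z i.1 c))).re := by
  rw [Fintype.sum_prod_type]
  simp only [Fintype.sum_bool, blockB, blockF, reR, if_true, Bool.false_eq_true, if_false]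
  have h : ∀ c, -(mulI l.2 (E l.1 c)).im * (mulI i.2 (z i.1 c)).im +
      (mulI l.2 (E l.1 c)).re * (mulI i.2 (z i.1 c)).re =
      (mulI i.2 (mulI l.2 (E l.1 c * z i.1 c))).re := by
    intro c
    rcases l with ⟨α, s⟩
    rcases i with ⟨j, t⟩
    cases s <;> cases t <;> simp [mulI, Complex.mul_re, Complex.mul_im] <;> ring
  simp only [h]
  have h2 : ∀ (s t : Bool) (f : Fin m → ℂ), ∑ c, (mulI t (mulI s (f c))).re =
      (mulI t (mulI s (∑ c, f c))).re := by
    intro s t f
    cases s <;> cases t <;> simp [mulI, Complex.re_sum, Complex.im_sum, Finset.mul_sum]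
  exact h2 l.2 i.2 _

lemma sum_sq_block (E : Fin m → Fin m → ℂ) (z : Fin N → Fin m → ℂ) (l : Fin m × Bool) :
    ∑ i, (∑ a, blockB E l a * blockF z a i) ^ 2 = ∑ j, ‖∑ c, E l.1 c * z j c‖ ^ 2 := by
  simp only [sum_block_mul]
  rw [Fintype.sum_prod_type]
  apply Finset.sum_congr rfl
  intro j _
  simp only [Fintype.sum_bool]
  rw [← norm_mulI l.2 (∑ c, E l.1 c * z j c)]
  generalize mulI l.2 (∑ c, E l.1 c * z j c) = w
  simp [mulI, Complex.sq_norm, Complex.normSq_apply]
  ring

lemma block_unit {A : Matrix (Fin m) (Fin m) ℂ} (hA : A.IsHermitian) (l : Fin m × Bool) :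
    ∑ a, blockB (rowsU hA) l a ^ 2 = 1 := by
  rw [Fintype.sum_prod_type]
  simp only [Fintype.sum_bool, blockB, if_true, Bool.false_eq_true, if_false]
  rw [← rows_unit hA l.1]
  apply Finset.sum_congr rfl
  intro c _
  rw [← norm_mulI l.2 (rowsU hA l.1 c)]
  generalize mulI l.2 (rowsU hA l.1 c) = w
  simp [Complex.sq_norm, Complex.normSq_apply]
  ring

lemma rows_orth {A : Matrix (Fin m) (Fin m) ℂ} (hA : A.IsHermitian) (c d : Fin m) :
    ∑ α, star (rowsU hA α c) * rowsU hA α d = if c = d then 1 else 0 := by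
  have hUU : (hA.eigenvectorUnitary : Matrix (Fin m) (Fin m) ℂ) *
      star (hA.eigenvectorUnitary : Matrix (Fin m) (Fin m) ℂ) = 1 :=
    Unitary.coe_mul_star_self hA.eigenvectorUnitary
  have h := congrFun (congrFun hUU c) d
  rw [Matrix.mul_apply, Matrix.one_apply] at h
  rw [← h]
  apply Finset.sum_congr rfl
  intro α _
  simp [rowsU, star_eq_conjTranspose, conjTranspose_apply]

lemma block_orth {A : Matrix (Fin m) (Fin m) ℂ} (hA : A.IsHermitian) (a b : Fin m × Bool) :
    ∑ l, blockB (rowsU hA) l a * blockB (rowsU hA) l b = if a = b then 1 else 0 := by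
  rcases a with ⟨c, s⟩
  rcases b with ⟨d, t⟩
  have h := rows_orth hA c d
  have hre : ∑ α, ((rowsU hA α c).re * (rowsU hA α d).re + (rowsU hA α c).im * (rowsU hA α d).im) =
      if c = d then 1 else 0 := by
    have h2 := congrArg Complex.re h
    rw [Complex.re_sum] at h2
    simp only [Complex.mul_re, Complex.star_def, Complex.conj_re, Complex.conj_im] at h2
    have h3 : (if c = d then (1 : ℂ) else 0).re = if c = d then (1 : ℝ) else 0 := by
      split_ifs <;> simp
    rw [h3] at h2
    rw [← h2]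
    apply Finset.sum_congr rfl
    intro α _
    ring
  have him : ∑ α, ((rowsU hA α c).re * (rowsU hA α d).im - (rowsU hA α c).im * (rowsU hA α d).re) =
      0 := by
    have h2 := congrArg Complex.im h
    rw [Complex.im_sum] at h2
    simp only [Complex.mul_im, Complex.star_def, Complex.conj_re, Complex.conj_im] at h2
    have h3 : (if c = d then (1 : ℂ) else 0).im = 0 := by
      split_ifs <;> simp
    rw [h3] at h2
    rw [← h2]
    apply Finset.sum_congr rfl
    intro α _
    ring
  have v1 : ∀ α c, blockB (rowsU hA) (α, false) (c, false) = (rowsU hA α c).re := by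
    intro α c; simp [blockB, mulI]
  have v2 : ∀ α c, blockB (rowsU hA) (α, false) (c, true) = -(rowsU hA α c).im := by
    intro α c; simp [blockB, mulI]
  have v3 : ∀ α c, blockB (rowsU hA) (α, true) (c, false) = -(rowsU hA α c).im := by
    intro α c; simp [blockB, mulI]
  have v4 : ∀ α c, blockB (rowsU hA) (α, true) (c, true) = -(rowsU hA α c).re := by
    intro α c; simp [blockB, mulI]
  rw [Fintype.sum_prod_type]
  simp only [Fintype.sum_bool]
  cases s <;> cases t
  · simp only [v1, v3, Prod.mk.injEq, and_true]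
    rw [← hre]
    apply Finset.sum_congr rfl
    intro α _
    ring
  · have h0 : ((c, false) : Fin m × Bool) ≠ (d, true) := by simp
    rw [if_neg h0]
    simp only [v1, v2, v3, v4]
    have h1 := congrArg Neg.neg him
    rw [neg_zero, ← Finset.sum_neg_distrib] at h1
    rw [← h1]
    apply Finset.sum_congr rfl
    intro α _
    ring
  · have h0 : ((c, true) : Fin m × Bool) ≠ (d, false) := by simp
    rw [if_neg h0]
    simp only [v1, v2, v3, v4]
    rw [← him]
    apply Finset.sum_congr rfl
    intro α _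
    ring
  · simp only [v2, v4, Prod.mk.injEq, and_true]
    rw [← hre]
    apply Finset.sum_congr rfl
    intro α _
    ring

/-- The pointwise trace inequality. -/
theorem pointwise_trace {A : Matrix (Fin m) (Fin m) ℂ} (hA : A.IsHermitian)
    (z : Fin N → Fin m → ℂ) :
    2 * ∑ α, (∑ j, ‖∑ c, rowsU hA α c * z j c‖ ^ 2) ^ 3 ≤ trQ3M (blockF z) := by
  have h := sum_cube_le_trQ3 (blockF z) (blockB (rowsU hA)) (block_orth hA) (block_unit hA)
  have h2 : ∀ l : Fin m × Bool, ∑ i, (∑ a, blockB (rowsU hA) l a * blockF z a i) ^ 2 =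
      ∑ j, ‖∑ c, rowsU hA l.1 c * z j c‖ ^ 2 := fun l => sum_sq_block _ z l
  have h3 : ∑ l : Fin m × Bool, (∑ i, (∑ a, blockB (rowsU hA) l a * blockF z a i) ^ 2) ^ 3 =
      2 * ∑ α, (∑ j, ‖∑ c, rowsU hA α c * z j c‖ ^ 2) ^ 3 := by
    rw [Fintype.sum_prod_type, Finset.mul_sum]
    apply Finset.sum_congr rfl
    intro α _
    simp only [Fintype.sum_bool, h2]
    ring
  rw [← h3]
  exact h

/-- The kinetic density of the block matrix. -/
lemma sum_block_sq (z : Fin N → Fin m → ℂ) :
    ∑ a, ∑ i, blockF z a i ^ 2 = 2 * ∑ j, ∑ c, ‖z j c‖ ^ 2 := by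
  rw [Finset.sum_comm, Fintype.sum_prod_type, Finset.mul_sum]
  apply Finset.sum_congr rfl
  intro j _
  simp only [Fintype.sum_bool, blockF]
  have h : ∀ t, ∑ a : Fin m × Bool, reR a.2 (mulI t (z j a.1)) ^ 2 = ∑ c, ‖z j c‖ ^ 2 := by
    intro t
    rw [Fintype.sum_prod_type]
    apply Finset.sum_congr rfl
    intro c _
    simp only [Fintype.sum_bool]
    have := sq_reR_add (mulI t (z j c))
    rw [norm_mulI] at this
    linarith
  rw [h, h]
  ring

end Vale.Agent.Lib.P371.Sharp
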