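import Vale.Agent.Lib.P371.Sharp.RowsApprox

/-!
The dual inequality for rows on the line: `π² / 4 ∫ tr Q³ ≤ ∫ ∑ |Φ'|²`.
-/

open Set MeasureTheory Real Filter Topology
open Vale.Agent.Lib.P371.Cal (RH1)

namespace Vale.Agent.Lib.P371.Sharp.Rows

variable {κ ι : Type*} [Fintype κ] [Fintype ι]

/-- a nonnegative integrable function is small somewhere far to the right -/
lemma exists_small_right {ρ : ℝ → ℝ} (hi : Integrable ρ) (M : ℝ) {ε : ℝ} (hε : 0 < ε) :
    ∃ x, M ≤ x ∧ ρ x ≤ ε := by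
  by_contra hc
  push Not at hc
  have h1 : IntegrableOn (fun _ : ℝ => ε) (Ioi M) volume := by
    refine Integrable.mono' hi.integrableOn.norm
      (aestronglyMeasurable_const) ?_
    filter_upwards [ae_restrict_mem measurableSet_Ioi] with x hx
    have := hc x (le_of_lt hx)
    rw [Real.norm_eq_abs, abs_of_pos hε, Real.norm_eq_abs]
    exact this.le.trans (le_abs_self _)
  rw [integrableOn_const_iff (C := ε) (by simp)] at h1
  rcases h1 with h1 | h1
  · exact hε.ne' (enorm_eq_zero.1 h1)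
  · simp at h1

/-- a nonnegative integrable function is small somewhere far to the left -/
lemma exists_small_left {ρ : ℝ → ℝ} (hi : Integrable ρ) (M : ℝ) {ε : ℝ} (hε : 0 < ε) :
    ∃ x, x ≤ M ∧ ρ x ≤ ε := by
  by_contra hc
  push Not at hc
  have h1 : IntegrableOn (fun _ : ℝ => ε) (Iio M) volume := by
    refine Integrable.mono' hi.integrableOn.norm
      (aestronglyMeasurable_const) ?_
    filter_upwards [ae_restrict_mem measurableSet_Iio] with x hx
    have := hc x (le_of_lt hx)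
    rw [Real.norm_eq_abs, abs_of_pos hε, Real.norm_eq_abs]
    exact this.le.trans (le_abs_self _)
  rw [integrableOn_const_iff (C := ε) (by simp)] at h1
  rcases h1 with h1 | h1
  · exact hε.ne' (enorm_eq_zero.1 h1)
  · simp at h1

/-- The dual inequality on the line for `b < π`. -/
theorem rows_dual_line_lt (core : CoreStatement κ ι) (Φ Φ' : ℝ → κ → ι → ℝ)
    (h : ∀ a i, RH1 (fun x => Φ x a i) (fun x => Φ' x a i))
    (hG : ∀ e : ι → ℝ, ∑ i, e i ^ 2 = 1 → ∑ a, ∫ x, (∑ i, e i * Φ x a i) ^ 2 ≤ 1)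
    {b : ℝ} (hb : 0 < b) (hb2 : b < π) :
    Integrable (fun x => tr3 (Φ x)) ∧
      b ^ 2 / 4 * ∫ x, tr3 (Φ x) ≤ ∫ x, rh (Φ' x) := by
  set ρ : ℝ → ℝ := fun x => rh (Φ x) with hρdef
  set κ' : ℝ → ℝ := fun x => rh (Φ' x) with hκdef
  have hρ0 : ∀ x, 0 ≤ ρ x := fun x => rh_nonneg _
  have hκ0 : ∀ x, 0 ≤ κ' x := fun x => rh_nonneg _
  have cΦ : ∀ a i, Continuous fun x => Φ x a i := fun a i => ap_rh1_continuous (h a i)
  have iρ : Integrable ρ := integrable_finsetSum _ fun a _ => integrable_finsetSum _ fun i _ =>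
    (h a i).memLp.integrable_sq
  have iκ : Integrable κ' := integrable_finsetSum _ fun a _ => integrable_finsetSum _ fun i _ =>
    (h a i).memLp_deriv.integrable_sq
  have ct : Continuous fun x => tr3 (Φ x) := continuous_tr3_comp cΦ
  have ht0 : ∀ x, 0 ≤ tr3 (Φ x) := fun x => tr3_nonneg _
  -- the sequences
  have hseqR : ∀ n : ℕ, ∃ x, (n : ℝ) + 1 ≤ x ∧ ρ x ≤ 1 / ((n : ℝ) + 1) := fun n =>
    exists_small_right iρ _ (by positivity)
  have hseqL : ∀ n : ℕ, ∃ x, x ≤ -((n : ℝ) + 1) ∧ ρ x ≤ 1 / ((n : ℝ) + 1) := fun n =>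
    exists_small_left iρ _ (by positivity)
  choose R hR1 hR2 using hseqR
  choose L hL1 hL2 using hseqL
  have tR : Tendsto R atTop atTop := by
    refine tendsto_atTop_mono (fun n => ?_) (tendsto_natCast_atTop_atTop (R := ℝ))
    linarith [hR1 n]
  have tL : Tendsto L atTop atBot := by
    have : Tendsto (fun n : ℕ => -(n : ℝ)) atTop atBot :=
      tendsto_neg_atTop_atBot.comp (tendsto_natCast_atTop_atTop (R := ℝ))
    refine tendsto_atBot_mono (fun n => ?_) this
    linarith [hL1 n]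
  have hLR : ∀ n, L n < R n := fun n => by
    have h0 : (0 : ℝ) ≤ n := Nat.cast_nonneg n
    linarith [hL1 n, hR1 n]
  -- the parameters
  set gap := π - b with hgap
  have hgap0 : 0 < gap := by rw [hgap]; linarith
  set θ := gap / (4 * b) with hθdef
  have hθ : 0 < θ := by positivity
  set η := gap / 8 with hηdef
  have hη : 0 < η := by positivity
  have hbη : b * (1 + θ) + 2 * η < π := by
    have e1 : b * θ = gap / 4 := by
      rw [hθdef]
      field_simp
    have e2 : b * (1 + θ) + 2 * η = b + gap / 4 + gap / 4 := by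
      rw [mul_add, e1, hηdef]
      ring
    rw [e2]
    linarith
  have main := fun n => rows_dual_interval core Φ Φ' h hG (hLR n) hb hη hθ hbη
  -- bounds along the sequence
  have hsmall : ∀ n : ℕ, ρ (L n) ^ 2 + ρ (R n) ^ 2 ≤ 2 * (1 / ((n : ℝ) + 1)) := by
    intro n
    have h1 : (0:ℝ) < 1 / ((n : ℝ) + 1) := by positivity
    have h2 : 1 / ((n : ℝ) + 1) ≤ 1 := by
      rw [div_le_one (by positivity)]
      have : (0:ℝ) ≤ n := Nat.cast_nonneg n
      linarith
    have h3 := hL2 n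
    have h4 := hR2 n
    have h5 := hρ0 (L n)
    have h6 := hρ0 (R n)
    nlinarith
  have hκle : ∀ n, ∫ x in L n..R n, κ' x ≤ ∫ x, κ' x := by
    intro n
    rw [intervalIntegral.integral_of_le (hLR n).le]
    exact setIntegral_le_integral iκ (Eventually.of_forall hκ0)
  have hkey : ∀ n : ℕ, b ^ 2 / 4 * ∫ x in L n..R n, tr3 (Φ x) ≤
      (∫ x, κ' x) + b / (4 * η) * (2 * (1 / ((n : ℝ) + 1))) := by
    intro n
    have h1 := main n
    have h2 := hκle n
    have h3 := hsmall n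
    have h4 : 0 < b / (4 * η) := by positivity
    have h5 := mul_le_mul_of_nonneg_left h3 h4.le
    calc _ ≤ _ := h1
      _ ≤ _ := add_le_add h2 h5
  have hb4 : 0 < b ^ 2 / 4 := by positivity
  -- integrability
  have ic : Integrable fun x => tr3 (Φ x) := by
    refine integrable_of_intervalIntegral_norm_bounded (a := L) (b := R) (l := atTop)
      ((b ^ 2 / 4)⁻¹ * ((∫ x, κ' x) + b / (4 * η) * 2)) ?_ tL tR ?_
    · intro n
      exact (ct.integrableOn_Icc).mono_set Ioc_subset_Icc_self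
    · filter_upwards with n
      have h1 := hkey n
      have h2 : ∫ x in L n..R n, ‖tr3 (Φ x)‖ = ∫ x in L n..R n, tr3 (Φ x) := by
        refine intervalIntegral.integral_congr fun x _ => ?_
        rw [Real.norm_eq_abs, abs_of_nonneg (ht0 x)]
      rw [h2, inv_mul_eq_div, le_div_iff₀ hb4, mul_comm]
      have h3 : 1 / ((n : ℝ) + 1) ≤ 1 := by
        rw [div_le_one (by positivity)]
        have : (0:ℝ) ≤ n := Nat.cast_nonneg n
        linarith
      have h4 : 0 < b / (4 * η) := by positivity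
      nlinarith
  refine ⟨ic, ?_⟩
  -- limit
  have t1 := (intervalIntegral_tendsto_integral ic tL tR).const_mul (b ^ 2 / 4)
  have t2 : Tendsto (fun n : ℕ => (∫ x, κ' x) + b / (4 * η) * (2 * (1 / ((n : ℝ) + 1)))) atTop
      (𝓝 ((∫ x, κ' x) + b / (4 * η) * (2 * 0))) :=
    tendsto_const_nhds.add (tendsto_const_nhds.mul
      (tendsto_const_nhds.mul tendsto_one_div_add_atTop_nhds_zero_nat))
  have := le_of_tendsto_of_tendsto' t1 t2 hkey
  simpa using this

/-- The sharp dual inequality on the line: `π² / 4 ∫ tr Q³ ≤ ∫ ∑ |Φ'|²`. -/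
theorem rows_dual_line (core : CoreStatement κ ι) (Φ Φ' : ℝ → κ → ι → ℝ)
    (h : ∀ a i, RH1 (fun x => Φ x a i) (fun x => Φ' x a i))
    (hG : ∀ e : ι → ℝ, ∑ i, e i ^ 2 = 1 → ∑ a, ∫ x, (∑ i, e i * Φ x a i) ^ 2 ≤ 1) :
    Integrable (fun x => tr3 (Φ x)) ∧
      π ^ 2 / 4 * ∫ x, tr3 (Φ x) ≤ ∫ x, rh (Φ' x) := by
  have hπ := Real.pi_pos
  refine ⟨(rows_dual_line_lt core Φ Φ' h hG (b := π / 2) (by positivity) (by linarith)).1, ?_⟩
  have hI : 0 ≤ ∫ x, tr3 (Φ x) := integral_nonneg fun x => tr3_nonneg _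
  -- all `b < π`
  have hlim : Tendsto (fun n : ℕ => (π * (1 - 1 / ((n : ℝ) + 2))) ^ 2 / 4 * ∫ x, tr3 (Φ x)) atTop
      (𝓝 ((π * (1 - 0)) ^ 2 / 4 * ∫ x, tr3 (Φ x))) := by
    have h0 : Tendsto (fun n : ℕ => 1 / ((n : ℝ) + 2)) atTop (𝓝 0) := by
      have h1 := tendsto_one_div_add_atTop_nhds_zero_nat (𝕜 := ℝ)
      have h2 := h1.comp (tendsto_add_atTop_nat 1)
      refine h2.congr fun n => ?_
      simp only [Function.comp]
      push_cast
      ring
    exact ((((tendsto_const_nhds.sub h0).const_mul π).pow 2).div_const 4).mul_const _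
  have hle : ∀ n : ℕ, (π * (1 - 1 / ((n : ℝ) + 2))) ^ 2 / 4 * ∫ x, tr3 (Φ x) ≤ ∫ x, rh (Φ' x) := by
    intro n
    have hn : (0 : ℝ) ≤ n := Nat.cast_nonneg n
    have h1 : 1 / ((n : ℝ) + 2) ≤ 1 / 2 := by
      apply one_div_le_one_div_of_le (by norm_num)
      linarith
    have h2 : 0 < 1 / ((n : ℝ) + 2) := by positivity
    have hb0 : 0 < π * (1 - 1 / ((n : ℝ) + 2)) := mul_pos hπ (by linarith)
    have hb1 : π * (1 - 1 / ((n : ℝ) + 2)) < π := by
      nlinarith
    exact (rows_dual_line_lt core Φ Φ' h hG hb0 hb1).2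
  have := le_of_tendsto' hlim hle
  simpa using this

end Vale.Agent.Lib.P371.Sharp.Rows
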