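import Vale.Agent.Lib.P371.Sharp.RowsAlg
import Vale.Agent.Lib.P371.Sharp.RowsLine

/-!
The core inequality for rows: proof of `CoreStatement`.
-/

open Set MeasureTheory Real

set_option linter.unusedSectionVars false

namespace Vale.Agent.Lib.P371.Sharp.Rows

variable {r ι : Type*} [Fintype r] [Fintype ι] [DecidableEq ι]

lemma trQ3_eq_tr3 (P : r → ι → ℝ) : trQ3 P = tr3 P := rfl

lemma rh2_eq_rh (P : r → ι → ℝ) : rh2 P = rh P := rfl

/-- `M x = η I + b ∫_{xL}^x Q`. -/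
noncomputable def MfunR (Ψ : ℝ → r → ι → ℝ) (η b xL : ℝ) : ℝ → ι → ι → ℝ := fun x i j =>
  (if i = j then η else 0) + b * ∫ y in xL..x, qq (Ψ y) i j

lemma continuous_qq {Ψ : ℝ → r → ι → ℝ} (hΨ : ∀ a i, Continuous fun x => Ψ x a i) (i j : ι) :
    Continuous fun y => qq (Ψ y) i j :=
  continuous_finsetSum _ fun a _ => (hΨ a i).mul (hΨ a j)

theorem hasDerivAt_MfunR {Ψ : ℝ → r → ι → ℝ} (hΨ : ∀ a i, Continuous fun x => Ψ x a i)
    (η b xL x : ℝ) : HasDerivAt (MfunR Ψ η b xL) (b • qq (Ψ x)) x := by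
  rw [hasDerivAt_pi]
  intro i
  rw [hasDerivAt_pi]
  intro j
  have hc := continuous_qq hΨ i j
  have h1 : HasDerivAt (fun u => ∫ y in xL..u, qq (Ψ y) i j) (qq (Ψ x) i j) x :=
    intervalIntegral.integral_hasDerivAt_right (hc.intervalIntegrable _ _)
      (hc.stronglyMeasurableAtFilter _ _) hc.continuousAt
  have h2 := (h1.const_mul b).const_add (if i = j then η else 0)
  simpa [MfunR, Pi.smul_apply, smul_eq_mul] using h2

/-- The Rayleigh quotient of `MfunR`. -/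
lemma rayleigh_MfunR {Ψ : ℝ → r → ι → ℝ} (hΨ : ∀ a i, Continuous fun x => Ψ x a i) (η b xL x : ℝ)
    (e : ι → ℝ) :
    ∑ i, ∑ j, e i * MfunR Ψ η b xL x i j * e j =
      η * (∑ i, e i ^ 2) + b * ∑ a, ∫ y in xL..x, (∑ i, e i * Ψ y a i) ^ 2 := by
  have hint : ∀ i j, IntervalIntegrable (fun y => qq (Ψ y) i j) volume xL x := fun i j =>
    (continuous_qq hΨ i j).intervalIntegrable _ _
  have hcomp : ∀ y, ∑ a, (∑ i, e i * Ψ y a i) ^ 2 = ∑ i, ∑ j, e i * e j * qq (Ψ y) i j := by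
    intro y
    calc ∑ a, (∑ i, e i * Ψ y a i) ^ 2 = ∑ a, ∑ i, ∑ j, e i * e j * (Ψ y a i * Ψ y a j) := by
          refine Finset.sum_congr rfl fun a _ => ?_
          rw [sq, Finset.sum_mul_sum]
          exact Finset.sum_congr rfl fun i _ => Finset.sum_congr rfl fun j _ => by ring
      _ = ∑ i, ∑ a, ∑ j, e i * e j * (Ψ y a i * Ψ y a j) := Finset.sum_comm
      _ = ∑ i, ∑ j, ∑ a, e i * e j * (Ψ y a i * Ψ y a j) :=
          Finset.sum_congr rfl fun i _ => Finset.sum_comm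
      _ = _ := by
          refine Finset.sum_congr rfl fun i _ => Finset.sum_congr rfl fun j _ => ?_
          rw [qq, Finset.mul_sum]
  have hcc : ∀ a, Continuous fun y => (∑ i, e i * Ψ y a i) ^ 2 := fun a =>
    (continuous_finsetSum _ fun i _ => continuous_const.mul (hΨ a i)).pow 2
  have hI : ∑ a, ∫ y in xL..x, (∑ i, e i * Ψ y a i) ^ 2 =
      ∑ i, ∑ j, e i * e j * ∫ y in xL..x, qq (Ψ y) i j := by
    rw [← intervalIntegral.integral_finsetSum (fun a _ => (hcc a).intervalIntegrable _ _)]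
    simp_rw [hcomp]
    rw [intervalIntegral.integral_finsetSum]
    · refine Finset.sum_congr rfl fun i _ => ?_
      rw [intervalIntegral.integral_finsetSum]
      · refine Finset.sum_congr rfl fun j _ => ?_
        exact intervalIntegral.integral_const_mul _ _
      · intro j _
        exact (hint i j).const_mul _
    · intro i _
      exact (continuous_finsetSum _ fun j _ =>
        continuous_const.mul (continuous_qq hΨ i j)).intervalIntegrable _ _
  rw [hI, Finset.mul_sum, Finset.mul_sum, ← Finset.sum_add_distrib]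
  refine Finset.sum_congr rfl fun i _ => ?_
  rw [Finset.mul_sum]
  have : ∑ j, e i * MfunR Ψ η b xL x i j * e j =
      ∑ j, (e i * (if i = j then η else 0) * e j +
        b * (e i * e j * ∫ y in xL..x, qq (Ψ y) i j)) := by
    refine Finset.sum_congr rfl fun j _ => ?_
    unfold MfunR
    ring
  rw [this, Finset.sum_add_distrib]
  congr 1
  rw [Finset.sum_eq_single i]
  · simp; ring
  · intro j _ hj
    simp [Ne.symm hj]
  · simp

theorem band_MfunR {Ψ : ℝ → r → ι → ℝ} (hΨ : ∀ a i, Continuous fun x => Ψ x a i)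
    {xL xR G b η x : ℝ}
    (hG : ∀ e : ι → ℝ, ∑ i, e i ^ 2 = 1 → ∑ a, ∫ x in xL..xR, (∑ i, e i * Ψ x a i) ^ 2 ≤ G)
    (hb : 0 < b) (hbη : b * G + 2 * η < π) (hx : x ∈ Icc xL xR) : Band (MfunR Ψ η b xL x) η := by
  have hcc : ∀ (e : ι → ℝ) a, Continuous fun y => (∑ i, e i * Ψ y a i) ^ 2 := fun e a =>
    (continuous_finsetSum _ fun i _ => continuous_const.mul (hΨ a i)).pow 2
  refine ⟨?_, ?_, ?_⟩
  · intro i j
    unfold MfunR
    have h1 : (if i = j then η else 0) = (if j = i then η else 0) := by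
      by_cases h : i = j
      · simp [h]
      · simp [h, Ne.symm h]
    rw [h1]
    congr 2
    exact intervalIntegral.integral_congr fun y _ => qq_symm _ _ _
  · intro e he
    rw [rayleigh_MfunR hΨ, he, mul_one]
    have : 0 ≤ ∑ a, ∫ y in xL..x, (∑ i, e i * Ψ y a i) ^ 2 :=
      Finset.sum_nonneg fun a _ => intervalIntegral.integral_nonneg hx.1 fun y _ => sq_nonneg _
    nlinarith [mul_nonneg hb.le this]
  · intro e he
    rw [rayleigh_MfunR hΨ, he, mul_one]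
    have h2 : ∑ a, ∫ y in xL..x, (∑ i, e i * Ψ y a i) ^ 2 ≤
        ∑ a, ∫ y in xL..xR, (∑ i, e i * Ψ y a i) ^ 2 := by
      refine Finset.sum_le_sum fun a _ => ?_
      have h3 := intervalIntegral.integral_add_adjacent_intervals
        ((hcc e a).intervalIntegrable (μ := volume) xL x)
        ((hcc e a).intervalIntegrable (μ := volume) x xR)
      have h4 : 0 ≤ ∫ y in x..xR, (∑ i, e i * Ψ y a i) ^ 2 :=
        intervalIntegral.integral_nonneg hx.2 fun y _ => sq_nonneg _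
      linarith
    have h5 := hG e he
    nlinarith [mul_le_mul_of_nonneg_left (h2.trans h5) hb.le]

/-- The pointwise differential inequality for rows. -/
lemma pointwise_rows {K : Finset ℤ} (ξ : ℤ → r → ι → ℝ) (v : r → ι → ℝ) {b : ℝ} (hb : 0 < b) {R : ℝ}
    (h : R ≤ ∑ k ∈ K, ∑ a, ∑ i, ξ k a i ^ 2 - ∑ a, ∑ i, (∑ k ∈ K, ξ k a i) ^ 2) :
    b / 4 * ∑ k ∈ K, (4 * ∑ a, ∑ i, v a i * ξ k a i - b * ∑ a, ∑ i, ξ k a i ^ 2) ≤
      ∑ a, ∑ i, v a i ^ 2 - b ^ 2 / 4 * R := by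
  have h1 : ∑ k ∈ K, (4 * ∑ a, ∑ i, v a i * ξ k a i - b * ∑ a, ∑ i, ξ k a i ^ 2) =
      4 * ∑ a, ∑ i, v a i * ∑ k ∈ K, ξ k a i - b * ∑ k ∈ K, ∑ a, ∑ i, ξ k a i ^ 2 := by
    rw [Finset.sum_sub_distrib, ← Finset.mul_sum, ← Finset.mul_sum]
    congr 2
    rw [Finset.sum_comm]
    refine Finset.sum_congr rfl fun a _ => ?_
    rw [Finset.sum_comm]
    refine Finset.sum_congr rfl fun i _ => ?_
    rw [Finset.mul_sum]
  have h2 : b * ∑ a, ∑ i, v a i * ∑ k ∈ K, ξ k a i ≤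
      ∑ a, ∑ i, v a i ^ 2 + b ^ 2 / 4 * ∑ a, ∑ i, (∑ k ∈ K, ξ k a i) ^ 2 := by
    rw [Finset.mul_sum, Finset.mul_sum, ← Finset.sum_add_distrib]
    refine Finset.sum_le_sum fun a _ => ?_
    rw [Finset.mul_sum, Finset.mul_sum, ← Finset.sum_add_distrib]
    refine Finset.sum_le_sum fun i _ => ?_
    nlinarith [sq_nonneg (v a i - b / 2 * ∑ k ∈ K, ξ k a i)]
  rw [h1]
  have h3 : 0 ≤ b ^ 2 / 4 := by positivity
  have h4 := mul_le_mul_of_nonneg_left h h3
  nlinarith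

/-- The differential inequality integrated, at fixed `ε`. -/
theorem core_eps_rows {Ψ Ψ' : ℝ → r → ι → ℝ}
    (hd : ∀ a i x, HasDerivAt (fun t => Ψ t a i) (Ψ' x a i) x)
    (hc : ∀ a i, Continuous fun x => Ψ' x a i)
    {xL xR : ℝ} (hx : xL < xR) {G b η ε : ℝ}
    (hG : ∀ e : ι → ℝ, ∑ i, e i ^ 2 = 1 → ∑ a, ∫ x in xL..xR, (∑ i, e i * Ψ x a i) ^ 2 ≤ G)
    (hb : 0 < b) (hη : 0 < η) (hbη : b * G + 2 * η < π) (hε : 0 < ε) :
    b ^ 2 / 4 * ∫ x in xL..xR, tr3 (Ψ x) ≤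
      (∫ x in xL..xR, rh (Ψ' x)) + b / 4 * (1 / η + ε) * (rh (Ψ xL) ^ 2 + rh (Ψ xR) ^ 2) +
        ε * (b ^ 2 / 4 * ((Fintype.card ι : ℝ) ^ 3 * ∫ x in xL..xR, rh (Ψ x) ^ 3)) := by
  obtain ⟨m, hm⟩ := cot_lemma2 hη hε
  have cΨ : ∀ a i, Continuous fun x => Ψ x a i := fun a i =>
    continuous_iff_continuousAt.2 fun x => (hd a i x).continuousAt
  set M := MfunR Ψ η b xL with hMdef
  set K : Finset ℤ := Finset.Icc (-(m : ℤ)) m with hK
  let ξ : ℝ → ℤ → r → ι → ℝ := fun x k a i => xi (Xsol (M x) ((k : ℝ) * π) (Ψ x)) (Ψ x a) i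
  let Q : ℝ → ℝ := fun x => b / 4 * ∑ k ∈ K, dpr (qq (Ψ x)) (Xsol (M x) ((k : ℝ) * π) (Ψ x))
  let g' : ℝ → ℝ := fun x =>
    b / 4 * ∑ k ∈ K, (4 * ∑ a, ∑ i, Ψ' x a i * ξ x k a i - b * ∑ a, ∑ i, ξ x k a i ^ 2)
  have hband : ∀ x ∈ Icc xL xR, Band (M x) η := fun x hxm => band_MfunR cΨ hG hb hbη hxm
  have hunit : ∀ x ∈ Icc xL xR, ∀ k : ℤ, IsUnit (Jop (M x) ((k : ℝ) * π)) := fun x hxm k =>
    isUnit_Jop hη (hband x hxm) k
  have hQ : ∀ x ∈ Icc xL xR, HasDerivAt Q (g' x) x := by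
    intro x hxm
    have hMd : HasDerivAt M (b • qq (Ψ x)) x := hasDerivAt_MfunR cΨ η b xL x
    have h1 : ∀ k ∈ K, HasDerivAt (fun s => dpr (qq (Ψ s)) (Xsol (M s) ((k : ℝ) * π) (Ψ s)))
        (4 * ∑ a, ∑ i, Ψ' x a i * ξ x k a i - b * ∑ a, ∑ i, ξ x k a i ^ 2) x := by
      intro k _
      exact hasDerivAt_q_rows hMd (fun a i => hd a i x) (hunit x hxm k) (hband x hxm).symm
    have h2 := (HasDerivAt.fun_sum h1).const_mul (b / 4)
    exact h2
  set N3 : ℝ := (Fintype.card ι : ℝ) ^ 3 with hN3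
  have hN30 : 0 ≤ N3 := by positivity
  have hpt : ∀ x ∈ Icc xL xR,
      tr3 (Ψ x) - ε * (N3 * rh (Ψ x) ^ 3) ≤
        ∑ k ∈ K, ∑ a, ∑ i, ξ x k a i ^ 2 - ∑ a, ∑ i, (∑ k ∈ K, ξ x k a i) ^ 2 ∧
      |∑ k ∈ K, dpr (qq (Ψ x)) (Xsol (M x) ((k : ℝ) * π) (Ψ x))| ≤ (1 / η + ε) * rh (Ψ x) ^ 2 := by
    intro x hxm
    refine alg_rows hη (hband x hxm) hm hε.le (Ψ x) (fun k => Xsol (M x) ((k : ℝ) * π) (Ψ x)) ?_
    intro k
    exact Jop_inv_right2 (hunit x hxm k) _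
  have cρ : Continuous fun x => rh (Ψ x) := continuous_rh_comp cΨ
  have c3 : Continuous fun x => tr3 (Ψ x) := continuous_tr3_comp cΨ
  have cdens : Continuous fun x => rh (Ψ' x) := continuous_rh_comp hc
  let φ : ℝ → ℝ := fun x => rh (Ψ' x) - b ^ 2 / 4 * (tr3 (Ψ x) - ε * (N3 * rh (Ψ x) ^ 3))
  have cφ : Continuous φ :=
    cdens.sub (continuous_const.mul (c3.sub (continuous_const.mul (continuous_const.mul (cρ.pow 3)))))
  have hgφ : ∀ x ∈ Ioo xL xR, g' x ≤ φ x := by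
    intro x hxm
    exact pointwise_rows (ξ x) (Ψ' x) hb (hpt x (Ioo_subset_Icc_self hxm)).1
  have hmain : Q xR - Q xL ≤ ∫ y in xL..xR, φ y := by
    apply intervalIntegral.sub_le_integral_of_hasDeriv_right_of_le hx.le
    · intro x hxm
      exact (hQ x hxm).continuousAt.continuousWithinAt
    · intro x hxm
      exact (hQ x (Ioo_subset_Icc_self hxm)).hasDerivWithinAt
    · exact cφ.continuousOn.integrableOn_Icc
    · exact hgφ
  have hφint : (∫ y in xL..xR, φ y) =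
      (∫ y in xL..xR, rh (Ψ' y)) - b ^ 2 / 4 * (∫ y in xL..xR, tr3 (Ψ y)) +
        ε * (b ^ 2 / 4 * (N3 * ∫ y in xL..xR, rh (Ψ y) ^ 3)) := by
    have e : ∀ y, φ y = rh (Ψ' y) - b ^ 2 / 4 * tr3 (Ψ y) +
        ε * (b ^ 2 / 4 * (N3 * rh (Ψ y) ^ 3)) := fun y => by
      simp only [φ]
      ring
    simp only [e]
    have c1 : Continuous fun y => b ^ 2 / 4 * tr3 (Ψ y) := continuous_const.mul c3
    have c2 : Continuous fun y => ε * (b ^ 2 / 4 * (N3 * rh (Ψ y) ^ 3)) :=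
      continuous_const.mul (continuous_const.mul (continuous_const.mul (cρ.pow 3)))
    have c12 : Continuous fun y => rh (Ψ' y) - b ^ 2 / 4 * tr3 (Ψ y) := cdens.sub c1
    rw [intervalIntegral.integral_add (c12.intervalIntegrable _ _)
      (c2.intervalIntegrable _ _),
      intervalIntegral.integral_sub (cdens.intervalIntegrable _ _) (c1.intervalIntegrable _ _),
      intervalIntegral.integral_const_mul, intervalIntegral.integral_const_mul,
      intervalIntegral.integral_const_mul, intervalIntegral.integral_const_mul]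
  have hbd : ∀ x ∈ Icc xL xR, |Q x| ≤ b / 4 * ((1 / η + ε) * rh (Ψ x) ^ 2) := by
    intro x hxm
    simp only [Q]
    rw [abs_mul, abs_of_pos (by positivity : 0 < b / 4)]
    exact mul_le_mul_of_nonneg_left (hpt x hxm).2 (by positivity)
  have h1 := hbd xL (left_mem_Icc.2 hx.le)
  have h2 := hbd xR (right_mem_Icc.2 hx.le)
  have h3 := abs_le.1 h1
  have h4 := abs_le.1 h2
  rw [hφint] at hmain
  nlinarith [h3.1, h3.2, h4.1, h4.2]

end Vale.Agent.Lib.P371.Sharp.Rows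

namespace Vale.Agent.Lib.P371.Sharp.Rows

/-- **The core inequality for rows.** -/
theorem rows_core {κ ι : Type*} [Fintype κ] [Fintype ι] : CoreStatement κ ι := by
  classical
  intro Ψ Ψ' hd hc xL xR hx G b η hG hb hη hbη
  set I := ∫ x in xL..xR, tr3 (Ψ x) with hI
  set R := rh (Ψ xL) ^ 2 + rh (Ψ xR) ^ 2 with hR
  set D := ∫ x in xL..xR, rh (Ψ' x) with hD
  set N := (Fintype.card ι : ℝ) ^ 3 * ∫ x in xL..xR, rh (Ψ x) ^ 3 with hN
  have hK3 : ∀ ε : ℝ, 0 < ε → b ^ 2 / 4 * I ≤ D + b / 4 * (1 / η + ε) * R + ε * (b ^ 2 / 4 * N) :=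
    fun ε hε => core_eps_rows hd hc hx hG hb hη hbη hε
  have hNn : 0 ≤ N := by
    have : 0 ≤ ∫ x in xL..xR, rh (Ψ x) ^ 3 :=
      intervalIntegral.integral_nonneg hx.le fun y _ => pow_nonneg (rh_nonneg _) 3
    positivity
  have hRn : 0 ≤ R := by positivity
  set C := b / 4 * R + b ^ 2 / 4 * N with hC
  have hCn : 0 ≤ C := by positivity
  have heq : b / (4 * η) * R = b / 4 * (1 / η) * R := by
    field_simp
  apply le_of_forall_pos_le_add
  intro δ hδ
  have hε : 0 < δ / (C + 1) := by positivity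
  have h1 := hK3 _ hε
  have h2 : δ / (C + 1) * C ≤ δ := by
    rw [div_mul_eq_mul_div, div_le_iff₀ (by positivity)]
    nlinarith
  rw [heq]
  have h4 : b / 4 * (1 / η + δ / (C + 1)) * R = b / 4 * (1 / η) * R + δ / (C + 1) * (b / 4 * R) := by
    ring
  rw [h4] at h1
  have h5 : δ / (C + 1) * C = δ / (C + 1) * (b / 4 * R) + δ / (C + 1) * (b ^ 2 / 4 * N) := by
    rw [hC]; ring
  linarith

end Vale.Agent.Lib.P371.Sharp.Rows
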