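import Vale.Agent.Lib.P371.Sharp.Deriv

/-!
The exact calibration for `Ψ : ℝ → r → ι → ℝ` (rows): `Q = ∑_a Ψ_a Ψ_aᵀ`, `M' = b Q`,
`X = (J_M + t)⁻¹ Q`, `z_a = X Ψ_a`:
`d/dx ⟨Q, X⟩ = 4 ∑_a ⟨Ψ_a', z_a⟩ - b ∑_a |z_a|²`.
-/

open Real

set_option linter.unusedSectionVars false

namespace Vale.Agent.Lib.P371.Sharp.Rows

variable {r ι : Type*} [Fintype r] [Fintype ι] [DecidableEq ι]

/-- `Q = ∑_a P_a P_aᵀ`. -/
def qq (P : r → ι → ℝ) : ι → ι → ℝ := fun i j => ∑ a, P a i * P a j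

lemma qq_symm (P : r → ι → ℝ) (i j : ι) : qq P i j = qq P j i := by
  simp only [qq, mul_comm]

/-- The solution of `Jop M t X = Q`. -/
noncomputable def Xsol (M : ι → ι → ℝ) (t : ℝ) (P : r → ι → ℝ) : ι → ι → ℝ :=
  Ring.inverse (Jop M t) (qq P)

/-- The entrywise dot product of arrays. -/
noncomputable def dpr (A B : ι → ι → ℝ) : ℝ := ∑ i, ∑ j, A i j * B i j

lemma dpr_comm (A B : ι → ι → ℝ) : dpr A B = dpr B A := by
  simp only [dpr, mul_comm]

/-- `⟨G A, B⟩ = ⟨A, G B⟩` -/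
lemma dpr_left {G : ι → ι → ℝ} (hG : ∀ i j, G i j = G j i) (A B : ι → ι → ℝ) :
    ∑ i, ∑ j, (∑ k, G i k * A k j) * B i j = ∑ i, ∑ j, A i j * ∑ k, G i k * B k j := by
  calc ∑ i, ∑ j, (∑ k, G i k * A k j) * B i j
      = ∑ j, ∑ i, ∑ k, G i k * A k j * B i j := by
        rw [Finset.sum_comm]
        exact Finset.sum_congr rfl fun j _ => Finset.sum_congr rfl fun i _ => Finset.sum_mul _ _ _
    _ = ∑ j, ∑ k, ∑ i, G k i * A i j * B k j := by
        refine Finset.sum_congr rfl fun j _ => ?_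
        rw [Finset.sum_comm]
    _ = ∑ j, ∑ i, ∑ k, G k i * A i j * B k j := by
        refine Finset.sum_congr rfl fun j _ => ?_
        rw [Finset.sum_comm]
    _ = ∑ i, ∑ j, A i j * ∑ k, G i k * B k j := by
        rw [Finset.sum_comm]
        refine Finset.sum_congr rfl fun i _ => Finset.sum_congr rfl fun j _ => ?_
        rw [Finset.mul_sum]
        refine Finset.sum_congr rfl fun k _ => ?_
        rw [hG k i]
        ring

/-- `⟨A G, B⟩ = ⟨A, B G⟩` -/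
lemma dpr_right {G : ι → ι → ℝ} (hG : ∀ i j, G i j = G j i) (A B : ι → ι → ℝ) :
    ∑ i, ∑ j, (∑ k, A i k * G k j) * B i j = ∑ i, ∑ j, A i j * ∑ k, B i k * G k j := by
  have h := dpr_left hG (fun i j => A j i) (fun i j => B j i)
  calc ∑ i, ∑ j, (∑ k, A i k * G k j) * B i j
      = ∑ j, ∑ i, (∑ k, G j k * A i k) * B i j := by
        rw [Finset.sum_comm]
        refine Finset.sum_congr rfl fun j _ => Finset.sum_congr rfl fun i _ => ?_
        congr 1
        refine Finset.sum_congr rfl fun k _ => ?_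
        rw [hG k j]
        ring
    _ = ∑ j, ∑ i, A i j * ∑ k, G j k * B i k := h
    _ = ∑ i, ∑ j, A i j * ∑ k, B i k * G k j := by
        rw [Finset.sum_comm]
        refine Finset.sum_congr rfl fun i _ => Finset.sum_congr rfl fun j _ => ?_
        congr 1
        refine Finset.sum_congr rfl fun k _ => ?_
        rw [hG k j]
        ring

lemma Jop_apply2 (M : ι → ι → ℝ) (t : ℝ) (X : ι → ι → ℝ) (a b : ι) :
    Jop M t X a b = (1 / 2) * (∑ c, M a c * X c b + ∑ c, X a c * M c b) + t * X a b := by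
  rw [Jop_apply, Finset.sum_add_distrib]

lemma dpr_Jop {G : ι → ι → ℝ} (hG : ∀ i j, G i j = G j i) (c : ℝ) (A B : ι → ι → ℝ) :
    dpr (Jop G c A) B = dpr A (Jop G c B) := by
  simp only [dpr, Jop_apply2]
  have h1 := dpr_left hG A B
  have h2 := dpr_right hG A B
  have e1 : ∑ i, ∑ j, ((1 / 2 : ℝ) * (∑ k, G i k * A k j + ∑ k, A i k * G k j) + c * A i j) * B i j
      = (1 / 2 : ℝ) * (∑ i, ∑ j, (∑ k, G i k * A k j) * B i j +
          ∑ i, ∑ j, (∑ k, A i k * G k j) * B i j) + c * ∑ i, ∑ j, A i j * B i j := by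
    rw [← Finset.sum_add_distrib, Finset.mul_sum, Finset.mul_sum, ← Finset.sum_add_distrib]
    refine Finset.sum_congr rfl fun i _ => ?_
    rw [← Finset.sum_add_distrib, Finset.mul_sum, Finset.mul_sum, ← Finset.sum_add_distrib]
    refine Finset.sum_congr rfl fun j _ => ?_
    ring
  have e2 : ∑ i, ∑ j, A i j * ((1 / 2 : ℝ) * (∑ k, G i k * B k j + ∑ k, B i k * G k j) + c * B i j)
      = (1 / 2 : ℝ) * (∑ i, ∑ j, A i j * (∑ k, G i k * B k j) +
          ∑ i, ∑ j, A i j * (∑ k, B i k * G k j)) + c * ∑ i, ∑ j, A i j * B i j := by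
    rw [← Finset.sum_add_distrib, Finset.mul_sum, Finset.mul_sum, ← Finset.sum_add_distrib]
    refine Finset.sum_congr rfl fun i _ => ?_
    rw [← Finset.sum_add_distrib, Finset.mul_sum, Finset.mul_sum, ← Finset.sum_add_distrib]
    refine Finset.sum_congr rfl fun j _ => ?_
    ring
  rw [e1, e2, h1, h2]

lemma Jop_inv_right2 {G : ι → ι → ℝ} {c : ℝ} (hu : IsUnit (Jop G c)) (Z : ι → ι → ℝ) :
    Jop G c (Ring.inverse (Jop G c) Z) = Z := by
  have := Ring.mul_inverse_cancel _ hu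
  have h2 := congrArg (fun T : (ι → ι → ℝ) →L[ℝ] (ι → ι → ℝ) => T Z) this
  simpa using h2

lemma Jop_inv_left2 {G : ι → ι → ℝ} {c : ℝ} (hu : IsUnit (Jop G c)) (Z : ι → ι → ℝ) :
    Ring.inverse (Jop G c) (Jop G c Z) = Z := by
  have := Ring.inverse_mul_cancel _ hu
  have h2 := congrArg (fun T : (ι → ι → ℝ) →L[ℝ] (ι → ι → ℝ) => T Z) this
  simpa using h2

/-- the pairing with the resolvent is symmetric -/
lemma dpr_inv {G : ι → ι → ℝ} (hG : ∀ i j, G i j = G j i) {c : ℝ} (hu : IsUnit (Jop G c))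
    (A B : ι → ι → ℝ) :
    dpr (Ring.inverse (Jop G c) A) B = dpr A (Ring.inverse (Jop G c) B) := by
  calc dpr (Ring.inverse (Jop G c) A) B
      = dpr (Ring.inverse (Jop G c) A) (Jop G c (Ring.inverse (Jop G c) B)) := by
        rw [Jop_inv_right2 hu]
    _ = dpr (Jop G c (Ring.inverse (Jop G c) A)) (Ring.inverse (Jop G c) B) :=
        (dpr_Jop hG c _ _).symm
    _ = dpr A (Ring.inverse (Jop G c) B) := by rw [Jop_inv_right2 hu]

/-- The resolvent preserves symmetry. -/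
lemma inv_symm2 {G : ι → ι → ℝ} (hG : ∀ i j, G i j = G j i) {c : ℝ} (hu : IsUnit (Jop G c))
    {S : ι → ι → ℝ} (hS : ∀ i j, S i j = S j i) (i j : ι) :
    Ring.inverse (Jop G c) S i j = Ring.inverse (Jop G c) S j i := by
  set X := Ring.inverse (Jop G c) S with hX
  have h1 : Jop G c X = S := Jop_inv_right2 hu S
  have h2 : Jop G c (fun i j => X j i) = S := by
    funext i j
    rw [hS i j, ← h1]
    simp only [Jop_apply2]
    have e1 : ∑ k, G i k * X j k = ∑ k, X j k * G k i :=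
      Finset.sum_congr rfl fun k _ => by rw [hG i k]; ring
    have e2 : ∑ k, X k i * G k j = ∑ k, G j k * X k i :=
      Finset.sum_congr rfl fun k _ => by rw [hG k j]; ring
    rw [e1, e2]
    ring
  have h3 := congrArg (fun Z => Ring.inverse (Jop G c) Z) h2
  simp only [Jop_inv_left2 hu] at h3
  exact (congrFun (congrFun h3 i) j).symm

lemma hasDerivAt_entry2 {f : ℝ → ι → ι → ℝ} {f' : ι → ι → ℝ} {x : ℝ} (h : HasDerivAt f f' x)
    (i j : ι) : HasDerivAt (fun t => f t i j) (f' i j) x :=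
  (hasDerivAt_pi.1 ((hasDerivAt_pi.1 h) i)) j

lemma hasDerivAt_of_entry2 {f : ℝ → ι → ι → ℝ} {f' : ι → ι → ℝ} {x : ℝ}
    (h : ∀ i j, HasDerivAt (fun t => f t i j) (f' i j) x) : HasDerivAt f f' x :=
  hasDerivAt_pi.2 fun i => hasDerivAt_pi.2 fun j => h i j

lemma hasDerivAt_dpr {A B : ℝ → ι → ι → ℝ} {A' B' : ι → ι → ℝ} {x : ℝ} (hA : HasDerivAt A A' x)
    (hB : HasDerivAt B B' x) :
    HasDerivAt (fun t => dpr (A t) (B t)) (dpr A' (B x) + dpr (A x) B') x := by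
  have h : HasDerivAt (fun t => ∑ i, ∑ j, A t i j * B t i j)
      (∑ i, ∑ j, (A' i j * B x i j + A x i j * B' i j)) x := by
    refine HasDerivAt.fun_sum fun i _ => HasDerivAt.fun_sum fun j _ => ?_
    exact (hasDerivAt_entry2 hA i j).mul (hasDerivAt_entry2 hB i j)
  refine h.congr_deriv ?_
  simp only [dpr, Finset.sum_add_distrib]

lemma Jop_zero_smul2 (b : ℝ) (S X : ι → ι → ℝ) (i j : ι) :
    Jop (b • S) 0 X i j = b * Jop S 0 X i j := by
  simp only [Jop_apply, Pi.smul_apply, smul_eq_mul, zero_mul, add_zero]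
  have e : ∑ c, (b * S i c * X c j + X i c * (b * S c j)) =
      b * ∑ c, (S i c * X c j + X i c * S c j) := by
    rw [Finset.mul_sum]
    exact Finset.sum_congr rfl fun k _ => by ring
  rw [e]
  ring

lemma dpr_jordan_tens (ψ : ι → ℝ) {X : ι → ι → ℝ} (hX : ∀ i j, X i j = X j i) :
    dpr X (Jop (tens ψ) 0 X) = ∑ i, xi X ψ i ^ 2 := by
  have h1 : ∑ i, ∑ j, X i j * ∑ k, tens ψ i k * X k j = ∑ i, xi X ψ i ^ 2 := by
    simp only [xi, tens, sq]
    rw [Finset.sum_comm]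
    refine Finset.sum_congr rfl fun j _ => ?_
    have e1 : ∀ i, ∑ k, ψ i * ψ k * X k j = ψ i * ∑ k, X j k * ψ k := by
      intro i
      rw [Finset.mul_sum]
      exact Finset.sum_congr rfl fun k _ => by rw [hX k j]; ring
    simp only [e1]
    rw [Finset.sum_mul]
    refine Finset.sum_congr rfl fun i _ => ?_
    rw [hX i j]
    ring
  have h2 : ∑ i, ∑ j, X i j * ∑ k, X i k * tens ψ k j = ∑ i, xi X ψ i ^ 2 := by
    simp only [xi, tens, sq]
    refine Finset.sum_congr rfl fun i _ => ?_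
    have e1 : ∀ j, ∑ k, X i k * (ψ k * ψ j) = (∑ k, X i k * ψ k) * ψ j := by
      intro j
      rw [Finset.sum_mul]
      exact Finset.sum_congr rfl fun k _ => by ring
    simp only [e1]
    rw [Finset.sum_mul]
    refine Finset.sum_congr rfl fun j _ => ?_
    ring
  simp only [dpr, Jop_apply2, zero_mul, add_zero]
  have e : ∑ i, ∑ j, X i j * ((1 / 2 : ℝ) * (∑ k, tens ψ i k * X k j + ∑ k, X i k * tens ψ k j))
      = (1 / 2 : ℝ) * (∑ i, ∑ j, X i j * ∑ k, tens ψ i k * X k j +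
          ∑ i, ∑ j, X i j * ∑ k, X i k * tens ψ k j) := by
    rw [← Finset.sum_add_distrib, Finset.mul_sum]
    refine Finset.sum_congr rfl fun i _ => ?_
    rw [← Finset.sum_add_distrib, Finset.mul_sum]
    refine Finset.sum_congr rfl fun j _ => ?_
    ring
  rw [e, h1, h2]
  ring

lemma Jop_qq_entry (P : r → ι → ℝ) (X : ι → ι → ℝ) (i j : ι) :
    Jop (qq P) 0 X i j = ∑ a, Jop (tens (P a)) 0 X i j := by
  simp only [Jop_apply, zero_mul, add_zero, qq, tens]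
  rw [← Finset.mul_sum]
  congr 1
  have h : ∀ c, (∑ a, P a i * P a c) * X c j + X i c * ∑ a, P a c * P a j =
      ∑ a, (P a i * P a c * X c j + X i c * (P a c * P a j)) := by
    intro c
    rw [Finset.sum_mul, Finset.mul_sum, ← Finset.sum_add_distrib]
  simp only [h]
  exact Finset.sum_comm

lemma dpr_jordan_qq (P : r → ι → ℝ) {X : ι → ι → ℝ} (hX : ∀ i j, X i j = X j i) :
    dpr X (Jop (qq P) 0 X) = ∑ a, ∑ i, xi X (P a) i ^ 2 := by
  have e : dpr X (Jop (qq P) 0 X) = ∑ a, dpr X (Jop (tens (P a)) 0 X) := by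
    calc dpr X (Jop (qq P) 0 X) = ∑ i, ∑ j, ∑ a, X i j * Jop (tens (P a)) 0 X i j := by
          simp only [dpr, Jop_qq_entry, Finset.mul_sum]
      _ = ∑ i, ∑ a, ∑ j, X i j * Jop (tens (P a)) 0 X i j :=
          Finset.sum_congr rfl fun i _ => Finset.sum_comm
      _ = _ := Finset.sum_comm
  rw [e]
  exact Finset.sum_congr rfl fun a _ => dpr_jordan_tens (P a) hX

lemma dpr_smul_Jop (b : ℝ) (X S : ι → ι → ℝ) :
    dpr X (Jop (b • S) 0 X) = b * dpr X (Jop S 0 X) := by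
  simp only [dpr, Jop_zero_smul2, Finset.mul_sum]
  exact Finset.sum_congr rfl fun i _ => Finset.sum_congr rfl fun j _ => by ring

/-- The derivative formula for rows: `d/dx ⟨Q, X⟩ = 4 ∑_a ⟨Ψ_a', X Ψ_a⟩ - b ∑_a |X Ψ_a|²`. -/
theorem hasDerivAt_q_rows {M : ℝ → ι → ι → ℝ} {Ψ : ℝ → r → ι → ℝ} {Ψ' : r → ι → ℝ} {b t x : ℝ}
    (hM : HasDerivAt M (b • qq (Ψ x)) x) (hΨ : ∀ a i, HasDerivAt (fun s => Ψ s a i) (Ψ' a i) x)
    (hu : IsUnit (Jop (M x) t)) (hs : ∀ a c, M x a c = M x c a) :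
    HasDerivAt (fun s => dpr (qq (Ψ s)) (Xsol (M s) t (Ψ s)))
      (4 * ∑ a, ∑ i, Ψ' a i * xi (Xsol (M x) t (Ψ x)) (Ψ x a) i -
        b * ∑ a, ∑ i, xi (Xsol (M x) t (Ψ x)) (Ψ x a) i ^ 2) x := by
  have hS : HasDerivAt (fun s => qq (Ψ s))
      (fun i j => ∑ a, (Ψ' a i * Ψ x a j + Ψ x a i * Ψ' a j)) x :=
    hasDerivAt_of_entry2 fun i j => HasDerivAt.fun_sum fun a _ => (hΨ a i).mul (hΨ a j)
  have hY : HasDerivAt (fun s => Xsol (M s) t (Ψ s))
      (Ring.inverse (Jop (M x) t) ((fun i j => ∑ a, (Ψ' a i * Ψ x a j + Ψ x a i * Ψ' a j)) -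
        Jop (b • qq (Ψ x)) 0 (Ring.inverse (Jop (M x) t) (qq (Ψ x))))) x :=
    hasDerivAt_inverse_apply (hasDerivAt_Jop t hM) hS hu
  have h := hasDerivAt_dpr hS hY
  refine h.congr_deriv ?_
  have hYdef : Ring.inverse (Jop (M x) t) (qq (Ψ x)) = Xsol (M x) t (Ψ x) := rfl
  rw [hYdef]
  set X := Xsol (M x) t (Ψ x) with hX
  have hXs : ∀ i j, X i j = X j i := inv_symm2 hs hu (qq_symm _)
  set S' : ι → ι → ℝ := fun i j => ∑ a, (Ψ' a i * Ψ x a j + Ψ x a i * Ψ' a j) with hS'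
  have e0 : dpr (qq (Ψ x)) (Ring.inverse (Jop (M x) t) (S' - Jop (b • qq (Ψ x)) 0 X))
      = dpr X (S' - Jop (b • qq (Ψ x)) 0 X) := (dpr_inv hs hu _ _).symm
  have e2 : dpr X (S' - Jop (b • qq (Ψ x)) 0 X)
      = dpr X S' - dpr X (Jop (b • qq (Ψ x)) 0 X) := by
    simp only [dpr, Pi.sub_apply, mul_sub, Finset.sum_sub_distrib]
  have e1 : dpr S' X = 2 * ∑ a, ∑ i, Ψ' a i * xi X (Ψ x a) i := by
    have e3 : ∀ a, ∑ i, Ψ' a i * xi X (Ψ x a) i = ∑ i, ∑ j, Ψ' a i * Ψ x a j * X i j := by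
      intro a
      simp only [xi, Finset.mul_sum]
      exact Finset.sum_congr rfl fun i _ => Finset.sum_congr rfl fun j _ => by ring
    have e4 : ∀ a, ∑ i, ∑ j, Ψ x a i * Ψ' a j * X i j = ∑ i, ∑ j, Ψ' a i * Ψ x a j * X i j := by
      intro a
      rw [Finset.sum_comm]
      refine Finset.sum_congr rfl fun i _ => Finset.sum_congr rfl fun j _ => ?_
      rw [hXs j i]
      ring
    have e5 : dpr S' X = ∑ a, ∑ i, ∑ j, (Ψ' a i * Ψ x a j + Ψ x a i * Ψ' a j) * X i j := by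
      calc dpr S' X = ∑ i, ∑ j, ∑ a, (Ψ' a i * Ψ x a j + Ψ x a i * Ψ' a j) * X i j := by
            simp only [dpr, hS', Finset.sum_mul]
        _ = ∑ i, ∑ a, ∑ j, (Ψ' a i * Ψ x a j + Ψ x a i * Ψ' a j) * X i j :=
            Finset.sum_congr rfl fun i _ => Finset.sum_comm
        _ = _ := Finset.sum_comm
    rw [e5, Finset.mul_sum]
    refine Finset.sum_congr rfl fun a _ => ?_
    simp only [add_mul, Finset.sum_add_distrib]
    rw [e4, e3]
    ring
  rw [e0, e2, dpr_comm X S', e1, dpr_smul_Jop, dpr_jordan_qq _ hXs]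
  ring

end Vale.Agent.Lib.P371.Sharp.Rows
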