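import Vale.Agent.Lib.P371.Sharp.RowsBlock
import Vale.Agent.Lib.P371.Sharp.RowsCore
import Vale.Agent.Lib.P371.Constants

/-!
From the dual inequality for real rows to the sharp matrix Lieb-Thirring inequality at `γ = 1`
in its trial state form.
-/

open Set MeasureTheory Real Matrix
open scoped ComplexOrder

namespace Vale.Agent.Lib.P371.Sharp

open Vale.Agent.Lib.P371 Vale.Agent.Lib.P371.Cal

variable {m N : ℕ}

private lemma intervalIntegrable_of_memLp' {f : ℝ → ℂ} (h : MemLp f 2 volume) (a b : ℝ) :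
    IntervalIntegrable f volume a b := by
  rw [intervalIntegrable_iff]
  have : IsFiniteMeasure (volume.restrict (Set.uIoc a b)) :=
    ⟨by simp [Measure.restrict_apply, Set.uIoc, Real.volume_Ioc, ENNReal.ofReal_lt_top]⟩
  exact (h.restrict (Set.uIoc a b)).integrable (by norm_num)

/-- `IsH1` is stable under multiplication by `i`. -/
lemma isH1_I {f f' : ℝ → ℂ} (h : IsH1 f f') :
    IsH1 (fun x => Complex.I * f x) (fun x => Complex.I * f' x) := by
  refine ⟨h.memLp.const_mul _, h.memLp_deriv.const_mul _, fun a b => ?_⟩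
  rw [intervalIntegral.integral_const_mul, h.primitive, mul_sub]

/-- `IsH1` under `mulI`. -/
lemma isH1_mulI (t : Bool) {f f' : ℝ → ℂ} (h : IsH1 f f') :
    IsH1 (fun x => mulI t (f x)) (fun x => mulI t (f' x)) := by
  cases t
  · simpa [mulI] using h
  · simpa [mulI] using isH1_I h

/-- From `IsH1` to the real and imaginary parts. -/
lemma rh1_reR (s : Bool) {f f' : ℝ → ℂ} (h : IsH1 f f') :
    RH1 (fun x => reR s (f x)) (fun x => reR s (f' x)) := by
  cases s
  · refine ⟨by simpa [reR] using h.memLp.re, by simpa [reR] using h.memLp_deriv.re, fun a b => ?_⟩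
    have h1 := Complex.reCLM.intervalIntegral_comp_comm
      (intervalIntegrable_of_memLp' h.memLp_deriv a b)
    have h2 := h.primitive a b
    simp only [Complex.reCLM_apply] at h1
    simp only [reR, Bool.false_eq_true, if_false]
    rw [h1, h2, Complex.sub_re]
  · refine ⟨by simpa [reR] using h.memLp.im, by simpa [reR] using h.memLp_deriv.im, fun a b => ?_⟩
    have h1 := Complex.imCLM.intervalIntegral_comp_comm
      (intervalIntegrable_of_memLp' h.memLp_deriv a b)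
    have h2 := h.primitive a b
    simp only [Complex.imCLM_apply] at h1
    simp only [reR, if_true]
    rw [h1, h2, Complex.sub_im]

/-- The entries of the block matrix are real `H¹` functions. -/
lemma rh1_block {ψ ψ' : Fin N → ℝ → Fin m → ℂ}
    (hH : ∀ j c, IsH1 (fun x => ψ j x c) (fun x => ψ' j x c))
    (a : Fin m × Bool) (i : Fin N × Bool) :
    RH1 (fun x => blockF (fun j => ψ j x) a i) (fun x => blockF (fun j => ψ' j x) a i) :=
  rh1_reR a.2 (isH1_mulI i.2 (hH i.1 a.1))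

/-- The combination of the block matrix along a real vector `e`. -/
lemma sum_e_block (z : Fin N → Fin m → ℂ) (e : Fin N × Bool → ℝ) (a : Fin m × Bool) :
    ∑ i, e i * blockF z a i =
      reR a.2 (∑ j, ((e (j, false) : ℂ) + Complex.I * (e (j, true) : ℂ)) * z j a.1) := by
  rcases a with ⟨c, s⟩
  have h1 : ∀ f : Fin N → ℂ, reR s (∑ j, f j) = ∑ j, reR s (f j) := by
    intro f
    cases s <;> simp [reR, Complex.re_sum, Complex.im_sum]
  rw [Fintype.sum_prod_type, h1]
  apply Finset.sum_congr rfl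
  intro j _
  simp only [Fintype.sum_bool, blockF]
  cases s <;> simp [reR, mulI, Complex.mul_re, Complex.mul_im] <;> ring

/-- The Gram bound of the block family. -/
lemma gram_block {ψ ψ' : Fin N → ℝ → Fin m → ℂ}
    (hH : ∀ j c, IsH1 (fun x => ψ j x c) (fun x => ψ' j x c))
    (horth : ∀ j k, ∑ c, ∫ x, star (ψ j x c) * ψ k x c = if j = k then 1 else 0)
    (e : Fin N × Bool → ℝ) (he : ∑ i, e i ^ 2 = 1) :
    ∑ a, ∫ x, (∑ i, e i * blockF (fun j => ψ j x) a i) ^ 2 ≤ 1 := by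
  classical
  obtain ⟨z, hz⟩ : ∃ z : Fin N → ℂ, z = fun j => (e (j, false) : ℂ) + Complex.I * (e (j, true) : ℂ) :=
    ⟨_, rfl⟩
  obtain ⟨F, hF⟩ : ∃ F : Fin m → ℝ → ℂ, F = fun c x => ∑ j, z j * ψ j x c := ⟨_, rfl⟩
  have hsum : ∀ (x : ℝ) (a : Fin m × Bool),
      ∑ i, e i * blockF (fun j => ψ j x) a i = reR a.2 (F a.1 x) := by
    intro x a
    rw [sum_e_block, hF, hz]
  simp only [hsum]
  have hI : ∀ c j k, Integrable fun x => star (ψ j x c) * ψ k x c := by
    intro c j k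
    exact ((hH j c).memLp.star).integrable_mul (hH k c).memLp
  have hexp : ∀ c x, ((‖F c x‖ ^ 2 : ℝ) : ℂ)
      = ∑ j, ∑ k, (star (z j) * z k) * (star (ψ j x c) * ψ k x c) := by
    intro c x
    have h1 : ((‖F c x‖ ^ 2 : ℝ) : ℂ) = star (F c x) * F c x := by
      rw [Complex.star_def, Complex.conj_mul']
      push_cast
      rfl
    rw [h1, hF]
    simp only [star_sum, star_mul', Finset.sum_mul, Finset.mul_sum]
    rw [Finset.sum_comm]
    refine Finset.sum_congr rfl fun j _ => Finset.sum_congr rfl fun k _ => ?_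
    ring
  have hFint : ∀ c, Integrable fun x => ((‖F c x‖ ^ 2 : ℝ) : ℂ) := by
    intro c
    simp only [hexp]
    refine integrable_finsetSum _ fun j _ => integrable_finsetSum _ fun k _ => ?_
    exact (hI c j k).const_mul _
  have hFint' : ∀ c, Integrable fun x => ‖F c x‖ ^ 2 := by
    intro c
    have := (hFint c).re
    simpa only [RCLike.re_to_complex, Complex.ofReal_re] using this
  have hval1 : ∀ c, ((∫ x, ‖F c x‖ ^ 2 : ℝ) : ℂ) =
      ∑ j, ∑ k, (star (z j) * z k) * ∫ x, star (ψ j x c) * ψ k x c := by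
    intro c
    rw [← integral_complex_ofReal]
    simp only [hexp]
    rw [integral_finsetSum _ (fun j _ => integrable_finsetSum _ fun k _ => (hI c j k).const_mul _)]
    refine Finset.sum_congr rfl fun j _ => ?_
    rw [integral_finsetSum _ (fun k _ => (hI c j k).const_mul _)]
    refine Finset.sum_congr rfl fun k _ => ?_
    rw [integral_const_mul]
  have hval : ((∑ c, ∫ x, ‖F c x‖ ^ 2 : ℝ) : ℂ) = 1 := by
    push_cast
    simp only [hval1]
    rw [Finset.sum_comm]
    have h2 : ∀ j, ∑ c, ∑ k, (star (z j) * z k) * ∫ x, star (ψ j x c) * ψ k x c =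
        star (z j) * z j := by
      intro j
      rw [Finset.sum_comm]
      simp only [← Finset.mul_sum, horth]
      simp
    simp only [h2]
    have h3 : ∀ j, star (z j) * z j = ((e (j, false) ^ 2 + e (j, true) ^ 2 : ℝ) : ℂ) := by
      intro j
      rw [hz]
      apply Complex.ext <;> simp [pow_two]
      ring
    simp only [h3]
    rw [← Complex.ofReal_sum]
    have h4 : ∑ j, (e (j, false) ^ 2 + e (j, true) ^ 2) = 1 := by
      rw [← he, Fintype.sum_prod_type]
      simp only [Fintype.sum_bool]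
      exact Finset.sum_congr rfl fun j _ => by ring
    rw [h4]
    simp
  have hval' : ∑ c, ∫ x, ‖F c x‖ ^ 2 = 1 := by exact_mod_cast hval
  rw [Fintype.sum_prod_type, ← hval']
  apply le_of_eq
  apply Finset.sum_congr rfl
  intro c _
  simp only [Fintype.sum_bool]
  have mF : MemLp (F c) 2 volume := by
    have : F c = ∑ j, fun x => z j * ψ j x c := by
      rw [hF]
      funext x
      simp [Finset.sum_apply]
    rw [this]
    exact memLp_finsetSum' _ fun j _ => (hH j c).memLp.const_mul (z j)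
  have i1 : Integrable fun x => reR false (F c x) ^ 2 := by
    simpa [reR] using mF.re.integrable_sq
  have i2 : Integrable fun x => reR true (F c x) ^ 2 := by
    simpa [reR] using mF.im.integrable_sq
  rw [add_comm, ← integral_add i1 i2]
  refine integral_congr_ae (Filter.Eventually.of_forall fun x => ?_)
  exact sq_reR_add (F c x)

/-- Young's inequality. -/
lemma young_cube {C : ℝ} (hC : 0 < C) (w ρ : ℝ) (hw : 0 ≤ w) (hρ : 0 ≤ ρ) :
    w * ρ ≤ 2 / (3 * √3 * C) * w ^ (3 / 2 : ℝ) + C ^ 2 * ρ ^ 3 := by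
  have hs3 : √3 ^ 2 = 3 := Real.sq_sqrt (by norm_num)
  have hs0 : 0 < √3 := by positivity
  have e1 : w ^ (3 / 2 : ℝ) = √w ^ 3 := by
    rw [Real.sqrt_eq_rpow, ← Real.rpow_natCast, ← Real.rpow_mul hw]
    norm_num
  rw [e1]
  obtain ⟨t, ht⟩ : ∃ t, t = √w := ⟨_, rfl⟩
  rw [← ht]
  have ht0 : 0 ≤ t := by rw [ht]; exact Real.sqrt_nonneg _
  have e2 : w = t ^ 2 := by rw [ht]; exact (Real.sq_sqrt hw).symm
  rw [e2]
  obtain ⟨r, hr⟩ : ∃ r, r = √3 * C * ρ := ⟨_, rfl⟩
  have hr0 : 0 ≤ r := by rw [hr]; positivity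
  have hpoly : 3 * t ^ 2 * r ≤ 2 * t ^ 3 + r ^ 3 := by
    nlinarith [mul_nonneg (sq_nonneg (t - r)) (by linarith : 0 ≤ 2 * t + r)]
  have e3 : 2 / (3 * √3 * C) * t ^ 3 + C ^ 2 * ρ ^ 3 - t ^ 2 * ρ
      = (2 * t ^ 3 + r ^ 3 - 3 * t ^ 2 * r) / (3 * √3 * C) := by
    rw [hr]
    field_simp
    ring_nf
    have : √3 ^ 3 = √3 ^ 2 * √3 := by ring
    rw [this, hs3]
    ring
  have e4 : 0 ≤ (2 * t ^ 3 + r ^ 3 - 3 * t ^ 2 * r) / (3 * √3 * C) :=
    div_nonneg (by linarith) (by positivity)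
  linarith

/-- The pointwise inequality, with the trace of the block matrix. -/
lemma pointwise_bound {A : Matrix (Fin m) (Fin m) ℂ} (hA : A.IsHermitian)
    (hAnn : ∀ α, 0 ≤ hA.eigenvalues α) (z : Fin N → Fin m → ℂ) {C : ℝ} (hC : 0 < C) :
    ∑ j, (star (z j) ⬝ᵥ A *ᵥ z j).re ≤
      2 / (3 * √3 * C) * ∑ α, hA.eigenvalues α ^ (3 / 2 : ℝ) +
        C ^ 2 / 2 * trQ3M (blockF z) := by
  have h1 := key_point hA hAnn z (C := 2 / (3 * √3 * C)) (K0 := C ^ 2)
    (fun w ρ hw hρ => young_cube hC w ρ hw hρ)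
  have h2 := pointwise_trace hA z
  have h3 : ∑ α, (∑ j, ‖∑ c, rowsU hA α c * z j c‖ ^ 2) ^ 3 * C ^ 2 =
      (∑ α, (∑ j, ‖∑ c, rowsU hA α c * z j c‖ ^ 2) ^ 3) * C ^ 2 := by
    rw [Finset.sum_mul]
  rw [h3] at h1
  have h4 : 0 ≤ C ^ 2 := by positivity
  nlinarith

/-- **Sharp matrix Lieb-Thirring inequality at `γ = 1` on the line, trial state form**, given the
core inequality on intervals. -/
theorem matrix_sharp_of_core
    (core : Rows.CoreStatement (Fin m × Bool) (Fin N × Bool))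
    {W : ℝ → Matrix (Fin m) (Fin m) ℂ} (hW : ∀ x, (W x).PosSemidef)
    (hWm : ∀ i j, Measurable fun x => W x i j)
    (hWint : Integrable fun x => ∑ i, (hW x).isHermitian.eigenvalues i ^ (3 / 2 : ℝ))
    {ψ ψ' : Fin N → ℝ → Fin m → ℂ}
    (hH : ∀ j c, IsH1 (fun x => ψ j x c) (fun x => ψ' j x c))
    (horth : ∀ j k, ∑ c, ∫ x, star (ψ j x c) * ψ k x c = if j = k then 1 else 0) :
    (∀ j, Integrable fun x => (star (ψ j x) ⬝ᵥ W x *ᵥ ψ j x).re) ∧
      ∑ j, ((∫ x, (star (ψ j x) ⬝ᵥ W x *ᵥ ψ j x).re) - ∑ c, ∫ x, ‖ψ' j x c‖ ^ 2) ≤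
        2 / √3 * (2 / (3 * π)) *
          ∫ x, ∑ i, (hW x).isHermitian.eigenvalues i ^ (3 / 2 : ℝ) := by
  have hV : ∀ j, Integrable fun x => (star (ψ j x) ⬝ᵥ W x *ᵥ ψ j x).re :=
    (matrix_bound hW hWm hWint hH horth).1
  refine ⟨hV, ?_⟩
  have hpi := Real.pi_pos
  obtain ⟨hi3, hd⟩ := Rows.rows_dual_line core
    (fun x a i => blockF (fun j => ψ j x) a i) (fun x a i => blockF (fun j => ψ' j x) a i)
    (rh1_block hH) (gram_block hH horth)
  have hi3' : Integrable fun x => trQ3M (blockF fun j => ψ j x) := hi3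
  have hkin : ∀ j c, Integrable fun x => ‖ψ' j x c‖ ^ 2 := fun j c =>
    (hH j c).memLp_deriv.integrable_norm_pow (by norm_num)
  have hd1 : π ^ 2 / 4 * ∫ x, trQ3M (blockF fun j => ψ j x) ≤
      ∫ x, ∑ a, ∑ i, blockF (fun j => ψ' j x) a i ^ 2 := hd
  have hd2 : ∫ x, ∑ a, ∑ i, blockF (fun j => ψ' j x) a i ^ 2 =
      2 * ∑ j, ∑ c, ∫ x, ‖ψ' j x c‖ ^ 2 := by
    simp only [sum_block_sq]
    rw [integral_const_mul, integral_finsetSum _ fun j _ => integrable_finsetSum _ fun c _ => hkin j c]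
    congr 1
    apply Finset.sum_congr rfl
    intro j _
    rw [integral_finsetSum _ fun c _ => hkin j c]
  rw [hd2] at hd1
  have hC : (0 : ℝ) < π / 2 := by positivity
  have hs0 : 0 < √3 := by positivity
  have hval : 2 / (3 * √3 * (π / 2)) = 2 / √3 * (2 / (3 * π)) := by
    field_simp
  have hpt : ∀ x, ∑ j, (star (ψ j x) ⬝ᵥ W x *ᵥ ψ j x).re ≤
      2 / √3 * (2 / (3 * π)) * ∑ i, (hW x).isHermitian.eigenvalues i ^ (3 / 2 : ℝ) +
        (π / 2) ^ 2 / 2 * trQ3M (blockF fun j => ψ j x) := fun x => by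
    rw [← hval]
    exact pointwise_bound (hW x).isHermitian (hW x).eigenvalues_nonneg (fun j => ψ j x) hC
  have hi : ∫ x, ∑ j, (star (ψ j x) ⬝ᵥ W x *ᵥ ψ j x).re ≤
      ∫ x, (2 / √3 * (2 / (3 * π)) * ∑ i, (hW x).isHermitian.eigenvalues i ^ (3 / 2 : ℝ) +
        (π / 2) ^ 2 / 2 * trQ3M (blockF fun j => ψ j x)) :=
    integral_mono (integrable_finsetSum _ fun j _ => hV j)
      ((hWint.const_mul _).add (hi3'.const_mul _)) hpt
  rw [integral_add (hWint.const_mul _) (hi3'.const_mul _), integral_const_mul, integral_const_mul,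
    integral_finsetSum _ fun j _ => hV j] at hi
  rw [Finset.sum_sub_distrib]
  have e : (π / 2) ^ 2 / 2 * ∫ x, trQ3M (blockF fun j => ψ j x) =
      (1 / 2) * (π ^ 2 / 4 * ∫ x, trQ3M (blockF fun j => ψ j x)) := by ring
  rw [e] at hi
  have e2 : ∫ x, trQ3M (blockF fun j => ψ j x) = ∫ x, trQ3M (blockF fun j => ψ j x) := rfl
  linarith

/-- **Sharp matrix Lieb-Thirring inequality at `γ = 1` on the line, trial state form.** -/
theorem matrix_sharp
    {W : ℝ → Matrix (Fin m) (Fin m) ℂ} (hW : ∀ x, (W x).PosSemidef)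
    (hWm : ∀ i j, Measurable fun x => W x i j)
    (hWint : Integrable fun x => ∑ i, (hW x).isHermitian.eigenvalues i ^ (3 / 2 : ℝ))
    {ψ ψ' : Fin N → ℝ → Fin m → ℂ}
    (hH : ∀ j c, IsH1 (fun x => ψ j x c) (fun x => ψ' j x c))
    (horth : ∀ j k, ∑ c, ∫ x, star (ψ j x c) * ψ k x c = if j = k then 1 else 0) :
    (∀ j, Integrable fun x => (star (ψ j x) ⬝ᵥ W x *ᵥ ψ j x).re) ∧
      ∑ j, ((∫ x, (star (ψ j x) ⬝ᵥ W x *ᵥ ψ j x).re) - ∑ c, ∫ x, ‖ψ' j x c‖ ^ 2) ≤
        2 / √3 * (2 / (3 * π)) *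
          ∫ x, ∑ i, (hW x).isHermitian.eigenvalues i ^ (3 / 2 : ℝ) :=
  matrix_sharp_of_core Rows.rows_core hW hWm hWint hH horth

end Vale.Agent.Lib.P371.Sharp
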